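import Crest.Agent.R241.Defs

/-!
# Abstract compactness lemmas.  Helper prefix `gac_`.
-/

open MeasureTheory Set Filter Topology
open Crest.GeometryTopology.MetricCurrent
open Crest.GeometryTopology.Submanifold (Euc unitBallVol unitSphereArea)
open scoped ENNReal NNReal InnerProductSpace

noncomputable section

namespace Crest.Agent.R241

universe u

/-- Hilbert–Schmidt bound: for a.e. `o` and all rational coefficient vectors `c`,
`|∑ c k * T (e k) o| ≤ C ‖c‖`; hence `∑ (T (e k) o)² ≤ C²`. -/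
theorem sum_sq_le_of_bdd {Ω : Type*} [MeasurableSpace Ω] (ν : Measure Ω) [IsFiniteMeasure ν]
    (T : Lp ℝ 2 ν →ₗ[ℝ] Lp ℝ 2 ν) {C : ℝ} (hT : ∀ g, ∀ᵐ o ∂ν, |T g o| ≤ C * ‖g‖) {N : ℕ}
    {e : Fin N → Lp ℝ 2 ν} (he : Orthonormal ℝ e) :
    ∑ i, ‖T (e i)‖ ^ 2 ≤ C ^ 2 * ν.real univ := by
  have h1 : ∀ c : Fin N → ℝ, ∀ᵐ o ∂ν, (∑ i, c i * T (e i) o) ^ 2 ≤ C ^ 2 * ∑ i, c i ^ 2 := fun c => by
    have h2 : ‖∑ i, c i • e i‖ ^ 2 = ∑ i, c i ^ 2 := by
      rw [← real_inner_self_eq_norm_sq, he.inner_sum]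
      simp [sq]
    filter_upwards [hT (∑ i, c i • e i), Lp.coeFn_fun_finsetSum Finset.univ fun i => c i • T (e i),
      ae_all_iff.2 fun i => Lp.coeFn_smul (c i) (T (e i))] with o a1 a2 a3
    simp only [map_sum, map_smul, a2, a3, Pi.smul_apply, smul_eq_mul] at a1
    rw [← h2, ← mul_pow, ← sq_abs]
    exact pow_le_pow_left₀ (abs_nonneg _) a1 2
  have h3 : ∀ᵐ o ∂ν, ∑ i, T (e i) o ^ 2 ≤ C ^ 2 := by
    filter_upwards [ae_all_iff.2 fun q : Fin N → ℚ => h1 fun i => q i] with o ho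
    have h4 : ∀ c : Fin N → ℝ, (∑ i, c i * T (e i) o) ^ 2 ≤ C ^ 2 * ∑ i, c i ^ 2 := fun c =>
      (DenseRange.piMap fun _ : Fin N => Rat.denseRange_cast (𝕜 := ℝ)).induction_on c
        (isClosed_le (by fun_prop) (by fun_prop)) ho
    have h5 := h4 fun i => T (e i) o
    simp only [← sq] at h5
    rcases (Finset.sum_nonneg fun i (_ : i ∈ Finset.univ) => sq_nonneg (T (e i) o)).eq_or_lt with h6 | h6
    · exact h6.ge.trans (sq_nonneg C)
    · exact le_of_mul_le_mul_right (by rwa [← sq]) h6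
  have h7 : ∀ i, Integrable (fun o => T (e i) o ^ 2) ν := fun i => (Lp.memLp _).integrable_sq
  have h8 : ∀ i, ‖T (e i)‖ ^ 2 = ∫ o, T (e i) o ^ 2 ∂ν := fun i => by
    rw [← real_inner_self_eq_norm_sq, L2.inner_def]
    simp [sq]
  simp only [h8]
  rw [← integral_finsetSum _ fun i _ => h7 i, mul_comm, ← smul_eq_mul, ← integral_const]
  exact integral_mono_ae (integrable_finsetSum _ fun i _ => h7 i) (integrable_const _) h3

/-- if no such `W` exists, build orthonormal families of every length with `‖T e‖ ≥ η` -/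
theorem exists_fd_of_hs {E : Type*} [NormedAddCommGroup E] [InnerProductSpace ℝ E]
    (T : E →ₗ[ℝ] E) {A : ℝ}
    (hT : ∀ (N : ℕ) (e : Fin N → E), Orthonormal ℝ e → ∑ i, ‖T (e i)‖ ^ 2 ≤ A) {η : ℝ}
    (hη : 0 < η) : ∃ W : Submodule ℝ E, FiniteDimensional ℝ W ∧ ∀ d ∈ Wᗮ, ‖T d‖ ≤ η * ‖d‖ := by
  by_contra hc
  push Not at hc
  have h1 : ∀ N : ℕ, ∃ e : Fin N → E, Orthonormal ℝ e ∧ ∀ i, η ≤ ‖T (e i)‖ := by
    intro N
    induction N with
    | zero => exact ⟨Fin.elim0, Orthonormal.of_isEmpty _, fun i => i.elim0⟩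
    | succ N ih =>
      obtain ⟨e, he, h2⟩ := ih
      obtain ⟨d, hd, h3⟩ := hc _ (FiniteDimensional.span_of_finite ℝ (finite_range e))
      have h0 : 0 < ‖d‖ := norm_pos_iff.2 fun h => by simp [h] at h3
      refine ⟨Matrix.vecCons (‖d‖⁻¹ • d) e, orthonormal_vecCons_iff.2 ⟨by simp [norm_smul, h0.ne'],
        fun i => ?_, he⟩, Fin.cases ?_ h2⟩
      · rw [real_inner_smul_left, Submodule.inner_left_of_mem_orthogonal
          (Submodule.subset_span (mem_range_self i)) hd, mul_zero]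
      · rw [Matrix.cons_val_zero, map_smul, norm_smul, norm_inv, norm_norm, le_inv_mul_iff₀' h0]
        exact h3.le
  obtain ⟨N, hN⟩ := exists_nat_gt (A / η ^ 2)
  obtain ⟨e, he, h2⟩ := h1 N
  have h3 := (Finset.sum_le_sum fun i _ => pow_le_pow_left₀ hη.le (h2 i) 2).trans (hT N e he)
  rw [Finset.sum_const, Finset.card_univ, Fintype.card_fin, nsmul_eq_mul] at h3
  exact absurd ((div_lt_iff₀ (by positivity)).1 hN) (not_lt.2 h3)

/-- multiplication by an indicator function -/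
theorem gac_ind {Ω : Type*} [MeasurableSpace Ω] (ν : Measure Ω) {s : Set Ω} (hs : MeasurableSet s) :
    ∃ P : Lp ℝ 2 ν →ₗ[ℝ] Lp ℝ 2 ν, ∀ g, P g =ᵐ[ν] s.indicator g := by
  have h : ∀ g : Lp ℝ 2 ν, MemLp (s.indicator g) 2 ν := fun g => (Lp.memLp g).indicator hs
  refine ⟨⟨⟨fun g => (h g).toLp _, fun f g => ?_⟩, fun a g => ?_⟩, fun g => (h g).coeFn_toLp⟩
  · rw [← MemLp.toLp_add]
    refine MemLp.toLp_congr _ _ ?_
    filter_upwards [Lp.coeFn_add f g] with o ho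
    simp only [indicator, Pi.add_apply, ho]
    split_ifs <;> simp
  · dsimp only
    rw [RingHom.id_apply, ← MemLp.toLp_const_smul]
    refine MemLp.toLp_congr _ _ ?_
    filter_upwards [Lp.coeFn_smul a g] with o ho
    simp only [indicator, Pi.smul_apply, ho]
    split_ifs <;> simp

theorem gac_schur {Ω : Type*} [MeasurableSpace Ω] (ν : Measure Ω) [SFinite ν]
    {K : Ω → Ω → ℝ≥0∞} (hK : Measurable (Function.uncurry K)) (hs : ∀ o o', K o o' = K o' o)
    {η : ℝ≥0∞} (hη : ∀ o, ∫⁻ o', K o o' ∂ν ≤ η) {a : Ω → ℝ≥0} (ha : Measurable a) :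
    ∫⁻ o, (∫⁻ o', a o' * K o o' ∂ν) * a o ∂ν ≤ η * ∫⁻ o, (a o : ℝ≥0∞) ^ 2 ∂ν := by
  have ha' : Measurable fun o => (a o : ℝ≥0∞) := ha.coe_nnreal_ennreal
  have hKo : ∀ o, Measurable (K o) := fun o => hK.of_uncurry_left
  have h1 : ∫⁻ o, ∫⁻ o', (a o : ℝ≥0∞) ^ 2 * K o o' ∂ν ∂ν ≤ η * ∫⁻ o, (a o : ℝ≥0∞) ^ 2 ∂ν := by
    rw [← lintegral_const_mul _ (ha'.pow_const 2)]
    refine lintegral_mono fun o => ?_
    rw [lintegral_const_mul _ (hKo o), mul_comm]
    exact mul_le_mul_left (hη o) _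
  have h2 : ∫⁻ o, ∫⁻ o', (a o' : ℝ≥0∞) ^ 2 * K o o' ∂ν ∂ν ≤ η * ∫⁻ o, (a o : ℝ≥0∞) ^ 2 ∂ν := by
    rw [lintegral_lintegral_swap
      (((ha'.comp measurable_snd).pow_const 2).mul hK).aemeasurable]
    simpa only [hs] using h1
  refine (ENNReal.mul_le_mul_iff_right two_ne_zero ENNReal.ofNat_ne_top).1 ?_
  rw [two_mul (η * _)]
  refine le_trans ?_ (add_le_add h1 h2)
  rw [← lintegral_add_left (Measurable.lintegral_prod_right
    (((ha'.comp measurable_fst).pow_const 2).mul hK)), ← lintegral_const_mul' _ _ ENNReal.ofNat_ne_top]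
  refine lintegral_mono fun o => ?_
  rw [← lintegral_add_left ((hKo o).const_mul _), ← lintegral_mul_const' _ _ ENNReal.coe_ne_top,
    ← lintegral_const_mul' _ _ ENNReal.ofNat_ne_top]
  refine lintegral_mono fun o' => ?_
  have h3 : 2 * (a o : ℝ≥0∞) * a o' ≤ (a o : ℝ≥0∞) ^ 2 + (a o' : ℝ≥0∞) ^ 2 := by
    exact_mod_cast two_mul_le_add_sq (a o) (a o')
  calc 2 * ((a o' : ℝ≥0∞) * K o o' * a o) = 2 * (a o : ℝ≥0∞) * a o' * K o o' := by ring
    _ ≤ _ := by rw [← add_mul]; exact mul_le_mul_left h3 _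


/-- near/far splitting along a finite partition `c`: `T g = ∑_{far i j} 1_i S (1_j g)` is bounded
`L² → L^∞`; the rest of `⟪S d, d⟫` is at most `∫∫_{near} |d| |d'| k ≤ η ‖d‖²`
(`|d| |d'| ≤ (d² + d'²)/2`, symmetry). -/
theorem exists_fd {Ω : Type*} [MeasurableSpace Ω] (ν : Measure Ω) [IsFiniteMeasure ν]
    (S : Lp ℝ 2 ν →ₗ[ℝ] Lp ℝ 2 ν) {k : Ω → Ω → ℝ≥0∞} (hk : Measurable (Function.uncurry k))
    (hs : ∀ o o', k o o' = k o' o) (hS : ∀ g, ∀ᵐ o ∂ν, ‖S g o‖ₑ ≤ ∫⁻ o', ‖g o'‖ₑ * k o o' ∂ν)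
    {η : ℝ} (hη : 0 < η) {ι : Type} [Fintype ι] (c : Ω → ι) (hc : ∀ i, MeasurableSet (c ⁻¹' {i}))
    (far : ι → ι → Prop) (hfs : ∀ i j, far i j → far j i) (C : ℝ≥0)
    (hfar : ∀ o o', far (c o) (c o') → k o o' ≤ C)
    (hnear : ∀ o, ∫⁻ o' in {o' | ¬ far (c o) (c o')}, k o o' ∂ν ≤ ENNReal.ofReal η) :
    ∃ W : Submodule ℝ (Lp ℝ 2 ν), FiniteDimensional ℝ W ∧
      ∀ d ∈ Wᗮ, ⟪S d, d⟫_ℝ ≤ 2 * η * ‖d‖ ^ 2 := by
  classical
  let : MeasurableSpace ι := ⊤
  have hcm : Measurable c := measurable_to_countable' hc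
  have hF : ∀ i, MeasurableSet {o' | far i (c o')} := fun i =>
    hcm (MeasurableSet.of_discrete (s := {j | far i j}))
  choose P hP using fun i => gac_ind ν (hc i)
  choose Q hQ using fun i => gac_ind ν (hF i)
  set T : Lp ℝ 2 ν →ₗ[ℝ] Lp ℝ 2 ν := ∑ i, P i ∘ₗ S ∘ₗ Q i with hT
  have eT : ∀ g, ∀ᵐ o ∂ν, T g o = S (Q (c o) g) o := fun g => by
    have h1 := Lp.coeFn_finsetSum Finset.univ
      fun i => P i (S (Q i g))
    filter_upwards [h1, ae_all_iff.2 fun i => hP i (S (Q i g))]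
      with o a1 a2
    simp only [hT, LinearMap.sum_apply, LinearMap.comp_apply]
    rw [a1, Finset.sum_apply, Finset.sum_eq_single (c o)]
    · rw [a2, indicator_of_mem (by simp)]
    · intro i _ hi
      rw [a2, indicator_of_notMem (by simpa using hi.symm)]
    · simp
  have hb : ∀ g : Lp ℝ 2 ν, ∫⁻ o, ‖g o‖ₑ ∂ν ≤ ENNReal.ofReal (√(ν.real univ) * ‖g‖) := fun g => by
    have := eLpNorm_le_eLpNorm_mul_rpow_measure_univ (μ := ν) (p := 1) (q := 2) (by norm_num)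
      (Lp.aestronglyMeasurable g)
    rw [eLpNorm_one_eq_lintegral_enorm] at this
    refine this.trans_eq ?_
    rw [ENNReal.ofReal_mul (Real.sqrt_nonneg _), ofReal_norm, Lp.enorm_def, mul_comm,
      Real.sqrt_eq_rpow, ← ENNReal.ofReal_rpow_of_nonneg measureReal_nonneg (by norm_num),
      ofReal_measureReal]
    norm_num
  have hTb : ∀ g, ∀ᵐ o ∂ν, |T g o| ≤ C * √(ν.real univ) * ‖g‖ := fun g => by
    filter_upwards [eT g, ae_all_iff.2 fun i => hS (Q i g)] with o a1 a2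
    have h1 : ∫⁻ o', ‖Q (c o) g o'‖ₑ * k o o' ∂ν ≤ C * ∫⁻ o', ‖g o'‖ₑ ∂ν := by
      rw [← lintegral_const_mul' _ _ ENNReal.coe_ne_top]
      refine lintegral_mono_ae ?_
      filter_upwards [hQ (c o) g] with o' b
      rw [b]
      by_cases h : far (c o) (c o')
      · rw [indicator_of_mem (show o' ∈ {o' | far (c o) (c o')} from h), mul_comm]
        exact mul_le_mul_left (hfar o o' h) _
      · rw [indicator_of_notMem (show o' ∉ {o' | far (c o) (c o')} from h)]; simp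
    have h2 := ((a2 (c o)).trans h1).trans (mul_le_mul_right (hb g) _)
    rw [← a1, ← ENNReal.ofReal_coe_nnreal, ← ENNReal.ofReal_mul C.coe_nonneg,
      ← ofReal_norm, ENNReal.ofReal_le_ofReal_iff (by positivity)] at h2
    rwa [mul_assoc]
  obtain ⟨W, hW, hWd⟩ := exists_fd_of_hs T (fun N e he => sum_sq_le_of_bdd ν T hTb he) hη
  refine ⟨W, hW, fun d hd => ?_⟩
  have h1 : ⟪T d, d⟫_ℝ ≤ η * ‖d‖ ^ 2 :=
    (real_inner_le_norm _ _).trans (by
      rw [pow_two, ← mul_assoc]; exact mul_le_mul_of_nonneg_right (hWd d hd) (norm_nonneg _))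
  have hN : MeasurableSet {p : Ω × Ω | ¬far (c p.1) (c p.2)} :=
    ((hcm.comp measurable_fst).prodMk (hcm.comp measurable_snd))
      (toFinite {q : ι × ι | ¬far q.1 q.2}).measurableSet
  set K : Ω → Ω → ℝ≥0∞ := fun o o' => if ¬far (c o) (c o') then k o o' else 0 with hK
  have h2 := gac_schur ν (K := K) (Measurable.ite hN hk measurable_const)
    (fun o o' => by
      simp only [hK, hs o o', show far (c o) (c o') ↔ far (c o') (c o) from ⟨hfs _ _, hfs _ _⟩])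
    (η := ENNReal.ofReal η) (fun o => by
      refine le_trans (le_of_eq ?_) (hnear o)
      rw [← lintegral_indicator (s := {o' | ¬far (c o) (c o')}) (hF (c o)).compl]
      exact lintegral_congr fun o' => by by_cases h : far (c o) (c o') <;> simp [hK, h])
    (Lp.stronglyMeasurable d).measurable.nnnorm
  have h3 : ∀ᵐ o ∂ν, ‖(S d - T d) o‖ₑ ≤ ∫⁻ o', ‖d o'‖₊ * K o o' ∂ν := by
    filter_upwards [eT d, Lp.coeFn_sub (S d) (T d),
      ae_all_iff.2 fun i => Lp.coeFn_sub (S d) (S (Q i d)),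
      ae_all_iff.2 fun i => hS (d - Q i d)] with o a1 a2 a3 a4
    rw [a2, Pi.sub_apply, a1, ← Pi.sub_apply (S d : Ω → ℝ), ← a3, ← map_sub]
    refine (a4 (c o)).trans (lintegral_mono_ae ?_)
    filter_upwards [hQ (c o) d, Lp.coeFn_sub d (Q (c o) d)]
      with o' b1 b2
    rw [b2, Pi.sub_apply, b1]
    by_cases h : far (c o) (c o')
    · rw [indicator_of_mem (show o' ∈ {o' | far (c o) (c o')} from h)]; simp
    · rw [indicator_of_notMem (show o' ∉ {o' | far (c o) (c o')} from h), sub_zero]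
      simp only [hK, if_pos h]
      rfl
  have h4 : ∫⁻ o, ((‖d o‖₊ : ℝ≥0) : ℝ≥0∞) ^ 2 ∂ν = ENNReal.ofReal (‖d‖ ^ 2) := by
    rw [← real_inner_self_eq_norm_sq, L2.inner_def, ofReal_integral_eq_lintegral_ofReal
      (L2.integrable_inner d d) (Eventually.of_forall fun o => real_inner_self_nonneg)]
    refine lintegral_congr fun o => ?_
    rw [real_inner_self_eq_norm_sq, ENNReal.ofReal_pow (norm_nonneg _), ofReal_norm]
    rfl
  have h5 : ⟪S d - T d, d⟫_ℝ ≤ η * ‖d‖ ^ 2 := by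
    rw [L2.inner_def]
    refine (le_abs_self _).trans ?_
    rw [← Real.norm_eq_abs, ← ENNReal.ofReal_le_ofReal_iff (by positivity), ofReal_norm,
      ENNReal.ofReal_mul hη.le, ← h4]
    refine (enorm_integral_le_lintegral_enorm _).trans (le_trans (lintegral_mono_ae ?_) h2)
    filter_upwards [h3] with o a
    rw [real_inner_eq_re_inner ℝ, RCLike.inner_apply, RCLike.re_to_real, conj_trivial, enorm_mul,
      mul_comm]
    exact mul_le_mul_left a _
  rw [inner_sub_left] at h5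
  linarith
/-- `f = P_W f + d`, `‖d‖² = ⟪f, d⟫ ≤ η ‖d‖` -/
theorem totallyBounded_of_fd {E : Type*} [NormedAddCommGroup E] [InnerProductSpace ℝ E]
    {A : Set E} (hA : Bornology.IsBounded A)
    (h : ∀ η > 0, ∃ W : Submodule ℝ E, FiniteDimensional ℝ W ∧
      ∀ f ∈ A, ∀ d ∈ Wᗮ, ⟪f, d⟫_ℝ ≤ η * ‖d‖) : TotallyBounded A := by
  refine Metric.totallyBounded_iff.2 fun ε hε => ?_
  obtain ⟨W, hW, h1⟩ := h (ε / 2) (half_pos hε)
  have : ProperSpace W := FiniteDimensional.proper_real W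
  have h2 : TotallyBounded (W.orthogonalProjectionOnto '' A) :=
    (W.orthogonalProjectionOnto.lipschitz.isBounded_image hA).isCompact_closure.totallyBounded.subset
      subset_closure
  obtain ⟨t, ht, h3⟩ := Metric.totallyBounded_iff.1 h2 (ε / 2) (half_pos hε)
  refine ⟨(↑) '' t, ht.image _, fun f hf => ?_⟩
  obtain ⟨y, hy, h4⟩ := mem_iUnion₂.1 (h3 (mem_image_of_mem _ hf))
  refine mem_biUnion (mem_image_of_mem _ hy) ?_
  have hd := W.sub_starProjection_mem_orthogonal f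
  have h5 := h1 f hf _ hd
  have h6 : ⟪f, f - W.starProjection f⟫_ℝ = ‖f - W.starProjection f‖ * ‖f - W.starProjection f‖ := by
    rw [← real_inner_self_eq_norm_mul_norm, inner_sub_left _ (W.starProjection f),
      Submodule.inner_right_of_mem_orthogonal (W.starProjection_apply_mem f) hd, sub_zero]
  have h7 : dist f (W.starProjection f) ≤ ε / 2 := by
    rw [dist_eq_norm]
    nlinarith [norm_nonneg (f - W.starProjection f)]
  have h8 : dist (W.starProjection f) y < ε / 2 := h4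
  rw [Metric.mem_ball]
  linarith [dist_triangle f (W.starProjection f) y]

end Crest.Agent.R241
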