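import Crest.Agent.R241.G.Min

/-!
# Boundedness of extremals, pole inequality, lower bound for `N`.  Helper prefix `gbdd_`.
-/

open MeasureTheory Set Filter Topology
open Crest.GeometryTopology.MetricCurrent
open Crest.GeometryTopology.Submanifold (Euc unitBallVol unitSphereArea)
open scoped ENNReal NNReal InnerProductSpace

noncomputable section

namespace Crest.Agent.R241

universe u

/-- contraction trick: `T v o = ∫⁻ ϑ v k`; `v = u - 2c` (truncated) satisfies `v ≤ T v`, and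
`∫⁻ ϑ T v ≤ ½ ∫⁻ ϑ v` by Tonelli and symmetry, so `ϑ v = 0` a.e. -/
theorem ae_le_of_contract {Ω : Type*} [MeasurableSpace Ω] (ν : Measure Ω) [IsFiniteMeasure ν]
    {k : Ω → Ω → ℝ≥0∞} (hk : Measurable (Function.uncurry k)) (hs : ∀ o o', k o o' = k o' o)
    {u ϑ : Ω → ℝ≥0∞} (hu : Measurable u) (hϑ : Measurable ϑ) {c : ℝ≥0}
    (h1 : ∀ o, ∫⁻ o', ϑ o' * k o o' ∂ν ≤ 1 / 2) (h2 : ∫⁻ o, ϑ o * u o ∂ν ≠ ⊤)
    (h3 : ∀ᵐ o ∂ν, u o ≤ ∫⁻ o', ϑ o' * u o' * k o o' ∂ν + c) : ∀ᵐ o ∂ν, u o ≤ 2 * c := by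
  set v : Ω → ℝ≥0∞ := fun o => u o - 2 * c with hv
  have hvm : Measurable v := hu.sub measurable_const
  have hko : ∀ o, Measurable (k o) := fun o => hk.of_uncurry_left
  have m1 : ∀ o, Measurable fun o' => ϑ o' * v o' * k o o' := fun o => (hϑ.mul hvm).mul (hko o)
  have m2 : ∀ o, Measurable fun o' => ϑ o' * k o o' := fun o => hϑ.mul (hko o)
  have hT : ∀ᵐ o ∂ν, v o ≤ ∫⁻ o', ϑ o' * v o' * k o o' ∂ν := by
    filter_upwards [h3] with o ho
    refine tsub_le_iff_right.2 (ho.trans ?_)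
    calc ∫⁻ o', ϑ o' * u o' * k o o' ∂ν + c
        ≤ ∫⁻ o', (ϑ o' * v o' * k o o' + 2 * c * (ϑ o' * k o o')) ∂ν + c := by
          gcongr with o'
          calc ϑ o' * u o' * k o o' ≤ ϑ o' * (v o' + 2 * c) * k o o' := by
                gcongr; exact le_tsub_add
            _ = _ := by ring
      _ ≤ ∫⁻ o', ϑ o' * v o' * k o o' ∂ν + 2 * c * (1 / 2) + c := by
          rw [lintegral_add_left (m1 o), lintegral_const_mul _ (m2 o)]
          gcongr
          exact h1 o
      _ = _ := by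
          rw [mul_comm 2, mul_assoc, one_div, ENNReal.mul_inv_cancel (by norm_num) (by norm_num), mul_one,
            add_assoc, mul_two]
  have hI : ∫⁻ o, ϑ o * v o ∂ν ≠ ⊤ :=
    ne_top_of_le_ne_top h2 (lintegral_mono fun o => mul_le_mul_right tsub_le_self _)
  have hI2 : ∫⁻ o, ϑ o * v o ∂ν ≤ (∫⁻ o, ϑ o * v o ∂ν) * (1 / 2) :=
    calc ∫⁻ o, ϑ o * v o ∂ν ≤ ∫⁻ o, ∫⁻ o', ϑ o' * v o' * (ϑ o * k o' o) ∂ν ∂ν := by
          refine lintegral_mono_ae (hT.mono fun o ho => (mul_le_mul_right ho _).trans (le_of_eq ?_))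
          rw [← lintegral_const_mul _ (m1 o)]
          exact lintegral_congr fun o' => by rw [hs o o']; ring
      _ = ∫⁻ o', ∫⁻ o, ϑ o' * v o' * (ϑ o * k o' o) ∂ν ∂ν :=
          lintegral_lintegral_swap ((((hϑ.mul hvm).comp measurable_snd).mul
            ((hϑ.comp measurable_fst).mul (hk.comp measurable_swap))).aemeasurable)
      _ ≤ ∫⁻ o', ϑ o' * v o' * (1 / 2) ∂ν := lintegral_mono fun o' => by
          simp only
          rw [lintegral_const_mul _ (m2 o')]
          exact mul_le_mul_right (h1 o') _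
      _ = _ := lintegral_mul_const _ (hϑ.mul hvm)
  have hI0 : ∫⁻ o, ϑ o * v o ∂ν = 0 := by
    by_contra h0
    rw [one_div, ← div_eq_mul_inv] at hI2
    exact absurd (ENNReal.half_lt_self h0 hI) (not_lt.2 hI2)
  have hz := (lintegral_eq_zero_iff (hϑ.mul hvm)).1 hI0
  filter_upwards [hT] with o ho
  rw [lintegral_congr_ae (g := fun _ => 0) (hz.mono fun o' (h : ϑ o' * v o' = 0) => by
    simp only [h, zero_mul]), lintegral_zero] at ho
  exact tsub_eq_zero_iff_le.1 (le_zero_iff.1 ho)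

set_option linter.unusedSectionVars false

variable {X : Type u} [MetricSpace X] [CompactSpace X] [MeasurableSpace X] [BorelSpace X]
  {Ω : Type u} [MeasurableSpace Ω] {σ Λ : ℝ} {n : ℕ} {V : VS σ Λ n X Ω}

namespace VS


theorem gbdd_young {x k t q : ℝ} (hx : 0 ≤ x) (hk : 0 ≤ k) (ht : 0 < t) (hq : 2 < q) :
    x ^ (q - 2) * k ≤ t ^ (q - 2) * k ^ (q / 2) + x ^ q / t ^ 2 := by
  have h1 := Real.rpow_nonneg hx q
  have h2 := Real.rpow_nonneg hk (q / 2)
  rcases le_total (x ^ 2) (t ^ 2 * k) with h | h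
  · have e1 : x ^ (q - 2) = (x ^ 2) ^ (q / 2 - 1) := by
      rw [← Real.rpow_natCast, ← Real.rpow_mul hx]; congr 1; push_cast; ring
    have e2 : t ^ (q - 2) = (t ^ 2) ^ (q / 2 - 1) := by
      rw [← Real.rpow_natCast, ← Real.rpow_mul ht.le]; congr 1; push_cast; ring
    have e3 : k ^ (q / 2) = k ^ (q / 2 - 1) * k := by
      conv_lhs => rw [show q / 2 = q / 2 - 1 + 1 by ring, Real.rpow_add' hk (by linarith), Real.rpow_one]
    have h3 := Real.rpow_le_rpow (sq_nonneg x) h (by linarith : 0 ≤ q / 2 - 1)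
    rw [Real.mul_rpow (sq_nonneg t) hk] at h3
    rw [e1, e2, e3, ← mul_assoc]
    exact (mul_le_mul_of_nonneg_right h3 hk).trans (le_add_of_nonneg_right (by positivity))
  · have e1 : x ^ q = x ^ (q - 2) * x ^ 2 := by
      rw [← Real.rpow_natCast, ← Real.rpow_add' hx (by push_cast; linarith)]; congr 1; push_cast; ring
    refine le_add_of_nonneg_of_le (by positivity) ?_
    rw [le_div_iff₀ (by positivity), e1, mul_assoc, mul_comm k]
    exact mul_le_mul_of_nonneg_left h (Real.rpow_nonneg hx _)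

/-- `exists_el`, `green_bound` with `g = u^(q-1)`, `ϑ = Cn⁻¹ 1_{u > R} u^(q-2)` (Hölder with
exponents `q/(q-2)`, `q/2` and `exists_kk_le`; `∫_{u>R} u^q → 0`); modify `u` on a null set. -/
theorem Std.exists_ext (hV : V.Std) {δ : ℝ} (hδ : δ ∈ Ioc (0 : ℝ) 1) : ∃ u ζ, V.Ext δ u ζ := by
  obtain ⟨u, ζ, hu, hm, h0, hN, hel, hmin⟩ := hV.exists_el hδ
  have hq : 2 < qq n δ := hV.qq_gt (by linarith [hδ.2])
  have haq := hV.aa_mul_qq δ
  set q := qq n δ with hqd
  have hiq : Integrable (fun o => u o ^ q) V.ν := by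
    obtain ⟨C, -, hC⟩ := hV.exists_sobolev (δ := δ) ⟨hδ.1, by linarith [hδ.2]⟩
    simpa only [abs_of_nonneg (h0 _)] using (hC u ζ hu).1
  have hg0 : ∀ o, 0 ≤ u o ^ (q - 1) := fun o => Real.rpow_nonneg (h0 o) _
  have hig : Integrable (fun o => u o ^ (q - 1)) V.ν := by
    refine ((integrable_const 1).add hiq).mono' (hm.pow_const _).aestronglyMeasurable
      (Eventually.of_forall fun o => ?_)
    rw [Real.norm_of_nonneg (hg0 o), Pi.add_apply]
    rcases le_total (u o) 1 with h | h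
    · linarith [Real.rpow_le_one (h0 o) h (by linarith : 0 ≤ q - 1), Real.rpow_nonneg (h0 o) q]
    · linarith [Real.rpow_le_rpow_of_exponent_le h (by linarith : q - 1 ≤ q)]
  have hG := hu.green_bound hV (Eventually.of_forall h0) hig (Eventually.of_forall hg0)
    fun v ζ' h _ => hel v ζ' h
  obtain ⟨C, hC, hkk⟩ := hV.exists_kk_le
  have hA : 0 < (Cn n)⁻¹ := inv_pos.2 (Cn_pos n)
  set A := (Cn n)⁻¹ with hAd
  have hδ0 := hδ.1
  obtain ⟨t, ht, ht'⟩ : ∃ t : ℝ, 0 < t ∧ A * t ^ (q - 2) * (C / δ) < 1 / 4 := by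
    have h1 : Tendsto (fun t : ℝ => A * t ^ (q - 2) * (C / δ)) (𝓝 0) (𝓝 0) := by
      have := ((Real.continuousAt_rpow_const 0 (q - 2) (Or.inr (by linarith))).tendsto.const_mul A).mul_const
        (C / δ)
      rwa [Real.zero_rpow (by linarith), mul_zero, zero_mul] at this
    exact (eventually_mem_nhdsWithin.and ((h1.eventually (gt_mem_nhds (by norm_num))).filter_mono
      (nhdsWithin_le_nhds (s := Ioi 0)))).exists
  have hw : ∀ R : ℝ, Integrable (fun o => if R < u o then u o ^ q else 0) V.ν := fun R =>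
    hiq.indicator (s := {o | R < u o}) (measurableSet_lt measurable_const hm)
  obtain ⟨R, hR⟩ : ∃ R : ℕ, A / t ^ 2 * ∫ o, (if (R : ℝ) < u o then u o ^ q else 0) ∂V.ν < 1 / 4 := by
    have h1 := tendsto_integral_of_dominated_convergence (μ := V.ν) (f := fun _ => (0 : ℝ))
      (F := fun (R : ℕ) o => if (R : ℝ) < u o then u o ^ q else 0) _ (fun R => (hw R).1) hiq
      (fun R => Eventually.of_forall fun o => by
        have := Real.rpow_nonneg (h0 o) q
        split_ifs
        · exact (Real.norm_of_nonneg this).le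
        · simpa using this)
      (Eventually.of_forall fun o => tendsto_const_nhds.congr' (by
        filter_upwards [tendsto_natCast_atTop_atTop.eventually_ge_atTop (u o)] with R hR
        rw [if_neg (not_lt.2 hR)]))
    exact ((h1.const_mul (A / t ^ 2)).eventually (gt_mem_nhds (by norm_num))).exists
  have hθ0 : ∀ o, 0 ≤ A * if (R : ℝ) < u o then u o ^ (q - 2) else 0 := fun o => by
    have := Real.rpow_nonneg (h0 o) (q - 2)
    split_ifs <;> positivity
  have hθu : ∀ o, ENNReal.ofReal (A * if (R : ℝ) < u o then u o ^ (q - 2) else 0) * ENNReal.ofReal (u o) =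
      ENNReal.ofReal (A * if (R : ℝ) < u o then u o ^ (q - 1) else 0) := fun o => by
    rw [← ENNReal.ofReal_mul (hθ0 o), mul_assoc]
    congr 2
    split_ifs
    · rw [show q - 1 = q - 2 + 1 by ring, Real.rpow_add' (h0 o) (by linarith), Real.rpow_one]
    · exact zero_mul _
  have hθm : Measurable fun o => ENNReal.ofReal (A * if (R : ℝ) < u o then u o ^ (q - 2) else 0) :=
    ((Measurable.ite (measurableSet_lt measurable_const hm) (hm.pow_const _)
      measurable_const).const_mul A).ennreal_ofReal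
  have hkm : ∀ β o, Measurable (V.kk β o) := fun β o => (measurable_kk β).of_uncurry_left
  have key := ae_le_of_contract V.ν (measurable_kk (V := V) (aa n)) (kk_symm _) hm.ennreal_ofReal hθm
    (c := Real.toNNReal (A * (R : ℝ) ^ (q - 1) * (C / 2))) (fun o => ?_) ?_ ?_
  · set c := Real.toNNReal (A * (R : ℝ) ^ (q - 1) * (C / 2))
    have e : (fun o => min (u o) (2 * c)) =ᵐ[V.ν] u := key.mono fun o ho => min_eq_left (by
      rw [ENNReal.ofReal_le_iff_le_toReal (by finiteness)] at ho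
      simpa using ho)
    have eN : V.N δ (fun o => min (u o) (2 * c)) = V.N δ u :=
      integral_congr_ae (e.mono fun o ho => by simp only [ho])
    refine ⟨fun o => min (u o) (2 * c), ζ, hu.congr e.symm EventuallyEq.rfl, hm.min measurable_const,
      fun o => le_min (h0 o) (by positivity), ⟨_, fun o => min_le_right _ _⟩, eN ▸ hN, fun v ζ' h _ => ?_,
      fun v ζ' h _ hv => ?_⟩
    · rw [B_congr e EventuallyEq.rfl EventuallyEq.rfl EventuallyEq.rfl, hel v ζ' h]
      congr 1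
      exact integral_congr_ae (e.mono fun o ho => by simp only [ho, hqd])
    · rw [eN]
      have := hmin v ζ' h
      simp only [abs_of_nonneg (hv _)] at this
      exact this
  · calc ∫⁻ o', ENNReal.ofReal (A * if (R : ℝ) < u o' then u o' ^ (q - 2) else 0) * V.kk (aa n) o o' ∂V.ν
        ≤ ∫⁻ o', (ENNReal.ofReal (A * t ^ (q - 2)) * V.kk ((n - δ) / 2) o o' +
          ENNReal.ofReal (A / t ^ 2 * if (R : ℝ) < u o' then u o' ^ q else 0)) ∂V.ν := by
          refine lintegral_mono fun o' => ?_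
          have hK := K_nonneg (V := V) hV.hσ (V.p o) o'
          have h1 := gbdd_young (h0 o') (Real.rpow_nonneg hK (-aa n)) ht hq
          rw [← Real.rpow_mul hK, show -aa n * (q / 2) = -((n - δ) / 2) by linarith] at h1
          have h2 := Real.rpow_nonneg hK (-((n - δ) / 2))
          have h3 := Real.rpow_nonneg (h0 o') q
          simp only [kk]
          rw [← ENNReal.ofReal_mul (hθ0 o'), ← ENNReal.ofReal_mul (by positivity),
            ← ENNReal.ofReal_add (by positivity) (by split_ifs <;> positivity)]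
          refine ENNReal.ofReal_le_ofReal ?_
          split_ifs
          · have := mul_le_mul_of_nonneg_left h1 hA.le
            calc _ = A * (u o' ^ (q - 2) * V.K (V.p o) o' ^ (-aa n)) := by ring
              _ ≤ _ := this
              _ = _ := by ring
          · simp only [mul_zero, zero_mul, add_zero]
            positivity
      _ ≤ ENNReal.ofReal (1 / 4) + ENNReal.ofReal (1 / 4) := by
          rw [lintegral_add_left ((hkm _ o).const_mul _), lintegral_const_mul _ (hkm _ o),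
            ← ofReal_integral_eq_lintegral_ofReal ((hw R).const_mul _) (Eventually.of_forall fun o' => by
              have h3 := Real.rpow_nonneg (h0 o') q
              simp only [Pi.zero_apply]
              split_ifs <;> positivity), integral_const_mul]
          refine add_le_add ((mul_le_mul_right (hkk δ ⟨hδ0, by linarith [hδ.2]⟩ o) _).trans ?_)
            (ENNReal.ofReal_le_ofReal hR.le)
          rw [← ENNReal.ofReal_mul (by positivity)]
          exact ENNReal.ofReal_le_ofReal ht'.le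
      _ = 1 / 2 := by
          rw [← ENNReal.ofReal_add (by norm_num) (by norm_num), show (1 / 4 + 1 / 4 : ℝ) = 2⁻¹ by norm_num,
            ENNReal.ofReal_inv_of_pos two_pos]
          simp
  · refine ne_top_of_le_ne_top (hig.const_mul A).lintegral_lt_top.ne (lintegral_mono fun o => ?_)
    simp only [hθu]
    refine ENNReal.ofReal_le_ofReal (mul_le_mul_of_nonneg_left ?_ hA.le)
    split_ifs
    · exact le_rfl
    · exact hg0 o
  · filter_upwards [hG] with o ho
    calc ENNReal.ofReal (u o) = ENNReal.ofReal A * ENNReal.ofReal (Cn n * u o) := by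
          rw [← ENNReal.ofReal_mul hA.le, ← mul_assoc, hAd, inv_mul_cancel₀ (Cn_pos n).ne', one_mul]
      _ ≤ ∫⁻ o', ENNReal.ofReal A * (ENNReal.ofReal (u o' ^ (q - 1)) * V.kk (aa n) o o') ∂V.ν := by
          rw [lintegral_const_mul' _ _ ENNReal.ofReal_ne_top]
          exact mul_le_mul_right ho _
      _ ≤ ∫⁻ o', (ENNReal.ofReal (A * if (R : ℝ) < u o' then u o' ^ (q - 2) else 0) * ENNReal.ofReal (u o') *
            V.kk (aa n) o o' + ENNReal.ofReal (A * (R : ℝ) ^ (q - 1)) * V.kk (aa n) o o') ∂V.ν := by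
          refine lintegral_mono fun o' => ?_
          simp only [hθu]
          rw [← mul_assoc, ← add_mul, ← ENNReal.ofReal_mul hA.le]
          refine mul_le_mul_left ?_ _
          split_ifs with h
          · exact le_self_add
          · exact le_add_left (ENNReal.ofReal_le_ofReal (mul_le_mul_of_nonneg_left
              (Real.rpow_le_rpow (h0 o') (not_lt.1 h) (by linarith)) hA.le))
      _ ≤ _ := by
          rw [lintegral_add_right _ ((hkm _ o).const_mul _), lintegral_const_mul _ (hkm _ o)]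
          refine add_le_add le_rfl ((mul_le_mul_right (hkk 2 ⟨two_pos, le_rfl⟩ o) _).trans ?_)
          rw [← ENNReal.ofReal_mul (by positivity)]
          exact le_rfl

theorem gbdd_int {δ : ℝ} {u : Ω → ℝ} {ζ : Ω → Euc n} (h : V.Ext δ u ζ) {β : ℝ} (hβ : 0 ≤ β) :
    Integrable (fun o => u o ^ β) V.ν := by
  obtain ⟨R, hR⟩ := h.bdd
  exact Integrable.of_bound (h.meas.pow_const β).aestronglyMeasurable (R ^ β) (Eventually.of_forall fun o =>
    (Real.norm_of_nonneg (Real.rpow_nonneg (h.nonneg o) β)).trans_le (Real.rpow_le_rpow (h.nonneg o) (hR o) hβ))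

theorem Ext.pole (hV : V.Std) {δ : ℝ} (hδ : δ ∈ Icc (0 : ℝ) 1) {u : Ω → ℝ} {ζ : Ω → Euc n}
    (h : V.Ext δ u ζ) : ∀ᵐ o ∂V.ν, ENNReal.ofReal (Cn n * u o)
      ≤ ∫⁻ o', ENNReal.ofReal (u o' ^ (qq n δ - 1)) * V.kk (aa n) o o' ∂V.ν := by
  have hq := hV.qq_gt (δ := δ) (by linarith [hδ.2])
  exact h.inH.green_bound hV (Eventually.of_forall h.nonneg) (gbdd_int h (by linarith))
    (Eventually.of_forall fun o => Real.rpow_nonneg (h.nonneg o) _) h.el

theorem gbdd_holder (hV : V.Std) {δ D : ℝ} (hδ : δ ∈ Icc (0 : ℝ) 1) {u : Ω → ℝ} {ζ : Ω → Euc n} (h : V.Ext δ u ζ)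
    (hD0 : 0 ≤ D) (hD : ∀ o, ∫⁻ o', V.kk ((n - δ) / 2) o o' ∂V.ν ≤ ENNReal.ofReal D)
    (hpq : (qq n δ / (qq n δ - 2)).HolderConjugate (qq n δ / 2)) :
    Cn n ≤ V.N δ u ^ (1 / (qq n δ / (qq n δ - 2))) * D ^ (1 / (qq n δ / 2)) := by
  have hq := hV.qq_gt (δ := δ) (by linarith [hδ.2])
  obtain ⟨R, hR⟩ := h.bdd
  set m := essSup (fun o => ENNReal.ofReal (u o)) V.ν with hm
  have hm1 : ∀ᵐ o ∂V.ν, ENNReal.ofReal (u o) ≤ m := ENNReal.ae_le_essSup _
  have hm2 : m ≠ ⊤ := ((essSup_le_of_ae_le (ENNReal.ofReal R) (Eventually.of_forall fun o =>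
    ENNReal.ofReal_le_ofReal (hR o))).trans_lt ENNReal.ofReal_lt_top).ne
  have hm3 : m ≠ 0 := fun h0 => h.pos.ne' <| integral_eq_zero_of_ae <| hm1.mono fun o ho => by
    rw [h0, nonpos_iff_eq_zero, ENNReal.ofReal_eq_zero] at ho
    simp only [ho.antisymm (h.nonneg o), Pi.zero_apply]
    exact Real.zero_rpow (by linarith)
  have hu : Measurable fun o => ENNReal.ofReal (u o ^ (qq n δ - 2)) := (h.meas.pow_const _).ennreal_ofReal
  have hk : ∀ o, Measurable (V.kk (aa n) o) := fun o => (measurable_kk (aa n)).of_uncurry_left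
  have e1 : ∫⁻ o, ENNReal.ofReal (u o ^ (qq n δ - 2)) ^ (qq n δ / (qq n δ - 2)) ∂V.ν = ENNReal.ofReal (V.N δ u) := by
    rw [N, ofReal_integral_eq_lintegral_ofReal (gbdd_int h (by linarith))
      (Eventually.of_forall fun o => Real.rpow_nonneg (h.nonneg o) _)]
    refine lintegral_congr fun o => ?_
    rw [ENNReal.ofReal_rpow_of_nonneg (Real.rpow_nonneg (h.nonneg o) _) hpq.nonneg, ← Real.rpow_mul (h.nonneg o),
      mul_div_cancel₀ _ (sub_pos.2 hq).ne']
  have e2 : ∀ o o', V.kk (aa n) o o' ^ (qq n δ / 2) = V.kk ((n - δ) / 2) o o' := fun o o' => by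
    have := K_nonneg (V := V) hV.hσ (V.p o) o'
    rw [kk, kk, ENNReal.ofReal_rpow_of_nonneg (Real.rpow_nonneg this _) hpq.symm.nonneg, ← Real.rpow_mul this,
      ← hV.aa_mul_qq δ, neg_mul, mul_div_assoc]
  have key : ENNReal.ofReal (Cn n) * m ≤
      ENNReal.ofReal (V.N δ u ^ (1 / (qq n δ / (qq n δ - 2))) * D ^ (1 / (qq n δ / 2))) * m := by
    rw [hm, ← ENNReal.essSup_const_mul, ← hm]
    refine essSup_le_of_ae_le _ ((h.pole hV hδ).mono fun o ho => ?_)
    simp only
    rw [← ENNReal.ofReal_mul (Cn_pos n).le]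
    refine ho.trans ((lintegral_mono_ae (g := fun o' => ENNReal.ofReal (u o' ^ (qq n δ - 2)) * V.kk (aa n) o o' * m)
      (hm1.mono fun o' ho' => ?_)).trans ?_)
    · rw [show qq n δ - 1 = qq n δ - 2 + 1 by ring, Real.rpow_add_one' (h.nonneg o') (by linarith),
        ENNReal.ofReal_mul (Real.rpow_nonneg (h.nonneg o') _), mul_right_comm]
      exact mul_le_mul_right ho' _
    · rw [lintegral_mul_const' _ _ hm2]
      refine mul_le_mul_left ((ENNReal.lintegral_mul_le_Lp_mul_Lq V.ν hpq hu.aemeasurable (hk o).aemeasurable).trans ?_) m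
      simp only [e1, e2]
      rw [ENNReal.ofReal_mul (Real.rpow_nonneg h.pos.le _), ← ENNReal.ofReal_rpow_of_nonneg h.pos.le hpq.one_div_nonneg,
        ← ENNReal.ofReal_rpow_of_nonneg hD0 hpq.symm.one_div_nonneg]
      exact mul_le_mul_right (ENNReal.rpow_le_rpow (hD o) hpq.symm.one_div_nonneg) _
  rwa [ENNReal.mul_le_mul_iff_left hm3 hm2, ENNReal.ofReal_le_ofReal_iff
    (mul_nonneg (Real.rpow_nonneg h.pos.le _) (Real.rpow_nonneg hD0 _))] at key

/-- with `m` = essential sup of `u` (`> 0`): `Cn m ≤ m N^((q-2)/q) (C/δ)^(2/q)`, so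
`N^(q-2) ≥ Cn^q (δ/C)²`; `2/(q-2) = 2a/(2-δ) ∈ [a, n-2]`, `q/(q-2) ∈ [n/2, n-1]`. -/
theorem Std.exists_N_ge (hV : V.Std) : ∃ c > 0, ∀ δ ∈ Ioc (0 : ℝ) 1, ∀ u ζ, V.Ext δ u ζ →
    c * δ ^ (n - 2) ≤ V.N δ u := by
  obtain ⟨C, hC, hk⟩ := hV.exists_kk_le
  have hc := Cn_pos n
  have hκ : 0 < min 1 (Cn n / C) := lt_min one_pos (by positivity)
  refine ⟨Cn n * min 1 (Cn n / C) ^ (n - 2), by positivity, fun δ hδ u ζ h => ?_⟩
  have hq := hV.qq_gt (δ := δ) (by linarith [hδ.2])
  have hq' := sub_pos.2 hq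
  have hδ0 := hδ.1
  have hpq : (qq n δ / (qq n δ - 2)).HolderConjugate (qq n δ / 2) :=
    ⟨by field_simp; ring, div_pos (by linarith) hq', by linarith⟩
  have h1 := Real.rpow_le_rpow hc.le (gbdd_holder hV ⟨hδ.1.le, hδ.2⟩ h (by positivity)
    (hk δ ⟨hδ.1, by linarith [hδ.2]⟩) hpq) hpq.nonneg
  have h2 : qq n δ / (qq n δ - 2) - 1 ≤ (n - 2 : ℕ) := by
    have := hV.aa_mul_qq δ
    rw [Nat.cast_sub (by linarith [hV.hn]), sub_le_iff_le_add, div_le_iff₀ hq']
    rw [aa] at this
    push_cast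
    linarith [hδ.2]
  rw [Real.mul_rpow (Real.rpow_nonneg h.pos.le _) (by positivity), ← Real.rpow_mul h.pos.le,
    ← Real.rpow_mul (by positivity), one_div_mul_cancel hpq.ne_zero, Real.rpow_one, one_div_mul_eq_div,
    hpq.div_conj_eq_sub_one, ← div_le_iff₀ (by positivity)] at h1
  have h3 := hpq.sub_one_pos
  generalize qq n δ / (qq n δ - 2) = p at *
  refine le_trans ?_ h1
  rw [mul_assoc, ← mul_pow, ← Real.rpow_natCast, show Cn n ^ p = Cn n * Cn n ^ (p - 1) by
    rw [Real.rpow_sub_one hc.ne']; field_simp, mul_div_assoc, ← Real.div_rpow hc.le (by positivity)]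
  refine mul_le_mul_of_nonneg_left ((Real.rpow_le_rpow_of_exponent_ge (by positivity)
    (mul_le_one₀ (min_le_left _ _) hδ.1.le hδ.2) h2).trans (Real.rpow_le_rpow (by positivity) ?_ h3.le)) hc.le
  rw [div_div_eq_mul_div, mul_div_right_comm]
  exact mul_le_mul_of_nonneg_right (min_le_right _ _) hδ.1.le


end VS

end Crest.Agent.R241
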