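import Crest.Agent.R241.G.W
import Crest.Agent.R241.G.Bdd

/-!
# The truncated barycentre.  Helper prefix `gbary_`.
`lam α = (1 + σ α²)/(2α)`, `β = α + lam α · κ_x`, `t = w β`, `ω = w / (1 + t/L)`.
-/

open MeasureTheory Set Filter Topology
open Crest.GeometryTopology.MetricCurrent
open Crest.GeometryTopology.Submanifold (Euc unitBallVol unitSphereArea)
open scoped ENNReal NNReal InnerProductSpace

noncomputable section

namespace Crest.Agent.R241

universe u

def lam (σ α : ℝ) : ℝ := (1 + σ * α ^ 2) / (2 * α)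

/-- `t ≥ 4`: second term `≥ 2`; `t ≤ 4`: both factors `≥ (1 + 4/L)^(-n/2)`, AM-GM. -/
theorem bary_pointwise (n : ℕ) (hn : 3 ≤ n) {γ : ℝ} (hγ : 0 < γ) : ∃ L ≥ (1 : ℝ), ∀ t > 0,
    ∀ ϖ ∈ Icc (0 : ℝ) 1, 2 * √ϖ - γ ≤ ϖ * (1 + t / L) ^ (-(n : ℝ) / 2) / t + t / (1 + t / L) := by
  have hn' : (3 : ℝ) ≤ n := by exact_mod_cast hn
  have t1 : Tendsto (fun L : ℝ => (1 + 4 / L) ^ (-(n : ℝ) / 2)) atTop
      (𝓝 ((1 + 0) ^ (-(n : ℝ) / 2))) :=
    ((tendsto_const_nhds.div_atTop tendsto_id).const_add 1).rpow_const (Or.inl (by simp))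
  rw [add_zero, Real.one_rpow] at t1
  obtain ⟨L, hL4, hL⟩ := ((eventually_ge_atTop 4).and
    (t1.eventually (lt_mem_nhds (a := 1 - γ / 2) (by linarith)))).exists
  refine ⟨L, by linarith, fun t ht ϖ hϖ => ?_⟩
  have hL0 : 0 < L := by linarith
  have s1 : √ϖ ≤ 1 := Real.sqrt_le_one.2 hϖ.2
  have s0 := Real.sqrt_nonneg ϖ
  have h0 := hϖ.1
  rcases le_total 4 t with h4 | h4
  · have : 2 ≤ t / (1 + t / L) := by
      rw [le_div_iff₀ (by positivity)]
      have : t / L ≤ t / 4 := by gcongr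
      linarith
    have : 0 ≤ ϖ * (1 + t / L) ^ (-(n : ℝ) / 2) / t := by positivity
    linarith
  · set c := (1 + 4 / L) ^ (-(n : ℝ) / 2) with hc
    have c0 : 0 < c := by positivity
    have p1 : 1 ≤ 1 + t / L := le_add_of_nonneg_right (by positivity)
    have a1 : c ≤ (1 + t / L) ^ (-(n : ℝ) / 2) :=
      Real.rpow_le_rpow_of_nonpos (by positivity) (by gcongr) (by linarith)
    have a2 : c ≤ (1 + t / L)⁻¹ := by
      refine a1.trans ?_
      rw [← Real.rpow_neg_one]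
      exact Real.rpow_le_rpow_of_exponent_le p1 (by linarith)
    have a3 : 2 * √ϖ ≤ ϖ / t + t := by
      rw [div_add' _ _ _ ht.ne', le_div_iff₀ ht]
      nlinarith [sq_nonneg (√ϖ - t), Real.sq_sqrt h0]
    calc 2 * √ϖ - γ ≤ c * (2 * √ϖ) := by nlinarith
      _ ≤ c * (ϖ / t + t) := by gcongr
      _ = ϖ * c / t + t * c := by ring
      _ ≤ _ := by
        rw [div_eq_mul_inv t (1 + _)]
        gcongr

set_option linter.unusedSectionVars false

variable {X : Type u} [MetricSpace X] [CompactSpace X] [MeasurableSpace X] [BorelSpace X]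
  {Ω : Type u} [MeasurableSpace Ω] {σ Λ : ℝ} {n : ℕ} {V : VS σ Λ n X Ω}

namespace VS


variable {δ : ℝ} {u : Ω → ℝ} {ζ : Ω → Euc n}

theorem gbarya_lam (hσ : 0 ≤ σ) {α : ℝ} (hα : 0 < α) : 0 < lam σ α := by
  unfold lam; positivity

theorem gbarya_iq (hV : V.Std) (h : V.Ext δ u ζ) (hδ : δ ∈ Icc (0 : ℝ) 1) :
    ∃ Q, (∀ o, u o ^ qq n δ ≤ Q) ∧ Integrable (fun o => u o ^ qq n δ) V.ν := by
  obtain ⟨R, hR⟩ := h.bdd
  have hq := hV.qq_gt (δ := δ) (by linarith [hδ.2])
  have := fun o => Real.rpow_le_rpow (h.nonneg o) (hR o) (by linarith : 0 ≤ qq n δ)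
  exact ⟨_, this, (integrable_const (R ^ qq n δ)).mono' (h.meas.pow_const _).aestronglyMeasurable
    (ae_of_all _ fun o => by
      rw [Real.norm_of_nonneg (Real.rpow_nonneg (h.nonneg o) _)]
      exact this o)⟩

theorem gbarya_int (hV : V.Std) (h : V.Ext δ u ζ) (hδ : δ ∈ Icc (0 : ℝ) 1) {g : Ω → ℝ} (mg : Measurable g)
    {C : ℝ} (hg : ∀ o, 0 ≤ g o ∧ g o ≤ C) : Integrable (fun o => u o ^ qq n δ * g o) V.ν := by
  obtain ⟨_, -, iq⟩ := gbarya_iq hV h hδ
  exact iq.mul_bdd (c := C) mg.aestronglyMeasurable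
    (ae_of_all _ fun o => by rw [Real.norm_of_nonneg (hg o).1]; exact (hg o).2)

theorem gbarya_log {L t : ℝ} (hL : 0 < L) (ht : 0 ≤ t) : 0 ≤ Real.log (1 + t / L) ∧ Real.log (1 + t / L) ≤ t / L := by
  have := div_nonneg ht hL.le
  exact ⟨Real.log_nonneg (by linarith), (Real.log_le_sub_one_of_pos (by linarith)).trans (by linarith)⟩

theorem gbarya_mono {L t t' : ℝ} (hL : 0 < L) (ht : 0 ≤ t) (h : t ≤ t') :
    Real.log (1 + t / L) ≤ Real.log (1 + t' / L) := by
  have := div_nonneg ht hL.le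
  exact Real.log_le_log (by linarith) (by gcongr)

theorem gbarya_ilog (hV : V.Std) (h : V.Ext δ u ζ) (hδ : δ ∈ Icc (0 : ℝ) 1) {L : ℝ} (hL : 0 < L) {t : Ω → ℝ}
    (mt : Measurable t) {C : ℝ} (ht : ∀ o, 0 ≤ t o ∧ t o ≤ C) :
    Integrable (fun o => u o ^ qq n δ * Real.log (1 + t o / L)) V.ν :=
  gbarya_int hV h hδ ((mt.div_const L).const_add 1).log (C := C / L) fun o =>
    ⟨(gbarya_log hL (ht o).1).1, (gbarya_log hL (ht o).1).2.trans (div_le_div_of_nonneg_right (ht o).2 hL.le)⟩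

theorem gbarya_tt (hV : V.Std) (h : V.Ext δ u ζ) {α l : ℝ} (hα : 0 ≤ α) (hl : 0 ≤ l) (x : X) :
    Measurable (V.tt u α l x) ∧ ∃ C, ∀ o, 0 ≤ V.tt u α l x o ∧ V.tt u α l x o ≤ C := by
  obtain ⟨C, hC⟩ := gwb_tt_le hV h.nonneg h.bdd hl x α
  exact ⟨(h.meas.pow_const _).mul (((measurable_K x).const_mul _).const_add α), C, fun o =>
    ⟨gwb_tt_nonneg hV h.nonneg hα hl x o, hC α hα le_rfl o⟩⟩

/-- small `α` is not optimal -/
theorem gbarya_small (hV : V.Std) (h : V.Ext δ u ζ) (hδ : δ ∈ Icc (0 : ℝ) 1) {L : ℝ} (hL : 0 < L) {B : ℝ}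
    (hB : 0 ≤ B) : ∃ a > 0, ∀ (x : X) (α : ℝ), 0 < α → α ≤ a →
      ∫ o, u o ^ qq n δ * Real.log (1 + V.ww u o * B / L) ∂V.ν ≤
        ∫ o, u o ^ qq n δ * Real.log (1 + V.tt u α (lam σ α) x o / L) ∂V.ν := by
  obtain ⟨R, hR0, hR⟩ := gwb_ww_le hV h.nonneg h.bdd
  obtain ⟨Q, hQ, iq⟩ := gbarya_iq hV h hδ
  obtain ⟨Θ, hΘ, hreg⟩ := hV.exists_reg
  have hq := hV.qq_gt (δ := δ) (by linarith [hδ.2])
  have w0 : ∀ o, 0 ≤ V.ww u o := gwb_ww_nonneg h.nonneg
  have q0 : ∀ o, 0 ≤ u o ^ qq n δ := fun o => Real.rpow_nonneg (h.nonneg o) _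
  have iG : ∀ T, 0 ≤ T → Integrable (fun o => u o ^ qq n δ * Real.log (1 + V.ww u o * T / L)) V.ν := fun T hT =>
    gbarya_ilog hV h hδ hL ((h.meas.pow_const _).mul_const T) (C := R * T) fun o =>
      ⟨mul_nonneg (w0 o) hT, mul_le_mul_of_nonneg_right (hR o).2 hT⟩
  have hB1 : 0 ≤ B + 1 := by linarith
  have lt : 0 < ∫ o, (u o ^ qq n δ * Real.log (1 + V.ww u o * (B + 1) / L) -
      u o ^ qq n δ * Real.log (1 + V.ww u o * B / L)) ∂V.ν := by
    rw [integral_pos_iff_support_of_nonneg (fun o => sub_nonneg.2 (mul_le_mul_of_nonneg_left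
      (gbarya_mono hL (mul_nonneg (w0 o) hB) (mul_le_mul_of_nonneg_left (by linarith) (w0 o))) (q0 o)))
      ((iG _ hB1).sub (iG _ hB))]
    refine ((integral_pos_iff_support_of_nonneg q0 iq).1 h.pos).trans_le (measure_mono fun o ho => ?_)
    have h1 : 0 < u o := (h.nonneg o).lt_of_ne fun e => ho (by simp only [← e]; exact Real.zero_rpow (by linarith))
    have h2 : 0 < V.ww u o := Real.rpow_pos_of_pos h1 _
    have h3 := div_nonneg (mul_nonneg h2.le hB) hL.le
    exact (sub_pos.2 (mul_lt_mul_of_pos_left (Real.log_lt_log (by linarith) (by gcongr; linarith))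
      (Real.rpow_pos_of_pos h1 _))).ne'
  rw [integral_sub (iG _ hB1) (iG _ hB)] at lt
  set M : ℝ := Q * (R * (B + 1) / L) with hM
  have hn : 0 < (n : ℝ) / 2 := by
    have : (3 : ℝ) ≤ n := by exact_mod_cast hV.hn
    linarith
  have lim : Tendsto (fun s : ℝ => M * (Θ * s ^ ((n : ℝ) / 2))) (𝓝[>] 0) (𝓝 0) := by
    have := ((Real.continuous_rpow_const hn.le).tendsto 0).const_mul Θ |>.const_mul M
    rw [Real.zero_rpow hn.ne', mul_zero, mul_zero] at this
    exact this.mono_left nhdsWithin_le_nhds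
  obtain ⟨s, hs, hs0⟩ := ((lim.eventually (gt_mem_nhds lt)).and self_mem_nhdsWithin).exists
  have hs0' : 0 < s := hs0
  refine ⟨s / (2 * (B + 1)), div_pos hs0' (by linarith), fun x α hα hαa => ?_⟩
  obtain ⟨mt, C, hC⟩ := gbarya_tt hV h hα.le (gbarya_lam hV.hσ hα).le x
  have mS : MeasurableSet {o | V.K x o ≤ s} := measurableSet_le (measurable_K x) measurable_const
  have iI : Integrable ({o | V.K x o ≤ s}.indicator fun _ => M) V.ν := (integrable_const M).indicator mS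
  have M0 : ∀ o, u o ^ qq n δ * Real.log (1 + V.ww u o * (B + 1) / L) ≤ M := fun o =>
    mul_le_mul (hQ o) ((gbarya_log hL (mul_nonneg (w0 o) hB1)).2.trans (div_le_div_of_nonneg_right
      (mul_le_mul_of_nonneg_right (hR o).2 hB1) hL.le)) (gbarya_log hL (mul_nonneg (w0 o) hB1)).1 ((q0 o).trans (hQ o))
  have key := integral_mono (iG _ hB1) ((gbarya_ilog hV h hδ hL mt hC).add iI) fun o => by
    simp only [Pi.add_apply]
    by_cases ho : V.K x o ≤ s
    · rw [indicator_of_mem (show o ∈ {o | V.K x o ≤ s} from ho)]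
      linarith [M0 o, mul_nonneg (q0 o) (gbarya_log hL (hC o).1).1]
    · rw [indicator_of_notMem (show o ∉ {o | V.K x o ≤ s} from ho), add_zero]
      refine mul_le_mul_of_nonneg_left (gbarya_mono hL (mul_nonneg (w0 o) hB1)
        (mul_le_mul_of_nonneg_left ?_ (w0 o))) (q0 o)
      have h1 : B + 1 ≤ lam σ α * s := by
        rw [le_div_iff₀ (by linarith)] at hαa
        rw [lam, div_mul_eq_mul_div, le_div_iff₀ (by linarith)]
        nlinarith [mul_nonneg (mul_nonneg hV.hσ (sq_nonneg α)) hs0'.le]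
      nlinarith [mul_le_mul_of_nonneg_left (not_le.1 ho).le (gbarya_lam hV.hσ hα).le]
  rw [integral_add' (gbarya_ilog hV h hδ hL mt hC) iI, integral_indicator_const _ mS, smul_eq_mul] at key
  have hM0 : 0 ≤ M := by
    obtain ⟨o, -⟩ := nonempty_of_measure_ne_zero ((integral_pos_iff_support_of_nonneg q0 iq).1 h.pos).ne'
    exact mul_nonneg ((q0 o).trans (hQ o)) (div_nonneg (mul_nonneg hR0 hB1) hL.le)
  nlinarith [mul_le_mul_of_nonneg_left (hreg x s hs0') hM0]

/-- `Φ (x, α) = ∫ u^q L log (1 + t/L)` is continuous on `X × (0,∞)`, tends to `∞` as `α → ∞`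
(`β ≥ α`) and as `α → 0` (`β ≥ κ_x/(2α)`, `ae_K_pos`, finite subcover of `X`), so it has a
minimiser; concavity `log (1+t'/L) ≤ log (1+t/L) + (t'-t)/(L+t)` linearises. -/
theorem Ext.exists_center (hV : V.Std) (h : V.Ext δ u ζ) (hδ : δ ∈ Icc (0 : ℝ) 1) {L : ℝ}
    (hL : 0 < L) : ∃ (x₀ : X) (α : ℝ), 0 < α ∧ ∀ (x : X) (α' : ℝ), 0 < α' →
      ∫ o, u o ^ qq n δ * (V.tt u α (lam σ α) x₀ o / (1 + V.tt u α (lam σ α) x₀ o / L)) ∂V.ν
        ≤ ∫ o, u o ^ qq n δ * (V.tt u α' (lam σ α') x o / (1 + V.tt u α (lam σ α) x₀ o / L)) ∂V.ν := by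
  have hσ := hV.hσ
  obtain ⟨x₁⟩ := V.core0_ne hV.hM
  obtain ⟨D, hD1, hD⟩ := V.exists_K_le
  obtain ⟨R, hR0, hR⟩ := gwb_ww_le hV h.nonneg h.bdd
  obtain ⟨Q, hQ, iq⟩ := gbarya_iq hV h hδ
  have w0 : ∀ o, 0 ≤ V.ww u o := gwb_ww_nonneg h.nonneg
  have q0 : ∀ o, 0 ≤ u o ^ qq n δ := fun o => Real.rpow_nonneg (h.nonneg o) _
  set Φ : X × ℝ → ℝ := fun z => ∫ o, u o ^ qq n δ * Real.log (1 + V.tt u z.2 (lam σ z.2) z.1 o / L) ∂V.ν with hΦ
  have iΦ : ∀ x α, 0 < α → Integrable (fun o => u o ^ qq n δ * Real.log (1 + V.tt u α (lam σ α) x o / L)) V.ν :=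
    fun x α hα => by
      obtain ⟨mt, C, hC⟩ := gbarya_tt hV h hα.le (gbarya_lam hσ hα).le x
      exact gbarya_ilog hV h hδ hL mt hC
  have l1 := gbarya_lam hσ one_pos
  set B : ℝ := 1 + lam σ 1 * D with hB
  have hB1 : 1 ≤ B := by nlinarith
  have iB : Integrable (fun o => u o ^ qq n δ * Real.log (1 + V.ww u o * B / L)) V.ν :=
    gbarya_ilog hV h hδ hL ((h.meas.pow_const _).mul_const B) (C := R * B) fun o =>
      ⟨mul_nonneg (w0 o) (by linarith), mul_le_mul_of_nonneg_right (hR o).2 (by linarith)⟩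
  have b1 : Φ (x₁, 1) ≤ ∫ o, u o ^ qq n δ * Real.log (1 + V.ww u o * B / L) ∂V.ν :=
    integral_mono (iΦ _ _ one_pos) iB fun o => mul_le_mul_of_nonneg_left
      (gbarya_mono hL (gwb_tt_nonneg hV h.nonneg zero_le_one l1.le _ o) (mul_le_mul_of_nonneg_left
        (by nlinarith [hD x₁ o]) (w0 o))) (q0 o)
  obtain ⟨a, ha, hsm⟩ := gbarya_small hV h hδ hL (by linarith : 0 ≤ B)
  have ha' : 0 < Min.min a 1 := lt_min ha one_pos
  have cl : ContinuousOn (lam σ) (Icc (Min.min a 1) B) :=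
    ContinuousOn.div (by fun_prop) (by fun_prop) fun α hα => by linarith [hα.1]
  obtain ⟨l₁, hl₁⟩ := isCompact_Icc.exists_bound_of_continuousOn cl
  have cΦ : ContinuousOn Φ (univ ×ˢ Icc (Min.min a 1) B) := by
    refine continuousOn_of_dominated (bound := fun o => u o ^ qq n δ * (R * (B + l₁ * D) / L))
      (fun z hz => (iΦ _ _ (ha'.trans_le hz.2.1)).1) (fun z hz => ae_of_all _ fun o => ?_) (iq.mul_const _)
      (ae_of_all _ fun o => ?_)
    · have hz0 := ha'.trans_le hz.2.1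
      have hl := gbarya_lam hσ hz0
      have t0 := gwb_tt_nonneg hV h.nonneg hz0.le hl.le z.1 o
      rw [Real.norm_of_nonneg (mul_nonneg (q0 o) (gbarya_log hL t0).1)]
      refine mul_le_mul_of_nonneg_left ((gbarya_log hL t0).2.trans (div_le_div_of_nonneg_right ?_ hL.le)) (q0 o)
      have k0 := K_nonneg (V := V) hσ z.1 o
      have h1 : lam σ z.2 ≤ l₁ := (le_abs_self _).trans (hl₁ _ hz.2)
      exact mul_le_mul (hR o).2 (add_le_add hz.2.2 (mul_le_mul h1 (hD _ _) k0 (hl.le.trans h1)))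
        (add_nonneg hz0.le (mul_nonneg hl.le k0)) hR0
    · refine continuousOn_const.mul (ContinuousOn.log (continuousOn_const.add (ContinuousOn.div_const
        (continuousOn_const.mul (continuousOn_snd.add ((cl.comp continuousOn_snd fun z hz => hz.2).mul
          ((continuous_kap σ).comp (continuous_fst.prodMk continuous_const)).continuousOn))) _)) fun z hz => ?_)
      have hz0 := ha'.trans_le hz.2.1
      have := div_nonneg (gwb_tt_nonneg hV h.nonneg hz0.le (gbarya_lam hσ hz0).le z.1 o) hL.le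
      linarith
  have m1 : (x₁, (1 : ℝ)) ∈ univ ×ˢ Icc (Min.min a 1) B := ⟨trivial, min_le_right _ _, hB1⟩
  obtain ⟨⟨x₀, α⟩, hz, hmin⟩ := (isCompact_univ.prod isCompact_Icc).exists_isMinOn ⟨_, m1⟩ cΦ
  have hα : 0 < α := ha'.trans_le hz.2.1
  have gmin : ∀ x α', 0 < α' → Φ (x₀, α) ≤ Φ (x, α') := fun x α' hα' => by
    rcases le_total α' (Min.min a 1) with h1 | h1
    · exact ((hmin m1).trans b1).trans (hsm x α' hα' (h1.trans (min_le_left _ _)))
    rcases le_total α' B with h2 | h2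
    · exact hmin (a := (x, α')) ⟨trivial, h1, h2⟩
    · refine ((hmin m1).trans b1).trans (integral_mono iB (iΦ _ _ hα') fun o => mul_le_mul_of_nonneg_left
        (gbarya_mono hL (mul_nonneg (w0 o) (by linarith)) (mul_le_mul_of_nonneg_left ?_ (w0 o))) (q0 o))
      linarith [mul_nonneg (gbarya_lam hσ hα').le (K_nonneg (V := V) hσ x o)]
  refine ⟨x₀, α, hα, fun x α' hα' => ?_⟩
  obtain ⟨mt, C, hC⟩ := gbarya_tt hV h hα.le (gbarya_lam hσ hα).le x₀
  have iT : ∀ x α', 0 < α' → Integrable (fun o => u o ^ qq n δ *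
      (V.tt u α' (lam σ α') x o / (1 + V.tt u α (lam σ α) x₀ o / L))) V.ν := fun x α' hα' => by
    obtain ⟨mt', C', hC'⟩ := gbarya_tt hV h hα'.le (gbarya_lam hσ hα').le x
    refine gbarya_int hV h hδ (mt'.div ((mt.div_const L).const_add 1)) (C := C') fun o => ?_
    have := div_nonneg (hC o).1 hL.le
    exact ⟨div_nonneg (hC' o).1 (by linarith), (div_le_self (hC' o).1 (by linarith)).trans (hC' o).2⟩
  have key := integral_mono ((iΦ x α' hα').sub (iΦ x₀ α hα)) (((iT x α' hα').sub (iT x₀ α hα)).div_const L) fun o => by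
    simp only [Pi.sub_apply]
    rw [← mul_sub, ← mul_sub, mul_div_assoc]
    refine mul_le_mul_of_nonneg_left ?_ (q0 o)
    have p1 := div_nonneg (hC o).1 hL.le
    have p2 := div_nonneg (gwb_tt_nonneg hV h.nonneg hα'.le (gbarya_lam hσ hα').le x o) hL.le
    rw [← Real.log_div (by linarith) (by linarith)]
    refine (Real.log_le_sub_one_of_pos (div_pos (by linarith) (by linarith))).trans (le_of_eq ?_)
    have p3 : 1 + V.tt u α (lam σ α) x₀ o / L ≠ 0 := by linarith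
    rw [div_sub_one p3, ← sub_div, div_right_comm]
    congr 1
    ring
  rw [integral_div, integral_sub' (iΦ x α' hα') (iΦ x₀ α hα), integral_sub' (iT x α' hα') (iT x₀ α hα)] at key
  have := (sub_nonneg.2 (gmin x α' hα')).trans key
  rwa [le_div_iff₀ hL, zero_mul, sub_nonneg] at this

/-- With weight `wt = u^q ω`, `W = ∫ wt`, `F x = ∫ wt κ_x`, `m = α W + lam α F x₀`: minimality in `α'`
gives `F x₀ = m α`, `W + σ F x₀ = m lam α`; `Hyp.variance`. -/
theorem Ext.center_ineq (hV : V.Std) (H : Hyp σ X) (h : V.Ext δ u ζ) (hδ : δ ∈ Icc (0 : ℝ) 1)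
    {L : ℝ} (hL : 0 < L) : ∃ (x₀ : X) (α : ℝ), 0 < α ∧ ∀ x : X,
      (∫ o, u o ^ qq n δ * (V.tt u α (lam σ α) x₀ o / (1 + V.tt u α (lam σ α) x₀ o / L)) ∂V.ν)
          * (α + lam σ α * kap σ x₀ x)
        ≤ ∫ o, u o ^ qq n δ * (V.ww u o / (1 + V.tt u α (lam σ α) x₀ o / L) * V.K x o) ∂V.ν := by
  have hσ := hV.hσ
  obtain ⟨x₀, α, hα, hc⟩ := h.exists_center hV hδ hL
  refine ⟨x₀, α, hα, fun x => ?_⟩
  have hl := gbarya_lam hσ hα
  obtain ⟨mt, C, hC⟩ := gbarya_tt hV h hα.le hl.le x₀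
  obtain ⟨D, hD1, hD⟩ := V.exists_K_le
  obtain ⟨R, hR0, hR⟩ := gwb_ww_le hV h.nonneg h.bdd
  have w0 : ∀ o, 0 ≤ V.ww u o := gwb_ww_nonneg h.nonneg
  set wt : Ω → ℝ := fun o => u o ^ qq n δ * (V.ww u o / (1 + V.tt u α (lam σ α) x₀ o / L)) with hwt
  have p1 : ∀ o, 1 ≤ 1 + V.tt u α (lam σ α) x₀ o / L := fun o => by linarith [div_nonneg (hC o).1 hL.le]
  have iw : Integrable wt V.ν := gbarya_int hV h hδ ((h.meas.pow_const _).div ((mt.div_const L).const_add 1)) (C := R)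
    fun o => ⟨div_nonneg (w0 o) (by linarith [p1 o]), (div_le_self (w0 o) (p1 o)).trans (hR o).2⟩
  have iK : ∀ x, Integrable (fun o => wt o * kap σ x (V.p o)) V.ν := fun x =>
    iw.mul_bdd (c := D) (measurable_K x).aestronglyMeasurable
      (ae_of_all _ fun o => by rw [Real.norm_of_nonneg (kap_nonneg hσ _ _)]; exact hD x o)
  have e : ∀ x α', ∫ o, u o ^ qq n δ * (V.tt u α' (lam σ α') x o / (1 + V.tt u α (lam σ α) x₀ o / L)) ∂V.ν =
      α' * ∫ o, wt o ∂V.ν + lam σ α' * ∫ o, wt o * kap σ x (V.p o) ∂V.ν := fun x α' => by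
    rw [← integral_const_mul, ← integral_const_mul, ← integral_add (iw.const_mul _) ((iK x).const_mul _)]
    refine integral_congr_ae (ae_of_all _ fun o => ?_)
    simp only [hwt]
    rw [tt.eq_def V u α', K]
    ring
  simp only [e] at hc
  have hv := H.variance hσ V.ν V.p V.meas_p wt iw (ae_of_all _ fun o =>
    mul_nonneg (Real.rpow_nonneg (h.nonneg o) _) (div_nonneg (w0 o) (by linarith [p1 o]))) x₀
    (fun x => le_of_mul_le_mul_left (by linarith [hc x α hα]) hl) x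
  have e2 : ∫ o, u o ^ qq n δ * (V.ww u o / (1 + V.tt u α (lam σ α) x₀ o / L) * V.K x o) ∂V.ν =
      ∫ o, wt o * kap σ x (V.p o) ∂V.ν := integral_congr_ae (ae_of_all _ fun o => (mul_assoc _ _ _).symm)
  rw [e, e2]
  set W := ∫ o, wt o ∂V.ν
  set F := ∫ o, wt o * kap σ x₀ (V.p o) ∂V.ν
  have hd : HasDerivAt (fun α' => α' * W + lam σ α' * F) (W + (σ / 2 - 1 / (2 * α ^ 2)) * F) α := by
    have h1 : HasDerivAt (lam σ) (σ / 2 - 1 / (2 * α ^ 2)) α := by
      refine ((((hasDerivAt_pow 2 α).const_mul σ).const_add 1).fun_div ((hasDerivAt_id' α).const_mul 2)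
        (by linarith)).congr_deriv ?_
      field_simp
      ring
    simpa using ((hasDerivAt_id' α).mul_const W).fun_add (h1.mul_const F)
  have h0 := IsLocalMin.hasDerivAt_eq_zero (by
    filter_upwards [Ioi_mem_nhds hα] with α' hα' using hc x₀ α' hα') hd
  have hW : W = (1 / (2 * α ^ 2) - σ / 2) * F := by linarith
  refine le_trans (le_of_eq ?_) hv
  rw [kap_comm σ x x₀, hW, lam]
  field_simp
  ring

/-- `W` with `l = lam α` (`2 l α - σ α² = 1`), `F = (1 + s/L)^(-n/2)` (first two terms have a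
nonnegative sum); `u² w / β = u^q w^δ / t` where `u > 0`; `bary_pointwise` with `ϖ = min (w^δ) 1`;
`ϖ ≥ δ^δ` where `w ≥ δ`, `∫_{w < δ} u^q ≤ δ^(n-δ) M ≤ δ M N / c` (`exists_N_ge`). -/
theorem Std.exists_m_ge (hV : V.Std) {γ : ℝ} (hγ : 0 < γ) : ∃ L ≥ (1 : ℝ), ∃ δ₀ > 0,
    ∀ δ ∈ Ioo (0 : ℝ) δ₀, ∀ u ζ, V.Ext δ u ζ → ∀ (x₀ : X) (α : ℝ), 0 < α →
      (1 - γ) * V.N δ u ≤
        ∫ o, u o ^ qq n δ * (V.tt u α (lam σ α) x₀ o / (1 + V.tt u α (lam σ α) x₀ o / L)) ∂V.ν := by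
  have hσ := hV.hσ
  have ha := hV.aa_pos
  have hn : (3 : ℝ) ≤ n := by exact_mod_cast hV.hn
  have hM := hV.hM
  obtain ⟨L, hL, hpw⟩ := bary_pointwise n hV.hn hγ
  obtain ⟨c, hc, hcN⟩ := hV.exists_N_ge
  have hL0 : 0 < L := by linarith
  have t1 : Tendsto (fun δ : ℝ => √(δ ^ δ) - δ * (V.M / c)) (𝓝[>] 0) (𝓝 (√1 - 0 * (V.M / c))) := by
    refine Tendsto.sub (Tendsto.sqrt ?_) ((tendsto_id.mono_left nhdsWithin_le_nhds).mul_const _)
    have := (Real.continuous_exp.tendsto 0).comp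
      (tendsto_log_mul_rpow_nhdsGT_zero (r := 1) one_pos)
    rw [Real.exp_zero] at this
    refine this.congr' (eventually_mem_nhdsWithin.mono fun δ hδ => ?_)
    simp only [Function.comp, Real.rpow_one]
    rw [Real.rpow_def_of_pos hδ]
  have ev := t1.eventually (lt_mem_nhds (a := 1 - γ / 2) (by simp [hγ]))
  obtain ⟨δ₁, hδ₁, hev⟩ := (nhdsGT_basis (0 : ℝ)).eventually_iff.1 ev
  refine ⟨L, hL, min δ₁ 1, by positivity, fun δ hδ u ζ h x₀ α hα => ?_⟩
  have d1 : δ < 1 := hδ.2.trans_le (min_le_right _ _)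
  have d0 := hδ.1
  have hδ' : δ ∈ Icc (0 : ℝ) 1 := ⟨d0.le, d1.le⟩
  have hE := hev (x := δ) ⟨d0, hδ.2.trans_le (min_le_left _ _)⟩
  have hq := hV.qq_gt (δ := δ) (by linarith)
  have hN := h.pos
  have hN' := hcN δ ⟨d0, d1.le⟩ u ζ h
  have hl : 0 < lam σ α := by unfold lam; positivity
  have hp : ∀ s ∈ Ioi (-(L / 2)), 0 < 1 + s / L := fun s hs => by
    have : -(L / 2) / L < s / L := div_lt_div_of_pos_right hs hL0
    rw [show -(L / 2) / L = -(1 / 2) by field_simp] at this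
    linarith
  have cpow : ∀ β : ℝ, ContinuousOn (fun s : ℝ => (1 + s / L) ^ β) (Ioi (-(L / 2))) := fun β =>
    (continuousOn_const.add (continuousOn_id.div_const L)).rpow_const
      fun s hs => Or.inl (hp s hs).ne'
  have hF : ∀ s ∈ Ioi (-(L / 2)), HasDerivAt (fun s : ℝ => (1 + s / L) ^ (-(n : ℝ) / 2))
      (1 / L * (-(n : ℝ) / 2) * (1 + s / L) ^ (-(n : ℝ) / 2 - 1)) s := fun s hs =>
    (((hasDerivAt_id' s).div_const L).const_add 1).rpow_const (Or.inl (hp s hs).ne')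
  have hW := h.W hV hδ' hα hl.le x₀ (half_pos hL0) hF (continuousOn_const.mul (cpow _))
    fun s hs => by positivity
  have e1 : 2 * lam σ α * α - σ * α ^ 2 = 1 := by unfold lam; field_simp; ring
  rw [e1, mul_one] at hW
  set t : Ω → ℝ := V.tt u α (lam σ α) x₀ with ht
  set W : Ω → ℝ := fun o => α + lam σ α * V.K x₀ o with hWd
  have t0 : ∀ o, 0 ≤ t o := gwb_tt_nonneg hV h.nonneg hα.le hl.le x₀
  have w0 : ∀ o, 0 ≤ V.ww u o := gwb_ww_nonneg h.nonneg
  have W0 : ∀ o, α ≤ W o := fun o => le_add_of_nonneg_right (mul_nonneg hl.le (K_nonneg hσ _ _))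
  have tW : ∀ o, t o = V.ww u o * W o := fun o => rfl
  have mw : Measurable (V.ww u) := h.meas.pow_const _
  have mW : Measurable W := ((measurable_K x₀).const_mul _).const_add α
  have mt : Measurable t := mw.mul mW
  have m1 : ∀ β : ℝ, Measurable fun o => (1 + t o / L) ^ β := fun β =>
    ((mt.div_const L).const_add 1).pow_const β
  have p1 : ∀ o, 1 ≤ 1 + t o / L := fun o => le_add_of_nonneg_right (by have := t0 o; positivity)
  have le1 : ∀ β ≤ (0 : ℝ), ∀ o, (1 + t o / L) ^ β ≤ 1 := fun β hβ o =>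
    Real.rpow_le_one_of_one_le_of_nonpos (p1 o) hβ
  obtain ⟨R, hR0, hR⟩ := gwb_ww_le hV h.nonneg h.bdd
  have iq : Integrable (fun o => u o ^ qq n δ) V.ν :=
    (integrable_const (R ^ qq n δ)).mono' (h.meas.pow_const _).aestronglyMeasurable
      (ae_of_all _ fun o => by
        rw [Real.norm_of_nonneg (Real.rpow_nonneg (h.nonneg o) _)]
        exact Real.rpow_le_rpow (h.nonneg o) (hR o).1 (by linarith))
  have o3 : ∀ o, t o / (1 + t o / L) ≤ L := fun o => by
    have := t0 o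
    rw [div_le_iff₀ (by positivity)]
    field_simp
    linarith
  have im : Integrable (fun o => u o ^ qq n δ * (t o / (1 + t o / L))) V.ν :=
    iq.mul_bdd (c := L) (mt.div ((mt.div_const L).const_add 1)).aestronglyMeasurable
      (ae_of_all _ fun o => by
        have := t0 o
        rw [Real.norm_of_nonneg (by positivity)]
        exact o3 o)
  have iQ : Integrable (fun o => u o ^ 2 * V.ww u o * (1 + t o / L) ^ (-(n : ℝ) / 2) / W o) V.ν := by
    refine (integrable_const (R ^ 2 * R * 1 / α)).mono'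
      ((((h.meas.pow_const 2).mul mw).mul (m1 _)).div mW).aestronglyMeasurable
      (ae_of_all _ fun o => ?_)
    have := w0 o
    have := h.nonneg o
    have := p1 o
    have := hα.trans_le (W0 o)
    rw [Real.norm_of_nonneg (by positivity)]
    gcongr
    · exact (hR o).1
    · exact (hR o).2
    · exact le1 _ (by linarith) o
    · exact W0 o
  have hb : V.Bdd u := ⟨R, ae_of_all _ fun o => by
    rw [Real.norm_of_nonneg (h.nonneg o)]; exact (hR o).1⟩
  have iA := (h.integrable_rr hV α (lam σ α) x₀).bdd_mul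
    (f := fun o => 1 / L * (-(n : ℝ) / 2) * (1 + t o / L) ^ (-(n : ℝ) / 2 - 1))
    (c := |1 / L * (-(n : ℝ) / 2)| * 1) ((m1 _).const_mul _).aestronglyMeasurable
    (ae_of_all _ fun o => by
      have := p1 o
      rw [norm_mul, Real.norm_eq_abs, Real.norm_of_nonneg (by positivity)]
      gcongr
      exact le1 _ (by linarith) o)
  have iB : Integrable (fun o => n / 2 * (1 + t o / L) ^ (-(n : ℝ) / 2)
      * (V.ww u o * ‖V.rr u ζ α (lam σ α) x₀ o‖ ^ 2 / W o)) V.ν := by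
    have := (gwa_memLp_rr h.inH hb α (lam σ α) x₀).norm.integrable_sq.bdd_mul
      (f := fun o => n / 2 * (1 + t o / L) ^ (-(n : ℝ) / 2) * (V.ww u o / W o))
      (c := n / 2 * 1 * (R / α)) (((m1 _).const_mul _).mul (mw.div mW)).aestronglyMeasurable
      (ae_of_all _ fun o => by
        have := w0 o
        have := p1 o
        have := hα.trans_le (W0 o)
        rw [Real.norm_of_nonneg (by positivity)]
        gcongr
        · exact le1 _ (by linarith) o
        · exact (hR o).2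
        · exact W0 o)
    exact this.congr (ae_of_all _ fun o => by simp only; ring)
  have s1 : n / 2 * ∫ o, u o ^ 2 * V.ww u o * (1 + t o / L) ^ (-(n : ℝ) / 2) / W o ∂V.ν
      ≤ n / 2 * ∫ o, u o ^ qq n δ * (t o / (1 + t o / L)) ∂V.ν := by
    rw [← integral_const_mul]
    refine le_trans (integral_mono (iQ.const_mul _) ((iA.add iB).add (iQ.const_mul _)) fun o => ?_)
      (hW.trans (mul_le_mul_of_nonneg_left (integral_mono_of_nonneg (ae_of_all _ fun o => ?_) im
        (ae_of_all _ fun o => ?_)) (by positivity)))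
    · simp only [Pi.add_apply]
      refine le_add_of_nonneg_left ?_
      have hWp := hα.trans_le (W0 o)
      have := p1 o
      have e2 : (1 + t o / L) ^ (-(n : ℝ) / 2) = (1 + t o / L) ^ (-(n : ℝ) / 2 - 1) * (1 + t o / L) := by
        rw [← Real.rpow_add_one (by positivity), sub_add_cancel]
      have e3 : 1 / L * (-(n : ℝ) / 2) * (1 + t o / L) ^ (-(n : ℝ) / 2 - 1)
          * (V.ww u o ^ 2 * ‖V.rr u ζ α (lam σ α) x₀ o‖ ^ 2) + n / 2 * (1 + t o / L) ^ (-(n : ℝ) / 2)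
          * (V.ww u o * ‖V.rr u ζ α (lam σ α) x₀ o‖ ^ 2 / W o)
          = n / 2 * (1 + t o / L) ^ (-(n : ℝ) / 2 - 1)
            * (V.ww u o * ‖V.rr u ζ α (lam σ α) x₀ o‖ ^ 2 / W o) := by
        rw [e2]
        generalize (1 + t o / L) ^ (-(n : ℝ) / 2 - 1) = P
        rw [tW]
        field_simp
        ring
      rw [e3]
      have := w0 o
      positivity
    · have := t0 o
      have := h.nonneg o
      simp only [Pi.zero_apply]
      positivity
    · have := t0 o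
      simp only
      refine mul_le_mul_of_nonneg_left ?_ (Real.rpow_nonneg (h.nonneg o) _)
      rw [mul_comm, div_eq_mul_inv (t o) (1 + _), ← Real.rpow_neg_one]
      exact mul_le_mul_of_nonneg_left (Real.rpow_le_rpow_of_exponent_le (p1 o) (by linarith)) this
  have s2 := le_of_mul_le_mul_left s1 (by positivity)
  have dd : √(δ ^ δ) ≤ 1 := Real.sqrt_le_one.2 (Real.rpow_le_one d0.le d1.le d0.le)
  have s3 : ∀ o, (2 * √(δ ^ δ) - γ) * u o ^ qq n δ - 2 * δ ^ (n - δ : ℝ)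
      ≤ u o ^ 2 * V.ww u o * (1 + t o / L) ^ (-(n : ℝ) / 2) / W o
        + u o ^ qq n δ * (t o / (1 + t o / L)) := fun o => by
    have hWp := hα.trans_le (W0 o)
    rcases (h.nonneg o).eq_or_lt with h0 | h0
    · rw [← h0, Real.zero_rpow (by linarith)]
      have : 0 ≤ δ ^ (n - δ : ℝ) := by positivity
      simp only [mul_zero, zero_sub, ne_eq, OfNat.ofNat_ne_zero, not_false_eq_true, zero_pow,
        zero_mul, zero_div, add_zero]
      linarith
    have wp : 0 < V.ww u o := Real.rpow_pos_of_pos h0 _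
    have tp : 0 < t o := mul_pos wp hWp
    have up : 0 < u o ^ qq n δ := Real.rpow_pos_of_pos h0 _
    have uw : u o = V.ww u o ^ aa n := by
      rw [ww, ← Real.rpow_mul h0.le, one_div_mul_cancel ha.ne', Real.rpow_one]
    have e4 : u o ^ qq n δ = V.ww u o ^ (n - δ : ℝ) := by
      rw [uw, ← Real.rpow_mul wp.le, hV.aa_mul_qq]
    have e5 : u o ^ 2 * V.ww u o ^ 2 = u o ^ qq n δ * V.ww u o ^ δ := by
      rw [e4, ← Real.rpow_add wp, sub_add_cancel]
      nth_rewrite 1 [uw]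
      rw [← Real.rpow_natCast, ← Real.rpow_natCast, ← Real.rpow_mul wp.le, ← Real.rpow_add wp]
      congr 1
      unfold aa
      push_cast
      ring
    have e6 : u o ^ 2 * V.ww u o * (1 + t o / L) ^ (-(n : ℝ) / 2) / W o
        = u o ^ qq n δ * (V.ww u o ^ δ * (1 + t o / L) ^ (-(n : ℝ) / 2) / t o) := by
      generalize (1 + t o / L) ^ (-(n : ℝ) / 2) = P
      rw [← mul_div_assoc, ← mul_assoc, ← e5, tW]
      field_simp
    have b1 := hpw (t o) tp (min (V.ww u o ^ δ) 1) ⟨by positivity, min_le_right _ _⟩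
    have b2 : min (V.ww u o ^ δ) 1 * (1 + t o / L) ^ (-(n : ℝ) / 2) / t o
        ≤ V.ww u o ^ δ * (1 + t o / L) ^ (-(n : ℝ) / 2) / t o := by
      gcongr
      exact min_le_left _ _
    rw [e6, ← mul_add]
    refine le_trans ?_ (mul_le_mul_of_nonneg_left (b1.trans (add_le_add b2 le_rfl)) up.le)
    rcases le_total δ (V.ww u o) with b3 | b3
    · have : √(δ ^ δ) ≤ √(min (V.ww u o ^ δ) 1) := Real.sqrt_le_sqrt (le_min
        (Real.rpow_le_rpow d0.le b3 d0.le) (Real.rpow_le_one d0.le d1.le d0.le))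
      have : 0 ≤ δ ^ (n - δ : ℝ) := by positivity
      nlinarith
    · have : u o ^ qq n δ ≤ δ ^ (n - δ : ℝ) := by
        rw [e4]
        exact Real.rpow_le_rpow wp.le b3 (by linarith)
      have := Real.sqrt_nonneg (min (V.ww u o ^ δ) 1)
      nlinarith
  have s4 := integral_mono ((iq.const_mul (2 * √(δ ^ δ) - γ)).sub
    (integrable_const (2 * δ ^ (n - δ : ℝ)))) (iQ.add im) s3
  simp only [Pi.sub_apply, Pi.add_apply] at s4
  rw [integral_sub (iq.const_mul _) (integrable_const _), integral_add iQ im, integral_const_mul,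
    integral_const, smul_eq_mul] at s4
  change (2 * √(δ ^ δ) - γ) * V.N δ u - V.M * _ ≤ _ at s4
  have s5 : δ ^ (n - δ : ℝ) ≤ δ * δ ^ (n - 2) := by
    rw [← pow_succ', ← Real.rpow_natCast]
    refine Real.rpow_le_rpow_of_exponent_ge d0 d1.le ?_
    have := hV.hn
    rw [show n - 2 + 1 = n - 1 by omega, Nat.cast_sub (by omega)]
    push_cast
    linarith
  have s6 : V.M * δ ^ (n - δ : ℝ) ≤ δ * (V.M / c) * V.N δ u := by
    calc V.M * δ ^ (n - δ : ℝ) ≤ V.M * (δ * δ ^ (n - 2)) := by gcongr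
      _ = δ * (V.M / c) * (c * δ ^ (n - 2)) := by field_simp
      _ ≤ _ := by gcongr
  nlinarith [mul_le_mul_of_nonneg_right hE.le hN.le]

/-- `K' o' = ω o ω o' κ(p o, p o') ≤ 4 L²` (`kap_triangle`: `κ(x,y) ≤ 4 β x β y` as `α lam ≥ 1/2`,
`lam² ≥ σ`); the `u^q`-average over `o` of `E K'` is `≥ m²`. -/
theorem Std.exists_bary (hV : V.Std) (H : Hyp σ X) {γ : ℝ} (hγ : 0 < γ) : ∃ L > (0 : ℝ), ∃ δ₀ > 0,
    ∀ δ ∈ Ioo (0 : ℝ) δ₀, ∀ u ζ, V.Ext δ u ζ → ∃ᵐ o ∂V.ν, 0 < u o ∧ ∃ K' : Ω → ℝ, Measurable K' ∧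
      (∀ o', 0 ≤ K' o' ∧ K' o' ≤ L ∧ K' o' ≤ V.tt u 0 (V.ww u o) (V.p o) o') ∧
      1 - γ ≤ (V.N δ u)⁻¹ * ∫ o', u o' ^ qq n δ * K' o' ∂V.ν := by
  have hσ := hV.hσ
  obtain ⟨L, hL, δ₀, hδ₀, hm⟩ := hV.exists_m_ge (γ := min (γ / 4) (1 / 2)) (by positivity)
  refine ⟨4 * L ^ 2, by positivity, min δ₀ 1, by positivity, fun δ hδ u ζ h => ?_⟩
  have hL0 : 0 < L := by linarith
  have hδ' : δ ∈ Icc (0 : ℝ) 1 := ⟨hδ.1.le, hδ.2.le.trans (min_le_right _ _)⟩
  have hq := hV.qq_gt (δ := δ) (by linarith [hδ'.2])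
  obtain ⟨x₀, α, hα, hc⟩ := h.center_ineq hV H hδ' hL0
  have hm' := hm δ ⟨hδ.1, hδ.2.trans_le (min_le_left _ _)⟩ u ζ h x₀ α hα
  have hN := h.pos
  have hl : 0 < lam σ α := by unfold lam; positivity
  set t : Ω → ℝ := V.tt u α (lam σ α) x₀ with ht
  set m : ℝ := ∫ o, u o ^ qq n δ * (t o / (1 + t o / L)) ∂V.ν with hmdef
  set om' : Ω → ℝ := fun o => V.ww u o / (1 + t o / L) with hom
  have t0 : ∀ o, 0 ≤ t o := gwb_tt_nonneg hV h.nonneg hα.le hl.le x₀
  have w0 : ∀ o, 0 ≤ V.ww u o := gwb_ww_nonneg h.nonneg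
  have o0 : ∀ o, 0 ≤ om' o := fun o => by have := t0 o; have := w0 o; simp only [hom]; positivity
  have o1 : ∀ o, om' o ≤ V.ww u o := fun o =>
    div_le_self (w0 o) (by have := t0 o; have : 0 ≤ t o / L := by positivity
                           linarith)
  have o2 : ∀ o, om' o * (α + lam σ α * V.K x₀ o) = t o / (1 + t o / L) := fun o => by
    simp only [hom, ht, tt]; ring
  have o3 : ∀ o, t o / (1 + t o / L) ≤ L := fun o => by
    have := t0 o
    rw [div_le_iff₀ (by positivity)]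
    field_simp
    linarith
  have mw : Measurable (V.ww u) := h.meas.pow_const _
  have mt : Measurable t := mw.mul (((measurable_K x₀).const_mul _).const_add α)
  have mo : Measurable om' := mw.div ((mt.div_const L).const_add 1)
  obtain ⟨R, hR0, hR⟩ := gwb_ww_le hV h.nonneg h.bdd
  have iq : Integrable (fun o => u o ^ qq n δ) V.ν :=
    (integrable_const (R ^ qq n δ)).mono' (h.meas.pow_const _).aestronglyMeasurable
      (ae_of_all _ fun o => by
        rw [Real.norm_of_nonneg (Real.rpow_nonneg (h.nonneg o) _)]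
        exact Real.rpow_le_rpow (h.nonneg o) (hR o).1 (by linarith))
  have im : Integrable (fun o => u o ^ qq n δ * (t o / (1 + t o / L))) V.ν :=
    iq.mul_bdd (c := L) (mt.div ((mt.div_const L).const_add 1)).aestronglyMeasurable
      (ae_of_all _ fun o => by
        have := t0 o
        rw [Real.norm_of_nonneg (by positivity)]
        exact o3 o)
  set g : ℝ := min (γ / 4) (1 / 2) with hg
  have g1 : g ≤ γ / 4 := min_le_left _ _
  have g2 : g ≤ 1 / 2 := min_le_right _ _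
  have g0 : 0 < g := by positivity
  have m0 : 0 < m := lt_of_lt_of_le (mul_pos (by linarith) hN) hm'
  by_contra hcon
  rw [not_frequently] at hcon
  have hle : ∀ᵐ o ∂V.ν, u o ^ qq n δ * (t o / (1 + t o / L)) * m
      ≤ u o ^ qq n δ * ((1 - γ) * V.N δ u) := by
    filter_upwards [hcon] with o ho
    rcases (h.nonneg o).eq_or_lt with h0 | h0
    · rw [← h0, Real.zero_rpow (by linarith)]
      simp
    rw [mul_assoc]
    refine mul_le_mul_of_nonneg_left ?_ (Real.rpow_nonneg h0.le _)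
    by_contra hlt
    refine ho ⟨h0, fun o' => om' o * (om' o' * V.K (V.p o) o'),
      (mo.mul (measurable_K _)).const_mul _, fun o' => ⟨?_, ?_, ?_⟩, ?_⟩
    · exact mul_nonneg (o0 o) (mul_nonneg (o0 o') (K_nonneg hσ _ _))
    · have k1 := K_nonneg (V := V) hσ x₀ o
      have k2 := K_nonneg (V := V) hσ x₀ o'
      have k3 : V.K (V.p o) o' ≤ 4 * (α + lam σ α * V.K x₀ o) * (α + lam σ α * V.K x₀ o') := by
        have a1 := kap_triangle hσ (V.p o) (V.p o') x₀
        rw [kap_comm σ (V.p o) x₀] at a1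
        have a2 : 1 / 2 ≤ α * lam σ α := by
          unfold lam
          rw [mul_div_assoc', le_div_iff₀ (by positivity)]
          nlinarith [mul_nonneg (mul_nonneg hσ (sq_nonneg α)) hα.le]
        have a3 : σ ≤ lam σ α ^ 2 := by
          unfold lam
          rw [div_pow, le_div_iff₀ (by positivity)]
          nlinarith [sq_nonneg (1 - σ * α ^ 2)]
        change V.K (V.p o) o' ≤ 2 * (V.K x₀ o + V.K x₀ o' + σ * V.K x₀ o * V.K x₀ o') at a1
        nlinarith [mul_le_mul_of_nonneg_right a2 (add_nonneg k1 k2),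
          mul_le_mul_of_nonneg_right a3 (mul_nonneg k1 k2), mul_nonneg hσ (mul_nonneg k1 k2),
          sq_nonneg α]
      calc om' o * (om' o' * V.K (V.p o) o')
          ≤ om' o * (om' o' * (4 * (α + lam σ α * V.K x₀ o) * (α + lam σ α * V.K x₀ o'))) := by
            have := o0 o; have := o0 o'; gcongr
        _ = 4 * ((t o / (1 + t o / L)) * (t o' / (1 + t o' / L))) := by rw [← o2, ← o2]; ring
        _ ≤ 4 * (L * L) := by
            have := t0 o'
            gcongr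
            · exact o3 o
            · exact o3 o'
        _ = _ := by ring
    · have := K_nonneg (V := V) hσ (V.p o) o'
      have := o0 o'
      have := w0 o
      calc om' o * (om' o' * V.K (V.p o) o') ≤ V.ww u o * (V.ww u o' * V.K (V.p o) o') := by
            gcongr
            · exact o1 o
            · exact o1 o'
        _ = _ := by rw [tt]; ring
    · have a1 := mul_le_mul_of_nonneg_left (hc (V.p o)) (o0 o)
      have a2 : ∫ o', u o' ^ qq n δ * (om' o * (om' o' * V.K (V.p o) o')) ∂V.ν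
          = om' o * ∫ o', u o' ^ qq n δ * (om' o' * V.K (V.p o) o') ∂V.ν := by
        rw [← integral_const_mul]
        exact integral_congr_ae (ae_of_all _ fun o' => by simp only; ring)
      rw [a2, inv_mul_eq_div, le_div_iff₀ hN]
      refine (not_le.1 hlt).le.trans (le_trans (le_of_eq ?_) a1)
      rw [← o2]
      simp only [K]
      ring
  have a3 := integral_mono_ae (im.mul_const m) (iq.mul_const _) hle
  rw [integral_mul_const, integral_mul_const, ← hmdef] at a3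
  change m * m ≤ V.N δ u * _ at a3
  have a4 : (1 - g) * V.N δ u * ((1 - g) * V.N δ u) ≤ m * m :=
    mul_self_le_mul_self (mul_pos (by linarith) hN).le hm'
  have a5 : (1 - g) * (1 - g) ≤ 1 - γ :=
    le_of_mul_le_mul_right (a := V.N δ u * V.N δ u) (by linarith) (mul_pos hN hN)
  nlinarith


end VS

end Crest.Agent.R241
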