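import Crest.Agent.R241.G.Res
import Crest.Agent.R241.G.ACpt

/-!
# Compactness of `H ⊆ L²`.  Helper prefix `gcpt_`.
-/

open MeasureTheory Set Filter Topology
open Crest.GeometryTopology.MetricCurrent
open Crest.GeometryTopology.Submanifold (Euc unitBallVol unitSphereArea)
open scoped ENNReal NNReal InnerProductSpace

noncomputable section

namespace Crest.Agent.R241

universe u

set_option linter.unusedSectionVars false

variable {X : Type u} [MetricSpace X] [CompactSpace X] [MeasurableSpace X] [BorelSpace X]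
  {Ω : Type u} [MeasurableSpace Ω] {σ Λ : ℝ} {n : ℕ} {V : VS σ Λ n X Ω}

namespace VS


theorem gcpt_inner {a b : Lp ℝ 2 V.ν} {f g : Ω → ℝ} (ha : a =ᵐ[V.ν] f) (hb : b =ᵐ[V.ν] g) :
    ⟪a, b⟫_ℝ = ∫ o, g o * f o ∂V.ν := by
  rw [L2.inner_def]
  refine integral_congr_ae ?_
  filter_upwards [ha, hb] with o h1 h2
  rw [h1, h2]
  rfl

/-- the resolvent as a linear map (choice + `Solves.unique`, `add`, `smul`) -/
theorem Std.exists_resolvent (hV : V.Std) : ∃ S : Lp ℝ 2 V.ν →ₗ[ℝ] Lp ℝ 2 V.ν,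
    ∀ g : Lp ℝ 2 V.ν, ∃ ζ, V.Solves g (S g) ζ := by
  choose u ζ h using fun g : Lp ℝ 2 V.ν => hV.exists_solves (Lp.memLp g)
  have e : ∀ g, (h g).1.1.toLp (u g) =ᵐ[V.ν] u g := fun g => MemLp.coeFn_toLp _
  refine ⟨⟨⟨fun g => (h g).1.1.toLp (u g), fun g g' => Lp.ext ?_⟩, fun c g => Lp.ext ?_⟩,
    fun g => ⟨ζ g, (h g).1.congr (e g).symm .rfl, fun v ζ' hv => ?_⟩⟩
  · filter_upwards [e (g + g'), e g, e g', Lp.coeFn_add ((h g).1.1.toLp (u g)) ((h g').1.1.toLp (u g')),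
      (h (g + g')).unique hV ((h g).add (h g') (Lp.memLp g) (Lp.memLp g')) (Lp.coeFn_add g g')]
      with o h1 h2 h3 h4 h5
    rw [h1, h4, h5, Pi.add_apply, h2, h3]
  · filter_upwards [e (c • g), e g, Lp.coeFn_smul c ((h g).1.1.toLp (u g)),
      (h (c • g)).unique hV ((h g).smul c) (Lp.coeFn_smul c g)] with o h1 h2 h4 h5
    simp only [RingHom.id_apply]
    rw [h1, h4, h5, Pi.smul_apply, h2, smul_eq_mul]
  · exact (B_congr (e g) .rfl .rfl .rfl).trans ((h g).2 v ζ' hv)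

theorem Std.gcpt_fd (hV : V.Std) {S : Lp ℝ 2 V.ν →ₗ[ℝ] Lp ℝ 2 V.ν}
    (hS : ∀ g : Lp ℝ 2 V.ν, ∃ ζ, V.Solves g (S g) ζ) {η : ℝ} (hη : 0 < η) :
    ∃ W : Submodule ℝ (Lp ℝ 2 V.ν), FiniteDimensional ℝ W ∧ ∀ d ∈ Wᗮ, ⟪S d, d⟫_ℝ ≤ 2 * η * ‖d‖ ^ 2 := by
  obtain ⟨C, hC⟩ := hV.exists_kernel_bound
  obtain ⟨ρ, hρ, h1⟩ := hV.exists_near_le (η := η / (C + 1)) (by positivity)
  obtain ⟨r, h2, hr⟩ : ∃ r, md σ (6 * r) < ρ ∧ 0 < r := by
    have h3 : ContinuousAt (fun r => md σ (6 * r)) 0 := ((continuous_md σ).comp (by fun_prop)).continuousAt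
    exact (((h3.eventually_lt continuousAt_const (by simpa using hρ)).filter_mono nhdsWithin_le_nhds).and
      (self_mem_nhdsWithin (s := Ioi (0 : ℝ)))).exists
  obtain ⟨t, -, ht, hc⟩ := finite_cover_balls_of_compact (isCompact_univ (X := X)) hr
  obtain ⟨N, x, -, rfl⟩ := ht.fin_param
  have hx : ∀ y, ∃ i, dist y (x i) < r := fun y => by simpa using hc (mem_univ y)
  have hm : Measurable fun o i => dist (V.p o) (x i) < r := measurable_pi_lambda _ fun i =>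
    measurableSet_setOf.1 (measurableSet_lt (V.meas_p.dist measurable_const) measurable_const)
  refine exists_fd V.ν S (k := fun o o' => C * V.kk (aa n) o o') ((measurable_kk _).const_mul _)
    (fun o o' => by rw [kk_symm]) (fun g => (hS g).elim fun ζ h => hC _ _ ζ (Lp.memLp g) h) hη
    (fun o i => dist (V.p o) (x i) < r) (fun i => hm (measurableSet_singleton i))
    (fun a b => ∀ i j, a i → b j → 4 * r < dist (x i) (x j))
    (fun a b h i j hi hj => dist_comm (x i) (x j) ▸ h j i hj hi)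
    (C * (md σ (2 * r) ^ (-aa n)).toNNReal) (fun o o' h => ?_) fun o => ?_
  · obtain ⟨i, hi⟩ := hx (V.p o)
    obtain ⟨j, hj⟩ := hx (V.p o')
    have h4 : |2 * r| ≤ dist (V.p o) (V.p o') := by
      rw [abs_of_pos (by linarith)]
      linarith [h i j hi hj, dist_triangle4 (x i) (V.p o) (V.p o') (x j), dist_comm (x i) (V.p o)]
    rw [ENNReal.coe_mul]
    exact mul_le_mul_right (ENNReal.ofReal_le_ofReal (Real.rpow_le_rpow_of_nonpos
      (md_pos hV.hσ (by positivity)) (md_le_md hV.hσ h4) (neg_nonpos.2 hV.aa_pos.le))) _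
  · rw [lintegral_const_mul' _ _ ENNReal.coe_ne_top]
    refine (mul_le_mul_right ((lintegral_mono_set fun o' ho' => ?_).trans (h1 o)) _).trans ?_
    · simp only [mem_setOf_eq, not_forall, not_lt] at ho'
      obtain ⟨i, j, hi, hj, h4⟩ := ho'
      refine (md_le_md hV.hσ ?_).trans h2.le
      rw [abs_of_nonneg dist_nonneg]
      linarith [dist_triangle4 (V.p o) (x i) (x j) (V.p o'), dist_comm (x j) (V.p o')]
    · rw [← ENNReal.ofReal_coe_nnreal, ← ENNReal.ofReal_mul C.coe_nonneg]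
      refine ENNReal.ofReal_le_ofReal ?_
      rw [← mul_div_assoc, div_le_iff₀ (by positivity)]
      nlinarith

/-- `exists_fd` with cells from a finite cover of `X` by balls of radius `r` (cell = first ball
containing `p o`), `far i j` = centres at distance `> 4 r`; `⟪f, d⟫² = B(S d, f)² ≤ ⟪S d, d⟫`;
`totallyBounded_of_fd`, complete space, `IsCompact.tendsto_subseq` for the closure. -/
theorem Std.exists_cauchy (hV : V.Std) {f : ℕ → Ω → ℝ} {ζ : ℕ → Ω → Euc n}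
    (h : ∀ j, V.InH (f j) (ζ j)) {C : ℝ} (hB : ∀ j, V.B (f j) (ζ j) (f j) (ζ j) ≤ C) :
    ∃ φ : ℕ → ℕ, StrictMono φ ∧ ∀ η > 0, ∃ N, ∀ j ≥ N, ∀ l ≥ N,
      ∫ o, (f (φ j) o - f (φ l) o) ^ 2 ∂V.ν ≤ η := by
  obtain ⟨S, hS⟩ := hV.exists_resolvent
  have hC : 0 ≤ C := (hV.B_nonneg _ _).trans (hB 0)
  have hc := mul_pos hV.cz_pos hV.hsq_pos
  obtain ⟨F, e⟩ : ∃ F : ℕ → Lp ℝ 2 V.ν, ∀ j, F j =ᵐ[V.ν] f j :=
    ⟨fun j => (h j).1.toLp (f j), fun j => MemLp.coeFn_toLp _⟩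
  have hT : TotallyBounded (range F) := by
    refine totallyBounded_of_fd (isBounded_iff_forall_norm_le.2 ⟨√(C / (cz n * hsq σ Λ n)), ?_⟩) fun η hη => ?_
    · rintro _ ⟨j, rfl⟩
      refine Real.le_sqrt_of_sq_le ?_
      rw [← real_inner_self_eq_norm_sq, gcpt_inner (e j) (e j), le_div_iff₀' hc]
      simpa only [sq] using (hV.sq_le_B (h j)).trans (hB j)
    · obtain ⟨W, h1, h2⟩ := hV.gcpt_fd hS (η := η ^ 2 / (2 * (C + 1))) (by positivity)
      refine ⟨W, h1, ?_⟩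
      rintro _ ⟨j, rfl⟩ d hd
      obtain ⟨z, hz⟩ := hS d
      have h3 := hV.B_sq_le hz.1 (h j)
      rw [hz.2 _ _ (h j), hz.2 _ _ hz.1, ← gcpt_inner (e j) .rfl, ← gcpt_inner .rfl .rfl] at h3
      have h4 : 2 * (η ^ 2 / (2 * (C + 1))) * ‖d‖ ^ 2 * (C + 1) = (η * ‖d‖) ^ 2 := by field_simp
      refine (abs_le_of_sq_le_sq' (h3.trans ?_) (by positivity)).2
      rw [← h4]
      exact mul_le_mul (h2 d hd) ((hB j).trans (le_add_of_nonneg_right zero_le_one)) (hV.B_nonneg _ _)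
        (by positivity)
  obtain ⟨a, -, φ, hφ, ha⟩ := (hT.closure.isCompact_of_isClosed isClosed_closure).tendsto_subseq
    fun j => subset_closure (mem_range_self j)
  refine ⟨φ, hφ, fun η hη => ?_⟩
  obtain ⟨N, hN⟩ := Metric.cauchySeq_iff.1 ha.cauchySeq (√η) (Real.sqrt_pos.2 hη)
  refine ⟨N, fun j hj l hl => ?_⟩
  have h5 := (Lp.coeFn_sub (F (φ j)) (F (φ l))).trans ((e _).sub (e _))
  have h6 := (Real.lt_sqrt dist_nonneg).1 (hN j hj l hl)
  rw [dist_eq_norm, ← real_inner_self_eq_norm_sq] at h6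
  simpa only [sq, Pi.sub_apply] using ((gcpt_inner h5 h5).symm.trans_lt h6).le


end VS

end Crest.Agent.R241
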