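import Crest.Agent.R241.Core0

/-!
# Block G (core for `n ≥ 3`): definitions.  Overview: `notes241/G.md`.
-/

open MeasureTheory Set Filter Topology
open Crest.GeometryTopology.MetricCurrent
open Crest.GeometryTopology.Submanifold (Euc unitBallVol unitSphereArea)
open scoped ENNReal NNReal InnerProductSpace

noncomputable section

namespace Crest.Agent.R241

universe u

variable {X : Type u} [MetricSpace X] [MeasurableSpace X]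
  {Ω : Type u} [MeasurableSpace Ω] {σ Λ : ℝ} {n : ℕ}

/-- `a = (n-2)/2` -/
def aa (n : ℕ) : ℝ := (n - 2) / 2
/-- `c₀ = n(n-2)/4` -/
def cz (n : ℕ) : ℝ := n * (n - 2) / 4
/-- `h² = Λ²/n² - σ` -/
def hsq (σ Λ : ℝ) (n : ℕ) : ℝ := (Λ / n) ^ 2 - σ
/-- the exponent `q = (n - δ)/a`; `δ = 0` is the critical one -/
def qq (n : ℕ) (δ : ℝ) : ℝ := (n - δ) / aa n
/-- pole constant -/
def Cn (n : ℕ) : ℝ := 2 ^ ((n : ℝ) / 2 + 1) * om n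

namespace VS

variable (V : VS σ Λ n X Ω)

/-- standing assumptions -/
structure Std : Prop where
  hσ : 0 ≤ σ
  hΛ : 0 < Λ
  hn : 3 ≤ n
  hM : 0 < V.M

/-- `κ_x ∘ p` -/
def K (x : X) (o : Ω) : ℝ := kap σ x (V.p o)

/-- generating pairs -/
def IsG (f : Ω → ℝ) (ζ : Ω → Euc n) : Prop :=
  ∃ (m : ℕ) (xs : Fin m → X) (Φ : (Fin m → ℝ) → ℝ), ContDiff ℝ 1 Φ ∧
    (∀ o, f o = gfun σ xs Φ (V.p o)) ∧ ∀ o, ζ o = gvec σ xs Φ (V.p o) (V.ξ o)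

/-- the closure of the generating pairs in `L² × L²` -/
def InH (f : Ω → ℝ) (ζ : Ω → Euc n) : Prop :=
  MemLp f 2 V.ν ∧ MemLp ζ 2 V.ν ∧ ∀ η > 0, ∃ g ζ', V.IsG g ζ' ∧
    ∫ o, ((f o - g o) ^ 2 + ‖ζ o - ζ' o‖ ^ 2) ∂V.ν ≤ η

/-- the conformal energy -/
def B (f : Ω → ℝ) (ζ : Ω → Euc n) (g : Ω → ℝ) (ζ' : Ω → Euc n) : ℝ :=
  ∫ o, (⟪ζ o, ζ' o⟫_ℝ + cz n * hsq σ Λ n * (f o * g o)) ∂V.ν

/-- essentially bounded -/
def Bdd {F : Type*} [Norm F] (f : Ω → F) : Prop := ∃ C : ℝ, ∀ᵐ o ∂V.ν, ‖f o‖ ≤ C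

/-- approximate identity -/
def T (e : ℝ) (u : Ω → ℝ) (x : X) : ℝ := e * ∫ o, u o * (e + V.K x o) ^ (-((n : ℝ) / 2 + 1)) ∂V.ν

/-- upper regularity -/
def Reg (Θ : ℝ) : Prop := ∀ x : X, ∀ s > 0, V.ν.real {o | V.K x o ≤ s} ≤ Θ * s ^ ((n : ℝ) / 2)

/-- Riesz kernel -/
def kk (β : ℝ) (o o' : Ω) : ℝ≥0∞ := ENNReal.ofReal (V.K (V.p o) o' ^ (-β))

/-- `(u, ζ)` solves the resolvent equation with right side `g` -/
def Solves (g u : Ω → ℝ) (ζ : Ω → Euc n) : Prop :=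
  V.InH u ζ ∧ ∀ v ζ', V.InH v ζ' → V.B u ζ v ζ' = ∫ o, g o * v o ∂V.ν

/-- `∫ u ^ q` -/
def N (δ : ℝ) (u : Ω → ℝ) : ℝ := ∫ o, u o ^ qq n δ ∂V.ν

/-- a normalised bounded extremal for the Sobolev quotient with exponent `q = qq n δ` -/
structure Ext (δ : ℝ) (u : Ω → ℝ) (ζ : Ω → Euc n) : Prop where
  inH : V.InH u ζ
  meas : Measurable u
  nonneg : ∀ o, 0 ≤ u o
  bdd : ∃ R, ∀ o, u o ≤ R
  pos : 0 < V.N δ u
  el : ∀ v ζ', V.InH v ζ' → V.Bdd v → V.B u ζ v ζ' = cz n * ∫ o, u o ^ (qq n δ - 1) * v o ∂V.ν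
  min : ∀ v ζ', V.InH v ζ' → V.Bdd v → (∀ o, 0 ≤ v o) →
    cz n * V.N δ u ^ (1 - 2 / qq n δ) * V.N δ v ^ (2 / qq n δ) ≤ V.B v ζ' v ζ'

/-- the conformal factor `w = u ^ (1/a)` -/
def ww (_V : VS σ Λ n X Ω) (u : Ω → ℝ) (o : Ω) : ℝ := u o ^ (1 / aa n)

/-- `t = w (α + l κ_x)` -/
def tt (u : Ω → ℝ) (α l : ℝ) (x : X) (o : Ω) : ℝ := V.ww u o * (α + l * V.K x o)

/-- `u ∇t = w ρ` -/
def rr (u : Ω → ℝ) (ζ : Ω → Euc n) (α l : ℝ) (x : X) (o : Ω) : Euc n :=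
  ((α + l * V.K x o) / aa n) • ζ o + (u o * l) • V.ξ o x

end VS

end Crest.Agent.R241
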