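import Crest.Agent.R241.G.Path
import Crest.Agent.R241.G.Bary

/-!
# The sharp Sobolev inequality and the end of the core.  Helper prefix `gfin_`.
-/

open MeasureTheory Set Filter Topology
open Crest.GeometryTopology.MetricCurrent
open Crest.GeometryTopology.Submanifold (Euc unitBallVol unitSphereArea)
open scoped ENNReal NNReal InnerProductSpace

noncomputable section

namespace Crest.Agent.R241

universe u

set_option linter.unusedSectionVars false

variable {X : Type u} [MetricSpace X] [CompactSpace X] [MeasurableSpace X] [BorelSpace X]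
  {Ω : Type u} [MeasurableSpace Ω] {σ Λ : ℝ} {n : ℕ} {V : VS σ Λ n X Ω}

namespace VS


/-- `exists_bary`, `path`; choose `S`, then `δ` small -/
theorem Std.N_ge (hV : V.Std) (H : Hyp σ X) {γ : ℝ} (hγ : 0 < γ) : ∃ δ₀ > 0,
    ∀ δ ∈ Ioo (0 : ℝ) δ₀, ∀ u ζ, V.Ext δ u ζ → (1 - γ) * sph n ≤ V.N δ u := by
  have ha := hV.aa_pos
  have hs := sph_pos n
  rcases le_or_gt 1 γ with hγ1 | hγ1
  · exact ⟨1, one_pos, fun δ _ u ζ h => le_trans (by nlinarith) h.pos.le⟩
  -- the target quantity as a function of `(γ', L/S, δ)`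
  have c0 : ContinuousAt (fun g : ℝ => (1 - g) ^ aa n) 0 :=
    (continuousAt_const.sub continuousAt_id).rpow_const (Or.inr ha.le)
  obtain ⟨g, hg0, hg1, hg⟩ : ∃ g : ℝ, 0 < g ∧ g < 1 ∧ 1 - γ < (1 - g) ^ aa n := by
    have e1 : ∀ᶠ g in 𝓝 (0 : ℝ), 1 - γ < (1 - g) ^ aa n :=
      c0.eventually (lt_mem_nhds (by simp [hγ]))
    have e2 : ∀ᶠ g in 𝓝 (0 : ℝ), g < 1 := gt_mem_nhds one_pos
    obtain ⟨g, hg⟩ := (((e1.and e2).filter_mono (nhdsWithin_le_nhds (s := Ioi 0))).and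
      (self_mem_nhdsWithin (s := Ioi (0 : ℝ)))).exists
    exact ⟨g, hg.2, hg.1.2, hg.1.1⟩
  obtain ⟨L, hL, δ₁, hδ₁, hb⟩ := hV.exists_bary H hg0
  have c1 : ContinuousAt (fun y : ℝ => ((1 - g) * (1 + L * y) ^ (-(n + 1 : ℝ))) ^ aa n) 0 :=
    (continuousAt_const.mul ((continuousAt_const.add (continuousAt_const.mul
      continuousAt_id)).rpow_const (Or.inl (by simp)))).rpow_const (Or.inr ha.le)
  obtain ⟨y, hy0, hy⟩ : ∃ y : ℝ, 0 < y ∧ 1 - γ < ((1 - g) * (1 + L * y) ^ (-(n + 1 : ℝ))) ^ aa n := by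
    have e1 := c1.eventually (lt_mem_nhds (a := 1 - γ) (by simpa using hg))
    obtain ⟨y, hy⟩ := ((e1.filter_mono (nhdsWithin_le_nhds (s := Ioi 0))).and
      (self_mem_nhdsWithin (s := Ioi (0 : ℝ)))).exists
    exact ⟨y, hy.2, hy.1⟩
  set k : ℝ := (1 - g) * (1 + L * y) ^ (-(n + 1 : ℝ)) with hk
  have hk0 : 0 < k := mul_pos (by linarith) (Real.rpow_pos_of_pos (by positivity) _)
  have c2 : ContinuousAt (fun δ : ℝ => (2 * k * (1 - δ / 2) * y⁻¹ ^ (-δ / 2)) ^ (aa n / (1 - δ / 2))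
      / 2 ^ aa n) 0 := by
    refine ContinuousAt.div_const (ContinuousAt.rpow ?_ ?_ (Or.inl ?_)) _
    · exact (by fun_prop : ContinuousAt (fun δ : ℝ => 2 * k * (1 - δ / 2)) 0).mul
        (ContinuousAt.rpow continuousAt_const (by fun_prop) (Or.inl (inv_pos.2 hy0).ne'))
    · exact continuousAt_const.div (by fun_prop) (by simp)
    · simp [hk0.ne']
  have e3 := c2.eventually (lt_mem_nhds (a := 1 - γ) (by
    simp only [zero_div, sub_zero, neg_zero, Real.rpow_zero, mul_one, div_one]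
    rwa [Real.mul_rpow zero_le_two hk0.le, mul_div_cancel_left₀ _ (by positivity)]))
  obtain ⟨δ₂, hδ₂, h2⟩ := Metric.eventually_nhds_iff.1 e3
  refine ⟨min 1 (min δ₁ δ₂), by positivity, fun δ hδ u ζ h => ?_⟩
  have d1 : δ < 1 := hδ.2.trans_le (min_le_left _ _)
  have d2 : δ < δ₁ := hδ.2.trans_le ((min_le_right _ _).trans (min_le_left _ _))
  have d3 : δ < δ₂ := hδ.2.trans_le ((min_le_right _ _).trans (min_le_right _ _))
  obtain ⟨o, ⟨ho, K', mK, hK, hE⟩, hp⟩ := ((hb δ ⟨hδ.1, d2⟩ u ζ h).and_eventually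
    (h.path hV ⟨hδ.1.le, d1.le⟩)).exists
  have hp' := hp ho K' L mK hK y⁻¹ (inv_pos.2 hy0)
  have h3 := h2 (y := δ) (by rw [Real.dist_eq, sub_zero, abs_of_pos hδ.1]; exact d3)
  have hβ : 0 < 1 - δ / 2 := by linarith
  have hN := h.pos
  have hq : qq n δ / 2 - 1 = (1 - δ / 2) / aa n := by
    have : (n : ℝ) = 2 * aa n + 2 := by unfold aa; ring
    rw [qq, this]
    field_simp
    ring
  have h4 : 2 * k * (1 - δ / 2) * y⁻¹ ^ (-δ / 2)
      ≤ (2 ^ aa n * V.N δ u / sph n) ^ ((1 - δ / 2) / aa n) := by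
    rw [← hq]
    refine le_trans ?_ hp'
    rw [div_inv_eq_mul, hk]
    have : 0 < y⁻¹ ^ (-δ / 2) := Real.rpow_pos_of_pos (inv_pos.2 hy0) _
    have : 0 < (1 + L * y) ^ (-(n + 1 : ℝ)) := Real.rpow_pos_of_pos (by positivity) _
    calc _ = 2 * (1 - g) * (1 - δ / 2) * y⁻¹ ^ (-δ / 2) * (1 + L * y) ^ (-(n + 1 : ℝ)) := by ring
      _ ≤ _ := by gcongr
  have h5 := Real.rpow_le_rpow (by positivity) h4 (le_of_lt (div_pos ha hβ))
  rw [← Real.rpow_mul (by positivity), div_mul_div_cancel₀ ha.ne', div_self hβ.ne',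
    Real.rpow_one] at h5
  have h6 : 1 - γ ≤ V.N δ u / sph n := by
    refine h3.le.trans ?_
    rw [div_le_iff₀ (by positivity)]
    refine h5.trans (le_of_eq ?_)
    ring
  rwa [le_div_iff₀ hs] at h6

/-- `exists_ext`, `Ext.min`, `N_ge`, `δ → 0` (dominated convergence for `∫ v^q`), `γ → 0` -/
theorem Std.sharp (hV : V.Std) (H : Hyp σ X) {v : Ω → ℝ} {ζ : Ω → Euc n} (h : V.InH v ζ)
    (hb : V.Bdd v) (h0 : ∀ o, 0 ≤ v o) :
    cz n * sph n ^ (1 - 2 / qq n 0) * V.N 0 v ^ (2 / qq n 0) ≤ V.B v ζ v ζ := by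
  have ha := hV.aa_pos
  have hs := sph_pos n
  have hc := hV.cz_pos
  have hq0 := hV.qq_gt (δ := 0) two_pos
  obtain ⟨C, hC⟩ := hb
  have cq : Continuous (qq n) := by unfold qq; fun_prop
  have tq : Tendsto (qq n) (𝓝[>] 0) (𝓝 (qq n 0)) := (cq.tendsto 0).mono_left nhdsWithin_le_nhds
  have ev : ∀ᶠ δ in 𝓝[>] (0 : ℝ), δ ∈ Ioo (0 : ℝ) 1 := Ioo_mem_nhdsGT one_pos
  have tN : Tendsto (fun δ => V.N δ v) (𝓝[>] 0) (𝓝 (V.N 0 v)) := by
    refine tendsto_integral_filter_of_dominated_convergence (fun _ => max C 1 ^ qq n 0)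
      (Eventually.of_forall fun δ => (h.1.1.aemeasurable.pow_const _).aestronglyMeasurable)
      (ev.mono fun δ hδ => hC.mono fun o ho => ?_) (integrable_const _) (ae_of_all _ fun o => ?_)
    · have q1 := hV.qq_gt (δ := δ) (by linarith [hδ.2])
      rw [Real.norm_of_nonneg (h0 o)] at ho
      rw [Real.norm_of_nonneg (Real.rpow_nonneg (h0 o) _)]
      refine (Real.rpow_le_rpow (h0 o) (ho.trans (le_max_left C 1)) (by linarith)).trans
        (Real.rpow_le_rpow_of_exponent_le (le_max_right _ _) ?_)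
      unfold qq
      gcongr
      exact hδ.1.le
    · exact tendsto_const_nhds.rpow tq (Or.inr (by linarith))
  have key : ∀ γ ∈ Ioo (0 : ℝ) 1, cz n * ((1 - γ) * sph n) ^ (1 - 2 / qq n 0)
      * V.N 0 v ^ (2 / qq n 0) ≤ V.B v ζ v ζ := fun γ hγ => by
    obtain ⟨δ₀, hδ₀, hN⟩ := hV.N_ge H hγ.1
    have hp : 0 < (1 - γ) * sph n := mul_pos (by linarith [hγ.2]) hs
    have t2 : Tendsto (fun δ => 2 / qq n δ) (𝓝[>] 0) (𝓝 (2 / qq n 0)) :=
      tendsto_const_nhds.div tq (by linarith)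
    refine le_of_tendsto (((tendsto_const_nhds.rpow (t2.const_sub 1) (Or.inl hp.ne')).const_mul
      (cz n)).mul (tN.rpow t2 (Or.inr (by positivity)))) ?_
    filter_upwards [ev, Ioo_mem_nhdsGT hδ₀] with δ h1 h2
    obtain ⟨u, Z, hu⟩ := hV.exists_ext ⟨h1.1, h1.2.le⟩
    refine le_trans ?_ (hu.min v ζ h ⟨C, hC⟩ h0)
    have q1 := hV.qq_gt (δ := δ) (by linarith [h1.2])
    have : 0 ≤ V.N δ v ^ (2 / qq n δ) :=
      Real.rpow_nonneg (integral_nonneg fun o => Real.rpow_nonneg (h0 o) _) _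
    have : 0 ≤ 1 - 2 / qq n δ := by
      rw [sub_nonneg, div_le_one (by linarith)]
      exact q1.le
    gcongr
    exact hN δ h2 u Z hu
  have t3 : Tendsto (fun γ : ℝ => cz n * ((1 - γ) * sph n) ^ (1 - 2 / qq n 0)
      * V.N 0 v ^ (2 / qq n 0)) (𝓝[>] 0)
      (𝓝 (cz n * ((1 - 0) * sph n) ^ (1 - 2 / qq n 0) * V.N 0 v ^ (2 / qq n 0))) := by
    refine Tendsto.mono_left (ContinuousAt.tendsto ?_) nhdsWithin_le_nhds
    exact (continuousAt_const.mul (ContinuousAt.rpow_const (by fun_prop)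
      (Or.inl (by simp [hs.ne'])))).mul continuousAt_const
  rw [sub_zero, one_mul] at t3
  exact le_of_tendsto t3 (ev.mono key)

/-- `sharp` with `v = 1` (`1 - 2/q = 2/n`); equality case: the constant `u = h^a` is `Ext 0` with
`N = sph n`, `w = h`; `path` with `K' = t = h² κ`, `S → ∞` gives `h² ∫ κ ≤ M` a.e. -/
theorem Std.coreConcl (hV : V.Std) (H : Hyp σ X) : CoreConcl V := by
  have ha := hV.aa_pos
  have hs := sph_pos n
  have hc := hV.cz_pos
  have hh := hV.hsq_pos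
  have hM := hV.hM
  have hn : (3 : ℝ) ≤ n := by exact_mod_cast hV.hn
  have hn2 : (n : ℝ) = 2 * aa n + 2 := by unfold aa; ring
  have hq : qq n 0 = n / aa n := by simp [qq]
  have e1 : 1 - 2 / qq n 0 = 2 / n := by
    rw [hq]
    field_simp
    linarith
  have hMe : V.ν.real univ = V.M := rfl
  set h : ℝ := √(hsq σ Λ n) with hdef
  have h0 : 0 < h := Real.sqrt_pos.2 hh
  have h2 : h ^ 2 = hsq σ Λ n := Real.sq_sqrt hh.le
  have first : sph n ≤ V.M * h ^ n := by
    have := hV.sharp H (inH_const 1) ⟨1, ae_of_all _ fun o => by simp⟩ fun _ => zero_le_one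
    simp only [B, N, Real.one_rpow, integral_const, smul_eq_mul, mul_one, inner_zero_left,
      zero_add, hMe] at this
    have e2 : V.M = V.M ^ (2 / (n : ℝ)) * V.M ^ (2 / qq n 0) := by
      rw [← Real.rpow_add hM, ← e1, sub_add_cancel, Real.rpow_one]
    have p1 : 0 < V.M ^ (2 / qq n 0) := Real.rpow_pos_of_pos hM _
    have a1 : sph n ^ (2 / (n : ℝ)) ≤ V.M ^ (2 / (n : ℝ)) * h ^ 2 := by
      rw [e1, ← h2] at this
      nth_rewrite 2 [e2] at this
      have := le_of_mul_le_mul_right (a := cz n * V.M ^ (2 / qq n 0))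
        (b := sph n ^ (2 / (n : ℝ))) (c := V.M ^ (2 / (n : ℝ)) * h ^ 2) (by linarith) (by positivity)
      exact this
    have a2 := Real.rpow_le_rpow (by positivity) a1 (by positivity : (0 : ℝ) ≤ n / 2)
    rw [Real.mul_rpow (by positivity) (by positivity), ← Real.rpow_mul hs.le,
      ← Real.rpow_mul hM.le, ← Real.rpow_natCast h 2, ← Real.rpow_mul h0.le,
      show 2 / (n : ℝ) * (n / 2) = 1 by field_simp, show ((2 : ℕ) : ℝ) * (n / 2) = n by
        push_cast; ring, Real.rpow_one, Real.rpow_one, Real.rpow_natCast] at a2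
    exact a2
  refine ⟨first, fun hσ hle => ?_⟩
  subst hσ
  have hΛ : h = Λ / n := by
    rw [hdef, hsq, sub_zero, Real.sqrt_sq (by have := hV.hΛ; positivity)]
  have heq : V.M * h ^ n = sph n := le_antisymm (by rwa [hΛ]) first
  have pw : (h ^ aa n) ^ qq n 0 = h ^ n := by
    rw [← Real.rpow_mul h0.le, hV.aa_mul_qq, sub_zero, Real.rpow_natCast]
  have hN : V.N 0 (fun _ => h ^ aa n) = sph n := by
    simp only [N, integral_const, smul_eq_mul, hMe, pw, heq]
  have hw : ∀ o, V.ww (fun _ => h ^ aa n) o = h := fun o => by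
    rw [ww, ← Real.rpow_mul h0.le, mul_one_div_cancel ha.ne', Real.rpow_one]
  have hE : V.Ext 0 (fun _ => h ^ aa n) fun _ => 0 :=
    { inH := inH_const _
      meas := measurable_const
      nonneg := fun _ => by positivity
      bdd := ⟨_, fun _ => le_rfl⟩
      pos := hN ▸ hs
      el := fun v ζ' _ _ => by
        simp only [B, inner_zero_left, zero_add, integral_const_mul, ← h2]
        have : (h ^ aa n) ^ (qq n 0 - 1) = h ^ 2 * h ^ aa n := by
          rw [← Real.rpow_mul h0.le, mul_sub, hV.aa_mul_qq, ← Real.rpow_natCast h 2,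
            ← Real.rpow_add h0]
          congr 1
          push_cast
          linarith
        rw [this]
        ring
      min := fun v ζ' hv hb h0 => hN ▸ hV.sharp H hv hb h0 }
  obtain ⟨D, hD1, hD⟩ := V.exists_K_le
  have bound : ∀ᵐ o ∂V.ν, ∫ o', kap 0 (V.p o) (V.p o') ∂V.ν ≤ V.M * (n / Λ) ^ 2 := by
    filter_upwards [hE.path hV ⟨le_rfl, zero_le_one⟩] with o ho
    have a1 := ho (by positivity) (fun o' => h ^ 2 * V.K (V.p o) o') (h ^ 2 * D)
      ((measurable_K _).const_mul _) fun o' => ⟨mul_nonneg (by positivity) (K_nonneg le_rfl _ _),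
        mul_le_mul_of_nonneg_left (hD _ _) (by positivity), le_of_eq (by rw [tt, hw, hw]; ring)⟩
    simp only [hN, pw, integral_const_mul, zero_div, sub_zero, neg_zero, Real.rpow_zero,
      mul_one] at a1
    have e3 : (2 ^ aa n * sph n / sph n) ^ (qq n 0 / 2 - 1) = 2 := by
      rw [mul_div_cancel_right₀ _ hs.ne', ← Real.rpow_mul zero_le_two,
        show aa n * (qq n 0 / 2 - 1) = 1 by rw [hq]; field_simp; linarith, Real.rpow_one]
    rw [e3] at a1
    have t1 : Tendsto (fun S : ℝ => 2 * ((sph n)⁻¹ * (h ^ n * (h ^ 2 * ∫ o', V.K (V.p o) o' ∂V.ν)))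
        * (1 + h ^ 2 * D / S) ^ (-(n + 1 : ℝ))) atTop
        (𝓝 (2 * ((sph n)⁻¹ * (h ^ n * (h ^ 2 * ∫ o', V.K (V.p o) o' ∂V.ν)))
          * (1 + 0) ^ (-(n + 1 : ℝ)))) :=
      (((tendsto_const_nhds.div_atTop tendsto_id).const_add 1).rpow_const
        (Or.inl (by simp))).const_mul _
    have a2 := le_of_tendsto t1 ((eventually_gt_atTop 0).mono a1)
    rw [add_zero, Real.one_rpow, mul_one, ← heq] at a2
    have a3 : h ^ 2 * ∫ o', V.K (V.p o) o' ∂V.ν ≤ V.M := by
      have : (V.M * h ^ n)⁻¹ * (h ^ n * (h ^ 2 * ∫ o', V.K (V.p o) o' ∂V.ν))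
          = (h ^ 2 * ∫ o', V.K (V.p o) o' ∂V.ν) / V.M := by field_simp
      rw [this] at a2
      rw [← div_le_one hM]
      linarith
    rw [show ((n : ℝ) / Λ) ^ 2 = (h ^ 2)⁻¹ by rw [hΛ, ← inv_pow, inv_div], ← div_eq_mul_inv,
      le_div_iff₀' (by positivity)]
    exact a3
  refine (integral_mono_of_nonneg (ae_of_all _ fun o => integral_nonneg fun o' =>
    kap_nonneg le_rfl _ _) (integrable_const _) bound).trans (le_of_eq ?_)
  rw [integral_const, smul_eq_mul, hMe]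
  ring


end VS

end Crest.Agent.R241
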