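import Crest.Agent.R241.G.Defs

/-!
# The class `H`: generators, linear structure, closure.  Helper prefix `gh1_`.
-/

open MeasureTheory Set Filter Topology
open Crest.GeometryTopology.MetricCurrent
open Crest.GeometryTopology.Submanifold (Euc unitBallVol unitSphereArea)
open scoped ENNReal NNReal InnerProductSpace

noncomputable section

namespace Crest.Agent.R241

universe u

set_option linter.unusedSectionVars false

variable {X : Type u} [MetricSpace X] [CompactSpace X] [MeasurableSpace X] [BorelSpace X]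
  {Ω : Type u} [MeasurableSpace Ω] {σ Λ : ℝ} {n : ℕ} {V : VS σ Λ n X Ω}

namespace VS


theorem Std.aa_pos (h : V.Std) : 0 < aa n := by
  have : (3 : ℝ) ≤ n := by exact_mod_cast h.hn
  unfold aa; linarith
theorem Std.cz_pos (h : V.Std) : 0 < cz n := by
  have : (3 : ℝ) ≤ n := by exact_mod_cast h.hn
  unfold cz; nlinarith
theorem Std.hsq_pos (h : V.Std) : 0 < hsq σ Λ n :=
  sub_pos.2 (V.lt_sq h.hσ h.hΛ (by have := h.hn; omega) h.hM)
theorem cz_eq (n : ℕ) : cz n = n / 2 * aa n := by unfold cz aa; ring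
theorem Cn_pos (n : ℕ) : 0 < Cn n := mul_pos (by positivity) (om_pos n)
theorem Std.qq_gt (h : V.Std) {δ : ℝ} (hδ : δ < 2) : 2 < qq n δ := by
  rw [qq, lt_div_iff₀ h.aa_pos]; unfold aa; linarith
theorem Std.aa_mul_qq (h : V.Std) (δ : ℝ) : aa n * qq n δ = n - δ := by
  rw [qq]; field_simp [h.aa_pos.ne']

theorem measurable_K (x : X) : Measurable (V.K x) := V.measurable_kap x
theorem measurable_K₂ : Measurable fun q : Ω × Ω => V.K (V.p q.1) q.2 := by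
  exact (continuous_md σ).measurable.comp ((V.meas_p.comp measurable_fst).dist (V.meas_p.comp measurable_snd))
theorem measurable_K_uncurry : Measurable fun q : X × Ω => V.K q.1 q.2 := by
  exact (continuous_md σ).measurable.comp (measurable_fst.dist (V.meas_p.comp measurable_snd))
theorem K_symm (o o' : Ω) : V.K (V.p o) o' = V.K (V.p o') o := kap_comm _ _ _
theorem K_nonneg (hσ : 0 ≤ σ) (x : X) (o : Ω) : 0 ≤ V.K x o := kap_nonneg hσ _ _
theorem gh1a_bd {φ : ℝ → ℝ} (hφ : Continuous φ) : ∃ D : ℝ, 1 ≤ D ∧ ∀ x y : X, φ (dist x y) ≤ D := by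
  obtain ⟨D, hD⟩ := isCompact_univ.exists_bound_of_continuousOn
    (f := fun q : X × X => φ (dist q.1 q.2)) (hφ.comp continuous_dist).continuousOn
  exact ⟨max 1 D, le_max_left _ _, fun x y => ((le_abs_self _).trans (hD (x, y) trivial)).trans (le_max_right _ _)⟩

theorem exists_K_le (V : VS σ Λ n X Ω) : ∃ D : ℝ, 1 ≤ D ∧ ∀ x o, V.K x o ≤ D := by
  obtain ⟨D, h1, hD⟩ := gh1a_bd (X := X) (continuous_md σ)
  exact ⟨D, h1, fun x o => hD x _⟩
theorem exists_ξ_le (V : VS σ Λ n X Ω) : ∃ D : ℝ, 0 ≤ D ∧ ∀ x o, ‖V.ξ o x‖ ≤ D := by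
  obtain ⟨D, h1, hD⟩ := gh1a_bd (X := X) (continuous_sn σ)
  exact ⟨D, by linarith, fun x o => (V.bound o x).trans (hD x _)⟩
theorem measurable_kk (β : ℝ) : Measurable (Function.uncurry (V.kk β)) := by
  exact ENNReal.measurable_ofReal.comp (measurable_K₂.pow_const _)
theorem kk_symm (β : ℝ) (o o' : Ω) : V.kk β o o' = V.kk β o' o := by rw [kk, kk, K_symm]

theorem gh1a_cont {m : ℕ} (xs : Fin m → X) : Continuous fun (y : X) (i : Fin m) => kap σ (xs i) y :=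
  continuous_pi fun _ => (continuous_md σ).comp (continuous_const.dist continuous_id)

theorem gh1a_contD {m : ℕ} (xs : Fin m → X) {Φ : (Fin m → ℝ) → ℝ} (hΦ : ContDiff ℝ 1 Φ) (i : Fin m) :
    Continuous fun y : X => fderiv ℝ Φ (fun i => kap σ (xs i) y) (Pi.single i 1) :=
  ((hΦ.continuous_fderiv one_ne_zero).comp (gh1a_cont xs)).clm_apply continuous_const

theorem IsG.measurable {f : Ω → ℝ} {ζ : Ω → Euc n} (h : V.IsG f ζ) :
    Measurable f ∧ Measurable ζ := by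
  obtain ⟨m, xs, Φ, hΦ, h1, h2⟩ := h
  rw [funext h1, funext h2]
  exact ⟨(hΦ.continuous.comp (gh1a_cont xs)).measurable.comp V.meas_p, Finset.measurable_fun_sum _ fun i _ =>
    ((gh1a_contD xs hΦ i).measurable.comp V.meas_p).smul (V.meas_ξ _)⟩
theorem IsG.bound {f : Ω → ℝ} {ζ : Ω → Euc n} (h : V.IsG f ζ) :
    ∃ C, ∀ o, |f o| ≤ C ∧ ‖ζ o‖ ≤ C := by
  obtain ⟨m, xs, Φ, hΦ, h1, h2⟩ := h
  obtain ⟨D, hD0, hD⟩ := V.exists_ξ_le
  obtain ⟨C, hC⟩ := isCompact_univ.exists_bound_of_continuousOn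
    (hΦ.continuous.comp (gh1a_cont (σ := σ) xs)).continuousOn
  choose E hE using fun i => isCompact_univ.exists_bound_of_continuousOn (gh1a_contD (σ := σ) xs hΦ i).continuousOn
  refine ⟨max C (∑ i, E i * D), fun o => ⟨le_max_of_le_left ?_, le_max_of_le_right ?_⟩⟩
  · rw [h1]
    exact hC _ trivial
  · rw [h2]
    refine norm_sum_le_of_le _ fun i _ => ?_
    rw [norm_smul]
    exact mul_le_mul (hE i _ trivial) (hD _ _) (norm_nonneg _) ((norm_nonneg _).trans (hE i (V.p o) trivial))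
/-- `f` factors continuously through `p` -/
theorem IsG.exists_continuous {f : Ω → ℝ} {ζ : Ω → Euc n} (h : V.IsG f ζ) :
    ∃ F : X → ℝ, Continuous F ∧ ∀ o, f o = F (V.p o) := by
  obtain ⟨m, xs, Φ, hΦ, h1, -⟩ := h
  exact ⟨gfun σ xs Φ, hΦ.continuous.comp (gh1a_cont xs), h1⟩
theorem IsG.inH {f : Ω → ℝ} {ζ : Ω → Euc n} (h : V.IsG f ζ) : V.InH f ζ := by
  obtain ⟨C, hC⟩ := h.bound
  exact ⟨MemLp.of_bound h.measurable.1.aestronglyMeasurable C (Eventually.of_forall fun o => (hC o).1),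
    MemLp.of_bound h.measurable.2.aestronglyMeasurable C (Eventually.of_forall fun o => (hC o).2),
    fun η hη => ⟨f, ζ, h, by simpa using hη.le⟩⟩
theorem isG_const (c : ℝ) : V.IsG (fun _ => c) fun _ => 0 := by
  exact ⟨0, Fin.elim0, fun _ => c, contDiff_const, fun _ => rfl, fun _ => by simp [gvec]⟩
theorem isG_K (x : X) : V.IsG (V.K x) fun o => V.ξ o x := by
  refine ⟨1, fun _ => x, ContinuousLinearMap.proj (R := ℝ) (φ := fun _ : Fin 1 => ℝ) 0,
    ContinuousLinearMap.contDiff _, fun _ => rfl, fun o => ?_⟩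
  simp only [gvec, ContinuousLinearMap.fderiv]
  simp
/-- chain rule for generators (`Fin.append` the poles) -/
theorem IsG.comp₂ {f g : Ω → ℝ} {ζ ζ' : Ω → Euc n} (h : V.IsG f ζ) (h' : V.IsG g ζ')
    {Ψ : ℝ × ℝ → ℝ} (hΨ : ContDiff ℝ 1 Ψ) :
    V.IsG (fun o => Ψ (f o, g o)) fun o =>
      fderiv ℝ Ψ (f o, g o) (1, 0) • ζ o + fderiv ℝ Ψ (f o, g o) (0, 1) • ζ' o := by
  obtain ⟨m, xs, Φ, hΦ, h1, h2⟩ := h
  obtain ⟨m', ys, Φ', hΦ', h1', h2'⟩ := h'
  let L : (Fin (m + m') → ℝ) →L[ℝ] Fin m → ℝ := .pi fun i => .proj (Fin.castAdd m' i)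
  let L' : (Fin (m + m') → ℝ) →L[ℝ] Fin m' → ℝ := .pi fun i => .proj (Fin.natAdd m i)
  have e : ∀ y, L (fun i => kap σ (Fin.append xs ys i) y) = fun i => kap σ (xs i) y := fun y => by
    funext i; simp [L]
  have e' : ∀ y, L' (fun i => kap σ (Fin.append xs ys i) y) = fun i => kap σ (ys i) y := fun y => by
    funext i; simp [L']
  have ne : ∀ (i : Fin m) (j : Fin m'), Fin.castAdd m' i ≠ Fin.natAdd m j := fun i j h => by
    have := congrArg Fin.val h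
    simp only [Fin.val_castAdd, Fin.val_natAdd] at this
    omega
  have a1 : ∀ i, L (Pi.single (Fin.castAdd m' i) 1) = Pi.single i 1 := fun i => by
    funext j; simp [L, Pi.single_apply]
  have a2 : ∀ i, L' (Pi.single (Fin.castAdd m' i) 1) = 0 := fun i => by
    funext j; simp [L', (ne i j).symm]
  have a3 : ∀ i, L (Pi.single (Fin.natAdd m i) 1) = 0 := fun i => by
    funext j; simp [L, ne j i]
  have a4 : ∀ i, L' (Pi.single (Fin.natAdd m i) 1) = Pi.single i 1 := fun i => by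
    funext j; simp [L', Pi.single_apply]
  refine ⟨m + m', Fin.append xs ys, fun v => Ψ (Φ (L v), Φ' (L' v)),
    hΨ.comp ((hΦ.comp L.contDiff).prodMk (hΦ'.comp L'.contDiff)), fun o => ?_, fun o => ?_⟩
  · simp only [gfun, e, e', h1, h1']
  · have hd : ∀ v, HasFDerivAt (fun v => Ψ (Φ (L v), Φ' (L' v))) ((fderiv ℝ Ψ (Φ (L v), Φ' (L' v))).comp
        (((fderiv ℝ Φ (L v)).comp L).prod ((fderiv ℝ Φ' (L' v)).comp L'))) v := fun v =>
      (hΨ.differentiable one_ne_zero _).hasFDerivAt.comp v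
        (((hΦ.differentiable one_ne_zero _).hasFDerivAt.comp v L.hasFDerivAt).prodMk
          ((hΦ'.differentiable one_ne_zero _).hasFDerivAt.comp v L'.hasFDerivAt))
    have b1 : ∀ (D : ℝ × ℝ →L[ℝ] ℝ) (a : ℝ), D (a, 0) = D (1, 0) * a := fun D a => by
      rw [mul_comm, ← smul_eq_mul, ← map_smul]; simp
    have b2 : ∀ (D : ℝ × ℝ →L[ℝ] ℝ) (a : ℝ), D (0, a) = D (0, 1) * a := fun D a => by
      rw [mul_comm, ← smul_eq_mul, ← map_smul]; simp
    simp only [h1, h1', h2, h2', gvec, gfun, (hd _).fderiv, Fin.sum_univ_add, ContinuousLinearMap.comp_apply,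
      ContinuousLinearMap.prod_apply, e, e', a1, a2, a3, a4, map_zero, Fin.append_left, Fin.append_right,
      Finset.smul_sum, smul_smul]
    congr 1
    · exact Finset.sum_congr rfl fun i _ => by rw [← b1]
    · exact Finset.sum_congr rfl fun i _ => by rw [← b2]
theorem gh1a_congr {f g : Ω → ℝ} {ζ ζ' : Ω → Euc n} (h : V.IsG f ζ) (h1 : ∀ o, g o = f o) (h2 : ∀ o, ζ' o = ζ o) :
    V.IsG g ζ' := by
  rwa [funext h1, funext h2]

theorem IsG.comp₁ {f : Ω → ℝ} {ζ : Ω → Euc n} (h : V.IsG f ζ) {φ : ℝ → ℝ} (hφ : ContDiff ℝ 1 φ) :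
    V.IsG (fun o => φ (f o)) fun o => deriv φ (f o) • ζ o := by
  refine gh1a_congr (h.comp₂ h (hφ.comp contDiff_fst)) (fun _ => rfl) fun o => ?_
  rw [((hφ.differentiable one_ne_zero (f o)).hasDerivAt.comp_hasFDerivAt (f o, f o) hasFDerivAt_fst).fderiv]
  simp
theorem IsG.add {f g : Ω → ℝ} {ζ ζ' : Ω → Euc n} (h : V.IsG f ζ) (h' : V.IsG g ζ') :
    V.IsG (fun o => f o + g o) fun o => ζ o + ζ' o := by
  refine gh1a_congr (h.comp₂ h' (contDiff_fst.add contDiff_snd)) (fun _ => rfl) fun o => ?_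
  rw [(hasFDerivAt_fst.fun_add hasFDerivAt_snd).fderiv]
  simp
theorem IsG.mul {f g : Ω → ℝ} {ζ ζ' : Ω → Euc n} (h : V.IsG f ζ) (h' : V.IsG g ζ') :
    V.IsG (fun o => f o * g o) fun o => f o • ζ' o + g o • ζ o := by
  refine gh1a_congr (h.comp₂ h' (contDiff_fst.mul contDiff_snd)) (fun _ => rfl) fun o => ?_
  rw [(hasFDerivAt_fst.fun_mul hasFDerivAt_snd).fderiv]
  simp [add_comm]

theorem inH_const (c : ℝ) : V.InH (fun _ => c) fun _ => 0 := (isG_const c).inH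
theorem inH_K (x : X) : V.InH (V.K x) fun o => V.ξ o x := (isG_K x).inH
theorem gh1_int {μ : Measure Ω} {a : Ω → ℝ} {w : Ω → Euc n} (ha : MemLp a 2 μ) (hw : MemLp w 2 μ) :
    Integrable (fun o => a o ^ 2 + ‖w o‖ ^ 2) μ := ha.integrable_sq.add hw.norm.integrable_sq
theorem gh1_tri {μ : Measure Ω} {a b : Ω → ℝ} {w w' : Ω → Euc n} (ha : MemLp a 2 μ) (hb : MemLp b 2 μ)
    (hw : MemLp w 2 μ) (hw' : MemLp w' 2 μ) : ∫ o, ((a o + b o) ^ 2 + ‖w o + w' o‖ ^ 2) ∂μ ≤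
      2 * ∫ o, (a o ^ 2 + ‖w o‖ ^ 2) ∂μ + 2 * ∫ o, (b o ^ 2 + ‖w' o‖ ^ 2) ∂μ := by
  rw [← integral_const_mul, ← integral_const_mul,
    ← integral_add ((gh1_int ha hw).const_mul 2) ((gh1_int hb hw').const_mul 2)]
  refine integral_mono (gh1_int (ha.add hb) (hw.add hw'))
    (((gh1_int ha hw).const_mul 2).add ((gh1_int hb hw').const_mul 2)) fun o => ?_
  have h1 := pow_le_pow_left₀ (norm_nonneg _) (norm_add_le (w o) (w' o)) 2
  show _ ≤ _
  nlinarith [sq_nonneg (a o - b o), sq_nonneg (‖w o‖ - ‖w' o‖)]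
theorem InH.congr {f g : Ω → ℝ} {ζ ζ' : Ω → Euc n} (h : V.InH f ζ) (h1 : f =ᵐ[V.ν] g)
    (h2 : ζ =ᵐ[V.ν] ζ') : V.InH g ζ' := by
  refine ⟨h.1.ae_eq h1, h.2.1.ae_eq h2, fun η hη => ?_⟩
  obtain ⟨a, w, ha, hle⟩ := h.2.2 η hη
  refine ⟨a, w, ha, Eq.trans_le (integral_congr_ae ?_) hle⟩
  filter_upwards [h1, h2] with o e1 e2
  rw [e1, e2]
theorem InH.add {f g : Ω → ℝ} {ζ ζ' : Ω → Euc n} (h : V.InH f ζ) (h' : V.InH g ζ') :
    V.InH (fun o => f o + g o) fun o => ζ o + ζ' o := by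
  refine ⟨h.1.add h'.1, h.2.1.add h'.2.1, fun η hη => ?_⟩
  obtain ⟨a, w, ha, hle⟩ := h.2.2 (η / 4) (by positivity)
  obtain ⟨b, w', hb, hle'⟩ := h'.2.2 (η / 4) (by positivity)
  refine ⟨_, _, ha.add hb, ?_⟩
  have h1 := gh1_tri (h.1.sub ha.inH.1) (h'.1.sub hb.inH.1) (h.2.1.sub ha.inH.2.1) (h'.2.1.sub hb.inH.2.1)
  simp only [Pi.sub_apply, sub_add_sub_comm] at h1
  linarith
theorem InH.smul {f : Ω → ℝ} {ζ : Ω → Euc n} (h : V.InH f ζ) (c : ℝ) :
    V.InH (fun o => c * f o) fun o => c • ζ o := by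
  refine ⟨h.1.const_mul c, h.2.1.const_smul c, fun η hη => ?_⟩
  obtain ⟨a, w, ha, hle⟩ := h.2.2 (η / (c ^ 2 + 1)) (by positivity)
  refine ⟨_, _, (isG_const c).mul ha, ?_⟩
  have e : ∀ o, (c * f o - c * a o) ^ 2 + ‖c • ζ o - (c • w o + a o • (0 : Euc n))‖ ^ 2 =
      c ^ 2 * ((f o - a o) ^ 2 + ‖ζ o - w o‖ ^ 2) := fun o => by
    rw [smul_zero, add_zero, ← smul_sub, norm_smul, mul_pow, Real.norm_eq_abs, sq_abs]
    ring
  simp only [e]
  rw [integral_const_mul]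
  refine (mul_le_mul_of_nonneg_left hle (sq_nonneg c)).trans ?_
  rw [← mul_div_assoc, div_le_iff₀ (by positivity)]
  linarith
theorem InH.sub {f g : Ω → ℝ} {ζ ζ' : Ω → Euc n} (h : V.InH f ζ) (h' : V.InH g ζ') :
    V.InH (fun o => f o - g o) fun o => ζ o - ζ' o := by
  simpa [sub_eq_add_neg] using h.add (h'.smul (-1))
theorem InH.of_approx {f : Ω → ℝ} {ζ : Ω → Euc n} (hf : MemLp f 2 V.ν) (hζ : MemLp ζ 2 V.ν)
    (h : ∀ η > 0, ∃ g ζ', V.InH g ζ' ∧ ∫ o, ((f o - g o) ^ 2 + ‖ζ o - ζ' o‖ ^ 2) ∂V.ν ≤ η) :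
    V.InH f ζ := by
  refine ⟨hf, hζ, fun η hη => ?_⟩
  obtain ⟨g, ζ', hg, hle⟩ := h (η / 4) (by positivity)
  obtain ⟨a, w, ha, hle'⟩ := hg.2.2 (η / 4) (by positivity)
  refine ⟨a, w, ha, ?_⟩
  have h1 := gh1_tri (hf.sub hg.1) (hg.1.sub ha.inH.1) (hζ.sub hg.2.1) (hg.2.1.sub ha.inH.2.1)
  simp only [Pi.sub_apply, sub_add_sub_cancel] at h1
  linarith
theorem InH.of_dominated {f : ℕ → Ω → ℝ} {ζ : ℕ → Ω → Euc n} (h : ∀ j, V.InH (f j) (ζ j))
    {F : Ω → ℝ} {Z : Ω → Euc n} {b : Ω → ℝ} (hb : MemLp b 2 V.ν)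
    (hle : ∀ j, ∀ᵐ o ∂V.ν, |f j o| ≤ b o ∧ ‖ζ j o‖ ≤ b o)
    (hF : ∀ᵐ o ∂V.ν, Tendsto (fun j => f j o) atTop (𝓝 (F o)))
    (hZ : ∀ᵐ o ∂V.ν, Tendsto (fun j => ζ j o) atTop (𝓝 (Z o))) : V.InH F Z := by
  have hle' := ae_all_iff.2 hle
  have b1 : ∀ᵐ o ∂V.ν, |F o| ≤ b o ∧ ‖Z o‖ ≤ b o := by
    filter_upwards [hle', hF, hZ] with o h1 h2 h3
    exact ⟨le_of_tendsto' h2.abs fun j => (h1 j).1, le_of_tendsto' h3.norm fun j => (h1 j).2⟩
  have mF : MemLp F 2 V.ν := hb.of_le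
    (aestronglyMeasurable_of_tendsto_ae atTop (fun j => (h j).1.1) hF)
    (b1.mono fun o ho => ho.1.trans (le_abs_self _))
  have mZ : MemLp Z 2 V.ν := hb.of_le
    (aestronglyMeasurable_of_tendsto_ae atTop (fun j => (h j).2.1.1) hZ)
    (b1.mono fun o ho => ho.2.trans (le_abs_self _))
  have ht := tendsto_integral_of_dominated_convergence (μ := V.ν)
    (F := fun j o => (F o - f j o) ^ 2 + ‖Z o - ζ j o‖ ^ 2) (f := fun _ => (0 : ℝ)) (fun o => 8 * b o ^ 2)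
    (fun j => (gh1_int (mF.sub (h j).1) (mZ.sub (h j).2.1)).1) (hb.integrable_sq.const_mul 8)
    (fun j => by
      filter_upwards [hle j, b1] with o h1 h2
      have a1 := pow_le_pow_left₀ (abs_nonneg _) ((abs_sub (F o) (f j o)).trans (add_le_add h2.1 h1.1)) 2
      have a2 := pow_le_pow_left₀ (norm_nonneg _) ((norm_sub_le (Z o) (ζ j o)).trans (add_le_add h2.2 h1.2)) 2
      rw [sq_abs] at a1
      rw [Real.norm_of_nonneg (by positivity)]
      linarith)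
    (by
      filter_upwards [hF, hZ] with o h2 h3
      simpa using ((h2.const_sub (F o)).pow 2).add ((h3.const_sub (Z o)).norm.pow 2))
  refine InH.of_approx mF mZ fun η hη => ?_
  rw [integral_zero] at ht
  obtain ⟨j, hj⟩ := (ht.eventually (ge_mem_nhds hη)).exists
  exact ⟨_, _, h j, hj⟩
/-- approximating generators converging in `L²` and a.e., with an `L²` majorant (take errors
`≤ 4⁻ʲ`; `b = |f| + ‖ζ‖ + ∑ (|f - g j| + ‖ζ - ζ' j‖)`, or `b² = 2 (f² + ‖ζ‖²) + 2 ∑ errors²`) -/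
theorem InH.exists_seq {f : Ω → ℝ} {ζ : Ω → Euc n} (h : V.InH f ζ) :
    ∃ (g : ℕ → Ω → ℝ) (ζ' : ℕ → Ω → Euc n) (b : Ω → ℝ), (∀ j, V.IsG (g j) (ζ' j)) ∧
      MemLp b 2 V.ν ∧ (∀ j, ∀ᵐ o ∂V.ν, |g j o| ≤ b o ∧ ‖ζ' j o‖ ≤ b o) ∧
      (∀ᵐ o ∂V.ν, Tendsto (fun j => g j o) atTop (𝓝 (f o))) ∧
      (∀ᵐ o ∂V.ν, Tendsto (fun j => ζ' j o) atTop (𝓝 (ζ o))) := by
  choose g ζ' hg hle using fun j : ℕ => h.2.2 ((1 / 2) ^ j) (by positivity)
  obtain ⟨E, hE⟩ : ∃ E : ℕ → Ω → ℝ, E = fun j o => (f o - g j o) ^ 2 + ‖ζ o - ζ' j o‖ ^ 2 := ⟨_, rfl⟩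
  have E0 : ∀ j o, 0 ≤ E j o := fun j o => by rw [hE]; positivity
  have Ei : ∀ j, Integrable (E j) V.ν := fun j => by
    rw [hE]; exact gh1_int (h.1.sub (hg j).inH.1) (h.2.1.sub (hg j).inH.2.1)
  have Em : ∀ j, AEMeasurable (fun o => ENNReal.ofReal (E j o)) V.ν := fun j =>
    (Ei j).aemeasurable.ennreal_ofReal
  have Tm : AEMeasurable (fun o => ∑' j, ENNReal.ofReal (E j o)) V.ν := AEMeasurable.tsum Em
  have Tf : ∫⁻ o, ∑' j, ENNReal.ofReal (E j o) ∂V.ν ≠ ∞ := by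
    rw [lintegral_tsum Em]
    refine ne_top_of_le_ne_top summable_geometric_two.tsum_ofReal_ne_top (ENNReal.tsum_le_tsum fun j => ?_)
    rw [← ofReal_integral_eq_lintegral_ofReal (Ei j) (Eventually.of_forall (E0 j))]
    exact ENNReal.ofReal_le_ofReal (by rw [hE]; exact hle j)
  have Ti := integrable_toReal_of_lintegral_ne_top Tm Tf
  have Ta := ae_lt_top' Tm Tf
  have q1 : ∀ j o, |f o - g j o| ≤ √(E j o) := fun j o =>
    Real.abs_le_sqrt (by rw [hE]; exact le_add_of_nonneg_right (sq_nonneg _))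
  have q2 : ∀ j o, ‖ζ o - ζ' j o‖ ≤ √(E j o) := fun j o =>
    Real.le_sqrt_of_sq_le (by rw [hE]; exact le_add_of_nonneg_left (sq_nonneg _))
  have t0 : ∀ᵐ o ∂V.ν, Tendsto (fun j => √(E j o)) atTop (𝓝 0) := by
    filter_upwards [Ta] with o ho
    have h1 := (ENNReal.tendsto_toReal ENNReal.zero_ne_top).comp
      (ENNReal.tendsto_atTop_zero_of_tsum_ne_top ho.ne)
    have h2 : Tendsto (fun j => E j o) atTop (𝓝 0) := by
      simpa [Function.comp_def, ENNReal.toReal_ofReal (E0 _ o)] using h1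
    simpa using h2.sqrt
  refine ⟨g, ζ', fun o => |f o| + ‖ζ o‖ + √(∑' j, ENNReal.ofReal (E j o)).toReal, hg,
    (h.1.abs.add h.2.1.norm).add ?_, fun j => ?_, ?_, ?_⟩
  · refine (memLp_two_iff_integrable_sq (Real.continuous_sqrt.comp_aestronglyMeasurable Ti.1)).2 ?_
    simpa only [Real.sq_sqrt ENNReal.toReal_nonneg] using Ti
  · filter_upwards [Ta] with o ho
    have h1 : √(E j o) ≤ √(∑' j, ENNReal.ofReal (E j o)).toReal :=
      Real.sqrt_le_sqrt ((ENNReal.ofReal_le_iff_le_toReal ho.ne).1 (ENNReal.le_tsum j))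
    have h2 := abs_sub_abs_le_abs_sub (g j o) (f o)
    have h3 := norm_sub_norm_le (ζ' j o) (ζ o)
    rw [abs_sub_comm] at h2
    rw [norm_sub_rev] at h3
    constructor <;> linarith [q1 j o, q2 j o, abs_nonneg (f o), norm_nonneg (ζ o)]
  · filter_upwards [t0] with o ho
    refine tendsto_iff_norm_sub_tendsto_zero.2 (squeeze_zero (fun _ => norm_nonneg _) (fun j => ?_) ho)
    rw [norm_sub_rev]
    exact q1 j o
  · filter_upwards [t0] with o ho
    refine tendsto_iff_norm_sub_tendsto_zero.2 (squeeze_zero (fun _ => norm_nonneg _) (fun j => ?_) ho)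
    rw [norm_sub_rev]
    exact q2 j o


end VS

end Crest.Agent.R241
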