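import Crest.Agent.R241.G.H1

/-!
# The class `H`: chain rules and products; the form `B`.  Helper prefix `gh2_`.
-/

open MeasureTheory Set Filter Topology
open Crest.GeometryTopology.MetricCurrent
open Crest.GeometryTopology.Submanifold (Euc unitBallVol unitSphereArea)
open scoped ENNReal NNReal InnerProductSpace

noncomputable section

namespace Crest.Agent.R241

universe u

set_option linter.unusedSectionVars false

variable {X : Type u} [MetricSpace X] [CompactSpace X] [MeasurableSpace X] [BorelSpace X]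
  {Ω : Type u} [MeasurableSpace Ω] {σ Λ : ℝ} {n : ℕ} {V : VS σ Λ n X Ω}

namespace VS


/-- `exists_seq`, `IsG.comp₁`, `of_dominated` -/
theorem InH.comp₁ {f : Ω → ℝ} {ζ : Ω → Euc n} (h : V.InH f ζ) {φ : ℝ → ℝ} (hφ : ContDiff ℝ 1 φ)
    {C : ℝ} (hC : ∀ s, |deriv φ s| ≤ C) :
    V.InH (fun o => φ (f o)) fun o => deriv φ (f o) • ζ o := by
  obtain ⟨g, ζ', b, hg, hb, hle, h1, h2⟩ := h.exists_seq
  have hC0 : 0 ≤ C := (abs_nonneg _).trans (hC 0)
  refine InH.of_dominated (fun j => ((hg j).comp₁ hφ).inH) ((memLp_const |φ 0|).add (hb.const_mul C)) (fun j => ?_)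
    (h1.mono fun o ho => (hφ.continuous.tendsto _).comp ho) ?_
  · filter_upwards [hle j] with o ho
    have k1 := convex_univ.norm_image_sub_le_of_norm_deriv_le (f := φ) (fun s _ => hφ.differentiable one_ne_zero s)
      (fun s _ => hC s) (mem_univ 0) (mem_univ (g j o))
    rw [sub_zero, Real.norm_eq_abs, Real.norm_eq_abs] at k1
    have k2 := mul_le_mul (hC (g j o)) ho.2 (norm_nonneg _) hC0
    rw [norm_smul, Real.norm_eq_abs, Pi.add_apply]
    exact ⟨by linarith [mul_le_mul_of_nonneg_left ho.1 hC0, abs_sub_abs_le_abs_sub (φ (g j o)) (φ 0)],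
      by linarith [abs_nonneg (φ 0)]⟩
  · filter_upwards [h1, h2] with o ho ho'
    exact (((hφ.continuous_deriv le_rfl).tendsto _).comp ho).smul ho'

/-- values in a compact interval inside an open interval where `φ` is `C¹` (multiply by a smooth
cut-off, e.g. a `ContDiffBump` centred at the midpoint) -/
theorem InH.compOn {f : Ω → ℝ} {ζ : Ω → Euc n} (h : V.InH f ζ) {φ φ' : ℝ → ℝ} {a b e : ℝ}
    (he : 0 < e) (hφ : ∀ s ∈ Ioo (a - e) (b + e), HasDerivAt φ (φ' s) s)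
    (hφ' : ContinuousOn φ' (Ioo (a - e) (b + e))) (hf : ∀ᵐ o ∂V.ν, f o ∈ Icc a b) :
    V.InH (fun o => φ (f o)) fun o => φ' (f o) • ζ o := by
  rcases lt_or_ge b a with hab | hab
  · exact (inH_const 0).congr (hf.mono fun o ho => absurd (ho.1.trans ho.2) hab.not_ge)
      (hf.mono fun o ho => absurd (ho.1.trans ho.2) hab.not_ge)
  have hs : Icc a b ⊆ Ioo (a - e) (b + e) := Icc_subset_Ioo (sub_lt_self a he) (lt_add_of_pos_right b he)
  have hm : ∀ s, max a (min s b) ∈ Icc a b := fun s => ⟨le_max_left _ _, max_le hab (min_le_right _ _)⟩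
  have hid : ∀ s ∈ Icc a b, max a (min s b) = s := fun s hs => by rw [min_eq_left hs.2, max_eq_right hs.1]
  have hc : Continuous fun s => φ' (max a (min s b)) := hφ'.comp_continuous (by fun_prop) fun s => hs (hm s)
  obtain ⟨C, hC⟩ := isCompact_Icc.exists_bound_of_continuousOn (hφ'.mono hs)
  have hd : ∀ s, HasDerivAt (fun s => φ a + ∫ t in a..s, φ' (max a (min t b))) (φ' (max a (min s b))) s := fun s =>
    (hc.integral_hasStrictDerivAt a s).hasDerivAt.const_add _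
  have hd' := funext fun s => (hd s).deriv
  refine (h.comp₁ (contDiff_one_iff_deriv.2 ⟨fun s => (hd s).differentiableAt, by rwa [hd']⟩) (C := C)
    fun s => (hd s).deriv ▸ hC _ (hm s)).congr (hf.mono fun o ho => ?_) (hf.mono fun o ho => ?_)
  · have h1 : uIcc a (f o) ⊆ Icc a b := uIcc_subset_Icc ⟨le_rfl, hab⟩ ho
    simp only
    rw [intervalIntegral.integral_eq_sub_of_hasDerivAt (f := φ) (fun t ht => (hid t (h1 ht)).symm ▸ hφ t (hs (h1 ht)))
      (hc.intervalIntegrable _ _), add_sub_cancel]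
  · simp only [(hd _).deriv, hid _ ho]

theorem gh2_sq {f : Ω → ℝ} {ζ : Ω → Euc n} (h : V.InH f ζ) {C : ℝ} (hf : ∀ᵐ o ∂V.ν, |f o| ≤ C) :
    V.InH (fun o => f o ^ 2) fun o => (2 * f o) • ζ o :=
  h.compOn (φ := fun s => s ^ 2) (φ' := fun s => 2 * s) one_pos (fun s _ => (hasDerivAt_pow 2 s).congr_deriv (by simp))
    (by fun_prop) (hf.mono fun o ho => abs_le.1 ho)

/-- product of bounded elements (truncate the approximating sequences with a bounded `C¹` function
equal to the identity on `[-C-1, C+1]`) -/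
theorem InH.mul {f g : Ω → ℝ} {ζ ζ' : Ω → Euc n} (h : V.InH f ζ) (h' : V.InH g ζ')
    (hf : V.Bdd f) (hg : V.Bdd g) :
    V.InH (fun o => f o * g o) fun o => f o • ζ' o + g o • ζ o := by
  obtain ⟨C, hC⟩ := hf
  obtain ⟨D, hD⟩ := hg
  refine (((gh2_sq (h.add h') (C := C + D) ?_).sub (gh2_sq (h.sub h') (C := C + D) ?_)).smul (1 / 4)).congr
    (Eventually.of_forall fun o => by ring) (Eventually.of_forall fun o => by simp only; module)
  · filter_upwards [hC, hD] with o h1 h2 using (abs_add_le _ _).trans (add_le_add h1 h2)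
  · filter_upwards [hC, hD] with o h1 h2 using (abs_sub _ _).trans (add_le_add h1 h2)

/-- product with an element that is bounded together with its gradient -/
theorem InH.mul' {f g : Ω → ℝ} {ζ ζ' : Ω → Euc n} (h : V.InH f ζ) (h' : V.InH g ζ')
    (hg : V.Bdd g) (hζ' : V.Bdd ζ') :
    V.InH (fun o => f o * g o) fun o => f o • ζ' o + g o • ζ o := by
  have hd : ∀ c s : ℝ, c ≠ 0 → deriv (fun s => c * Real.sin (c⁻¹ * s)) s = Real.cos (c⁻¹ * s) := fun c s hc =>
    ((((hasDerivAt_id' s).const_mul c⁻¹).sin.const_mul c).congr_deriv (by field_simp)).deriv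
  have hc : ∀ j : ℕ, (0 : ℝ) < j + 1 := fun j => by positivity
  have ht : Tendsto (fun j : ℕ => (j + 1 : ℝ)) atTop atTop := tendsto_atTop_add_const_right _ _ tendsto_natCast_atTop_atTop
  have h1 : ∀ s, Tendsto (fun j : ℕ => (j + 1 : ℝ) * Real.sin ((j + 1 : ℝ)⁻¹ * s)) atTop (𝓝 s) := fun s => by
    simpa [Function.comp_def] using ((Real.hasDerivAt_sin 0).hasFDerivAt.lim_real s).comp ht
  have h2 : ∀ s, Tendsto (fun j : ℕ => Real.cos ((j + 1 : ℝ)⁻¹ * s)) atTop (𝓝 1) := fun s => by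
    simpa [Function.comp_def] using (Real.continuous_cos.tendsto _).comp (ht.inv_tendsto_atTop.mul_const s)
  have h3 : ∀ (j : ℕ) s, |(j + 1 : ℝ) * Real.sin ((j + 1 : ℝ)⁻¹ * s)| ≤ |s| := fun j s => by
    rw [abs_mul]
    refine (mul_le_mul_of_nonneg_left Real.abs_sin_le_abs (abs_nonneg _)).trans_eq ?_
    rw [← abs_mul, mul_inv_cancel_left₀ (hc j).ne']
  obtain ⟨C, hC⟩ := id hg
  obtain ⟨D, hD⟩ := hζ'
  refine InH.of_dominated (fun j : ℕ => (h.comp₁ (φ := fun s => (j + 1 : ℝ) * Real.sin ((j + 1 : ℝ)⁻¹ * s)) (by fun_prop)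
    (C := 1) fun s => (hd _ s (hc j).ne').symm ▸ Real.abs_cos_le_one _).mul h' ⟨j + 1, Eventually.of_forall fun o => ?_⟩ hg)
    ((h.1.norm.mul_const (C + D)).add (h.2.1.norm.const_mul C)) (fun j => ?_)
    (Eventually.of_forall fun o => (h1 _).mul_const _) (Eventually.of_forall fun o => ?_)
  · rw [norm_mul, Real.norm_of_nonneg (hc j).le]
    exact mul_le_of_le_one_right (hc j).le (Real.abs_sin_le_one _)
  · filter_upwards [hC, hD] with o k1 k2
    have k3 := mul_le_mul (h3 j (f o)) k1 (norm_nonneg _) (abs_nonneg _)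
    have k4 := mul_le_mul (h3 j (f o)) k2 (norm_nonneg _) (abs_nonneg _)
    have k5 := mul_le_mul k1 (mul_le_of_le_one_left (norm_nonneg (ζ o)) (Real.abs_cos_le_one ((j + 1 : ℝ)⁻¹ * f o)))
      (by positivity) ((norm_nonneg _).trans k1)
    have k6 := mul_nonneg (abs_nonneg (f o)) ((norm_nonneg _).trans k1)
    have k7 := mul_nonneg (abs_nonneg (f o)) ((norm_nonneg _).trans k2)
    have k8 := mul_nonneg ((norm_nonneg _).trans k1) (norm_nonneg (ζ o))
    refine ⟨?_, (norm_add_le _ _).trans ?_⟩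
    · rw [abs_mul]
      simp only [Pi.add_apply, Real.norm_eq_abs] at *
      linarith
    · simp only [Pi.add_apply, norm_smul, hd _ _ (hc j).ne', Real.norm_eq_abs] at *
      linarith
  · simp only [hd _ _ (hc _).ne']
    simpa only [one_smul] using ((h1 (f o)).smul_const (ζ' o)).add (((h2 (f o)).smul_const (ζ o)).const_smul (g o))

/-- `√(s² + e²) - e → |s|` -/
theorem InH.abs {f : Ω → ℝ} {ζ : Ω → Euc n} (h : V.InH f ζ) :
    V.InH (fun o => |f o|) fun o => (SignType.sign (f o) : ℝ) • ζ o := by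
  have hc : ∀ (j : ℕ) (s : ℝ), 0 < s ^ 2 + 1 / (j + 1 : ℝ) := fun j s => by positivity
  have hd : ∀ (j : ℕ) (s : ℝ), deriv (fun s => √(s ^ 2 + 1 / (j + 1 : ℝ))) s = s / √(s ^ 2 + 1 / (j + 1 : ℝ)) := fun j s =>
    ((((hasDerivAt_pow 2 s).add_const _).sqrt (hc j s).ne').congr_deriv (by simp [mul_div_mul_left])).deriv
  have h0 : ∀ (j : ℕ) (s : ℝ), |deriv (fun s => √(s ^ 2 + 1 / (j + 1 : ℝ))) s| ≤ 1 := fun j s => by
    rw [hd, abs_div, abs_of_nonneg (Real.sqrt_nonneg _), div_le_one (Real.sqrt_pos.2 (hc j s))]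
    exact Real.abs_le_sqrt (le_add_of_nonneg_right (by positivity))
  have h1 : ∀ s : ℝ, Tendsto (fun j : ℕ => √(s ^ 2 + 1 / (j + 1 : ℝ))) atTop (𝓝 |s|) := fun s => by
    have := ((tendsto_one_div_add_atTop_nhds_zero_nat (𝕜 := ℝ)).const_add (s ^ 2)).sqrt
    rwa [add_zero, Real.sqrt_sq_eq_abs] at this
  refine InH.of_dominated (fun j : ℕ => h.comp₁ (φ := fun s => √(s ^ 2 + 1 / (j + 1 : ℝ)))
    (ContDiff.sqrt (by fun_prop) fun s => (hc j s).ne') (h0 j)) ((h.1.norm.add (memLp_const 1)).add h.2.1.norm)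
    (fun j => Eventually.of_forall fun o => ⟨?_, ?_⟩) (Eventually.of_forall fun o => h1 _)
    (Eventually.of_forall fun o => Tendsto.smul_const ?_ _)
  · rw [abs_of_nonneg (Real.sqrt_nonneg _)]
    refine le_add_of_le_of_nonneg (Real.sqrt_le_iff.2 ⟨add_nonneg (norm_nonneg _) zero_le_one, ?_⟩) (norm_nonneg _)
    have : 1 / (j + 1 : ℝ) ≤ 1 := div_le_self zero_le_one (le_add_of_nonneg_left j.cast_nonneg)
    simp only [Pi.add_apply, Real.norm_eq_abs]
    nlinarith [sq_abs (f o), abs_nonneg (f o)]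
  · rw [norm_smul]
    exact le_add_of_nonneg_of_le (add_nonneg (norm_nonneg _) zero_le_one) (mul_le_of_le_one_left (norm_nonneg _) (h0 j _))
  · simp only [hd]
    rcases eq_or_ne (f o) 0 with h2 | h2
    · simp [h2]
    · have h3 : f o / |f o| = SignType.sign (f o) := by rw [div_eq_iff (abs_ne_zero.2 h2), sign_mul_abs]
      exact h3 ▸ tendsto_const_nhds.div (h1 _) (abs_ne_zero.2 h2)

/-- powers of `α + l κ_x` -/
theorem inH_rpow (hσ : 0 ≤ σ) {α l : ℝ} (hα : 0 < α) (hl : 0 ≤ l) (x : X) (β : ℝ) :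
    V.InH (fun o => (α + l * V.K x o) ^ β)
      fun o => (β * (α + l * V.K x o) ^ (β - 1) * l) • V.ξ o x := by
  obtain ⟨D, -, hD⟩ := V.exists_K_le
  refine (((inH_const α).add ((inH_K x).smul l)).compOn (φ := fun s => s ^ β) (φ' := fun s => β * s ^ (β - 1))
    (a := α) (b := α + l * D) hα (fun s hs => Real.hasDerivAt_rpow_const (Or.inl (sub_self α ▸ hs.1).ne'))
    (continuousOn_const.mul (continuousOn_id.rpow_const fun s hs => Or.inl (sub_self α ▸ hs.1).ne'))
    (Eventually.of_forall fun o => ⟨le_add_of_nonneg_right (mul_nonneg hl (K_nonneg hσ x o)),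
      add_le_add_right (mul_le_mul_of_nonneg_left (hD x o) hl) α⟩)).congr (EventuallyEq.refl _ _)
    (Eventually.of_forall fun o => ?_)
  simp only [zero_add, smul_smul]

theorem InH.integrable_B {f g : Ω → ℝ} {ζ ζ' : Ω → Euc n} (h : V.InH f ζ) (h' : V.InH g ζ') :
    Integrable (fun o => ⟪ζ o, ζ' o⟫_ℝ) V.ν ∧ Integrable (fun o => f o * g o) V.ν := by
  exact ⟨(h.2.1.norm.integrable_mul h'.2.1.norm).mono' (h.2.1.1.inner h'.2.1.1)
    (Eventually.of_forall fun _ => norm_inner_le_norm _ _), h.1.integrable_mul h'.1⟩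
theorem B_eq {f g : Ω → ℝ} {ζ ζ' : Ω → Euc n} (h : V.InH f ζ) (h' : V.InH g ζ') :
    V.B f ζ g ζ' = ∫ o, ⟪ζ o, ζ' o⟫_ℝ ∂V.ν + cz n * hsq σ Λ n * ∫ o, f o * g o ∂V.ν := by
  rw [B, integral_add (h.integrable_B h').1 ((h.integrable_B h').2.const_mul _), integral_const_mul]
theorem B_symm (f g : Ω → ℝ) (ζ ζ' : Ω → Euc n) : V.B f ζ g ζ' = V.B g ζ' f ζ := by
  simp only [B, real_inner_comm (ζ _), mul_comm (f _)]
theorem B_congr {f f' g g' : Ω → ℝ} {ζ ζ₁ ζ' ζ₁' : Ω → Euc n} (h1 : f =ᵐ[V.ν] f')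
    (h2 : ζ =ᵐ[V.ν] ζ₁) (h3 : g =ᵐ[V.ν] g') (h4 : ζ' =ᵐ[V.ν] ζ₁') :
    V.B f ζ g ζ' = V.B f' ζ₁ g' ζ₁' := by
  refine integral_congr_ae ?_
  filter_upwards [h1, h2, h3, h4] with o a1 a2 a3 a4
  rw [a1, a2, a3, a4]
theorem B_add_left {f f' g : Ω → ℝ} {ζ ζ₁ ζ' : Ω → Euc n} (h : V.InH f ζ) (h₁ : V.InH f' ζ₁)
    (h' : V.InH g ζ') : V.B (fun o => f o + f' o) (fun o => ζ o + ζ₁ o) g ζ'
      = V.B f ζ g ζ' + V.B f' ζ₁ g ζ' := by
  rw [B, B, B, ← integral_add ((h.integrable_B h').1.fun_add ((h.integrable_B h').2.const_mul _))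
    ((h₁.integrable_B h').1.fun_add ((h₁.integrable_B h').2.const_mul _))]
  refine integral_congr_ae (Eventually.of_forall fun o => ?_)
  simp only [inner_add_left]
  ring
theorem B_sub_left {f f' g : Ω → ℝ} {ζ ζ₁ ζ' : Ω → Euc n} (h : V.InH f ζ) (h₁ : V.InH f' ζ₁)
    (h' : V.InH g ζ') : V.B (fun o => f o - f' o) (fun o => ζ o - ζ₁ o) g ζ'
      = V.B f ζ g ζ' - V.B f' ζ₁ g ζ' := by
  rw [B, B, B, ← integral_sub ((h.integrable_B h').1.fun_add ((h.integrable_B h').2.const_mul _))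
    ((h₁.integrable_B h').1.fun_add ((h₁.integrable_B h').2.const_mul _))]
  refine integral_congr_ae (Eventually.of_forall fun o => ?_)
  simp only [inner_sub_left]
  ring
theorem B_smul_left (c : ℝ) (f g : Ω → ℝ) (ζ ζ' : Ω → Euc n) :
    V.B (fun o => c * f o) (fun o => c • ζ o) g ζ' = c * V.B f ζ g ζ' := by
  rw [B, B, ← integral_const_mul]
  refine integral_congr_ae (Eventually.of_forall fun o => ?_)
  simp only [real_inner_smul_left]
  ring
theorem Std.B_nonneg (hV : V.Std) (f : Ω → ℝ) (ζ : Ω → Euc n) : 0 ≤ V.B f ζ f ζ := by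
  exact integral_nonneg fun o => add_nonneg real_inner_self_nonneg
    (mul_nonneg (mul_pos hV.cz_pos hV.hsq_pos).le (mul_self_nonneg _))
theorem Std.sq_le_B (hV : V.Std) {f : Ω → ℝ} {ζ : Ω → Euc n} (h : V.InH f ζ) :
    cz n * hsq σ Λ n * ∫ o, f o ^ 2 ∂V.ν ≤ V.B f ζ f ζ := by
  rw [B_eq h h]
  simp only [sq]
  exact le_add_of_nonneg_left (integral_nonneg fun o => real_inner_self_nonneg)
/-- Cauchy–Schwarz -/
theorem Std.B_sq_le (hV : V.Std) {f g : Ω → ℝ} {ζ ζ' : Ω → Euc n} (h : V.InH f ζ)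
    (h' : V.InH g ζ') : V.B f ζ g ζ' ^ 2 ≤ V.B f ζ f ζ * V.B g ζ' g ζ' := by
  have key : ∀ t : ℝ, 0 ≤ V.B f ζ f ζ * (t * t) + 2 * V.B f ζ g ζ' * t + V.B g ζ' g ζ' := fun t => by
    have h1 := (h.smul t).add h'
    have h2 := hV.B_nonneg (fun o => t * f o + g o) fun o => t • ζ o + ζ' o
    rw [B_add_left (h.smul t) h' h1, B_smul_left, B_symm f, B_symm g, B_add_left (h.smul t) h' h,
      B_add_left (h.smul t) h' h', B_smul_left, B_smul_left, B_symm g f] at h2
    linarith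
  have := discrim_le_zero key
  rw [discrim] at this
  linarith


end VS

end Crest.Agent.R241
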