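import Crest.Agent.R241.G.H2

/-!
# First variation on `H`; the basic inequality (I) and the Green inequality.  Prefix `gh3_`.
-/

open MeasureTheory Set Filter Topology
open Crest.GeometryTopology.MetricCurrent
open Crest.GeometryTopology.Submanifold (Euc unitBallVol unitSphereArea)
open scoped ENNReal NNReal InnerProductSpace

noncomputable section

namespace Crest.Agent.R241

universe u

set_option linter.unusedSectionVars false

variable {X : Type u} [MetricSpace X] [CompactSpace X] [MeasurableSpace X] [BorelSpace X]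
  {Ω : Type u} [MeasurableSpace Ω] {σ Λ : ℝ} {n : ℕ} {V : VS σ Λ n X Ω}

namespace VS


/-- the first variation inequality for a pair -/
def gh3_FV (V : VS σ Λ n X Ω) (f : Ω → ℝ) (ζ : Ω → Euc n) (x : X) : Prop :=
  ∫ o, (n * (1 + σ * V.K x o) * f o + ⟪ζ o, V.ξ o x⟫_ℝ) ∂V.ν
    ≤ Λ * ∫ o, f o * √(sn σ (dist x (V.p o)) ^ 2 - ‖V.ξ o x‖ ^ 2) ∂V.ν

theorem gh3_gen {g : Ω → ℝ} {ζ : Ω → Euc n} (h : V.IsG g ζ) {φ : ℝ → ℝ} (hφ : ContDiff ℝ 1 φ)
    (h0 : ∀ s, 0 ≤ φ s) (x : X) : V.gh3_FV (fun o => φ (g o)) (fun o => deriv φ (g o) • ζ o) x := by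
  obtain ⟨m, xs, Φ, hΦ, hg, hζ⟩ := h
  have e : ∀ o, gvec σ xs (φ ∘ Φ) (V.p o) (V.ξ o) = deriv φ (g o) • ζ o := fun o => by
    rw [hg, hζ, gvec, gvec, Finset.smul_sum]
    refine Finset.sum_congr rfl fun i _ => ?_
    have h1 := ((hφ.differentiable one_ne_zero _).hasDerivAt.comp_hasFDerivAt (fun i => kap σ (xs i) (V.p o))
      (hΦ.differentiable one_ne_zero _).hasFDerivAt).fderiv
    rw [h1, smul_smul]
    rfl
  have := V.fv m xs (φ ∘ Φ) (hφ.comp hΦ) (fun y => h0 _) x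
  simp only [e] at this
  simp only [gh3_FV, hg]
  simp only [hg] at this
  exact this

theorem gh3_bd (hσ : 0 ≤ σ) (x : X) : ∃ D : ℝ, 0 ≤ D ∧ ∀ o (f b : ℝ) (ζ : Euc n), |f| ≤ b → ‖ζ‖ ≤ b →
    ‖n * (1 + σ * V.K x o) * f + ⟪ζ, V.ξ o x⟫_ℝ‖ ≤ D * b ∧
      ‖f * √(sn σ (dist x (V.p o)) ^ 2 - ‖V.ξ o x‖ ^ 2)‖ ≤ D * b := by
  obtain ⟨D, hD, hK⟩ := V.exists_K_le
  obtain ⟨D', hD', hξ⟩ := V.exists_ξ_le
  have hD0 : 0 ≤ D := by linarith
  refine ⟨n * (1 + σ * D) + D' + √(2 * D + σ * D ^ 2), by positivity, fun o f b ζ hf hζ => ?_⟩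
  have hb : 0 ≤ b := (abs_nonneg f).trans hf
  have k0 := K_nonneg (V := V) hσ x o
  have k1 := hK x o
  constructor
  · have h1 : ‖n * (1 + σ * V.K x o) * f‖ ≤ n * (1 + σ * D) * b := by
      rw [norm_mul, Real.norm_of_nonneg (by positivity)]
      gcongr
      exact hf
    have h2 : ‖⟪ζ, V.ξ o x⟫_ℝ‖ ≤ b * D' :=
      (norm_inner_le_norm _ _).trans (mul_le_mul hζ (hξ x o) (norm_nonneg _) hb)
    have h3 : 0 ≤ √(2 * D + σ * D ^ 2) * b := by positivity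
    linarith [norm_add_le (n * (1 + σ * V.K x o) * f) ⟪ζ, V.ξ o x⟫_ℝ]
  · have h1 : √(sn σ (dist x (V.p o)) ^ 2 - ‖V.ξ o x‖ ^ 2) ≤ √(2 * D + σ * D ^ 2) := by
      refine Real.sqrt_le_sqrt ?_
      rw [sn_sq hσ]
      change 2 * V.K x o + σ * V.K x o ^ 2 - _ ≤ _
      have : σ * V.K x o ^ 2 ≤ σ * D ^ 2 := by gcongr
      nlinarith [sq_nonneg ‖V.ξ o x‖]
    rw [norm_mul, Real.norm_of_nonneg (Real.sqrt_nonneg _)]
    have h2 := mul_le_mul hf h1 (Real.sqrt_nonneg _) hb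
    have h3 : 0 ≤ (n * (1 + σ * D) + D') * b := by positivity
    rw [Real.norm_eq_abs]
    linarith

theorem gh3_meas {f : Ω → ℝ} {ζ : Ω → Euc n} (hf : AEStronglyMeasurable f V.ν) (hζ : AEStronglyMeasurable ζ V.ν)
    (x : X) : AEStronglyMeasurable (fun o => n * (1 + σ * V.K x o) * f o + ⟪ζ o, V.ξ o x⟫_ℝ) V.ν ∧
      AEStronglyMeasurable (fun o => f o * √(sn σ (dist x (V.p o)) ^ 2 - ‖V.ξ o x‖ ^ 2)) V.ν :=
  ⟨(((((measurable_K x).const_mul σ).const_add 1).const_mul _).aestronglyMeasurable.mul hf).add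
    (hζ.inner (V.meas_ξ x).aestronglyMeasurable), hf.mul (V.core0_int_sqrt x).1⟩

theorem gh3_lim (hσ : 0 ≤ σ) {f : ℕ → Ω → ℝ} {ζ : ℕ → Ω → Euc n} {x : X} (h : ∀ j, V.gh3_FV (f j) (ζ j) x)
    (hf : ∀ j, AEStronglyMeasurable (f j) V.ν) (hζ : ∀ j, AEStronglyMeasurable (ζ j) V.ν)
    {F : Ω → ℝ} {Z : Ω → Euc n} {b : Ω → ℝ} (hb : Integrable b V.ν)
    (hle : ∀ j, ∀ᵐ o ∂V.ν, |f j o| ≤ b o ∧ ‖ζ j o‖ ≤ b o)
    (hF : ∀ᵐ o ∂V.ν, Tendsto (fun j => f j o) atTop (𝓝 (F o)))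
    (hZ : ∀ᵐ o ∂V.ν, Tendsto (fun j => ζ j o) atTop (𝓝 (Z o))) : V.gh3_FV F Z x := by
  obtain ⟨D, -, hD⟩ := gh3_bd (V := V) hσ x
  refine le_of_tendsto_of_tendsto' (b := atTop) ?_ (Tendsto.const_mul Λ ?_) h
  · refine tendsto_integral_of_dominated_convergence (fun o => D * b o) (fun j => (gh3_meas (hf j) (hζ j) x).1)
      (hb.const_mul D) (fun j => (hle j).mono fun o ho => (hD o _ _ _ ho.1 ho.2).1) ?_
    filter_upwards [hF, hZ] with o h1 h2
    exact (h1.const_mul _).add (h2.inner tendsto_const_nhds)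
  · refine tendsto_integral_of_dominated_convergence (fun o => D * b o) (fun j => (gh3_meas (hf j) (hζ j) x).2)
      (hb.const_mul D) (fun j => (hle j).mono fun o ho => (hD o _ _ _ ho.1 ho.2).2) ?_
    filter_upwards [hF] with o h1
    exact h1.mul_const _

/-- a positive smoothing of `s ↦ s` on `s ≥ 0` -/
def gh3_phi (e s : ℝ) : ℝ := √((s + e) ^ 2 + (e ^ 2) ^ 2)

theorem gh3_phi_spec {e : ℝ} (he : 0 < e) : ContDiff ℝ 1 (gh3_phi e) ∧ ∀ s, 0 < gh3_phi e s ∧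
    |s + e| ≤ gh3_phi e s ∧ gh3_phi e s ≤ |s + e| + e ^ 2 ∧ deriv (gh3_phi e) s = (s + e) / gh3_phi e s := by
  have hp : ∀ s : ℝ, 0 < (s + e) ^ 2 + (e ^ 2) ^ 2 := fun s => by positivity
  refine ⟨ContDiff.sqrt (by fun_prop) fun s => (hp s).ne', fun s => ⟨Real.sqrt_pos.2 (hp s),
    Real.abs_le_sqrt (by linarith [sq_nonneg (e ^ 2)]), Real.sqrt_le_iff.2 ⟨by positivity, ?_⟩, ?_⟩⟩
  · nlinarith [sq_abs (s + e), mul_nonneg (abs_nonneg (s + e)) (sq_nonneg e)]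
  · have h1 : HasDerivAt (fun s : ℝ => (s + e) ^ 2 + (e ^ 2) ^ 2) (2 * (s + e)) s := by
      simpa using (((hasDerivAt_id s).add_const e).pow 2).add_const ((e ^ 2) ^ 2)
    have h2 := (h1.sqrt (hp s).ne').deriv
    rw [mul_div_mul_left _ _ two_ne_zero] at h2
    exact h2

/-- `exists_seq`; compose the generators with a `C¹` function `φ ≥ 0`, `φ s = s + e` for
`s ≥ -e/2`, `|φ'| ≤ C` (`IsG.comp₁`; to use `V.fv` one needs `0 ≤ gfun` on all of `X`: the new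
`Φ` is `φ ∘ Φ`, so redo the unfolding); dominated convergence, then `e → 0`. -/
theorem InH.fv (hσ : 0 ≤ σ) {f : Ω → ℝ} {ζ : Ω → Euc n} (h : V.InH f ζ) (h0 : 0 ≤ᵐ[V.ν] f) (x : X) :
    ∫ o, (n * (1 + σ * V.K x o) * f o + ⟪ζ o, V.ξ o x⟫_ℝ) ∂V.ν
      ≤ Λ * ∫ o, f o * √(sn σ (dist x (V.p o)) ^ 2 - ‖V.ξ o x‖ ^ 2) ∂V.ν := by
  obtain ⟨g, ζ', b, hg, hb, hle, hF, hZ⟩ := h.exists_seq
  have ib : Integrable (fun o => b o + 2) V.ν := (hb.integrable one_le_two).add (integrable_const _)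
  have bd : ∀ e : ℝ, 0 < e → e ≤ 1 → ∀ (s c : ℝ) (v : Euc n), |s| ≤ c → ‖v‖ ≤ c →
      |gh3_phi e s| ≤ c + 2 ∧ ‖deriv (gh3_phi e) s • v‖ ≤ c + 2 := fun e he he1 s c v hs hv => by
    obtain ⟨p0, p1, p2, p3⟩ := (gh3_phi_spec he).2 s
    have h1 := abs_add_le s e
    rw [abs_of_pos he] at h1
    refine ⟨by rw [abs_of_pos p0]; nlinarith, ?_⟩
    rw [norm_smul, p3, Real.norm_eq_abs, abs_div, abs_of_pos p0]
    have h2 := mul_le_of_le_one_left (norm_nonneg v) ((div_le_one p0).2 p1)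
    linarith
  have ms : ∀ e : ℝ, 0 < e → ∀ (g : Ω → ℝ) (ζ : Ω → Euc n), AEStronglyMeasurable g V.ν →
      AEStronglyMeasurable ζ V.ν → AEStronglyMeasurable (fun o => gh3_phi e (g o)) V.ν ∧
        AEStronglyMeasurable (fun o => deriv (gh3_phi e) (g o) • ζ o) V.ν := fun e he g ζ h1 h2 =>
    ⟨(gh3_phi_spec he).1.continuous.comp_aestronglyMeasurable h1,
      (((gh3_phi_spec he).1.continuous_deriv le_rfl).comp_aestronglyMeasurable h1).smul h2⟩
  have step : ∀ e : ℝ, 0 < e → e ≤ 1 →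
      V.gh3_FV (fun o => gh3_phi e (f o)) (fun o => deriv (gh3_phi e) (f o) • ζ o) x := fun e he he1 => by
    have hm := fun j => ms e he _ _ (hg j).measurable.1.aestronglyMeasurable (hg j).measurable.2.aestronglyMeasurable
    refine gh3_lim hσ (fun j => gh3_gen (hg j) (gh3_phi_spec he).1 (fun s => ((gh3_phi_spec he).2 s).1.le) x)
      (fun j => (hm j).1) (fun j => (hm j).2) ib (fun j => (hle j).mono fun o ho => bd e he he1 _ _ _ ho.1 ho.2) ?_ ?_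
    · exact hF.mono fun o ho => ((gh3_phi_spec he).1.continuous.tendsto _).comp ho
    · filter_upwards [hF, hZ] with o h1 h2
      exact ((((gh3_phi_spec he).1.continuous_deriv le_rfl).tendsto _).comp h1).smul h2
  set e : ℕ → ℝ := fun j => 1 / ((j : ℝ) + 1) with he
  have e0 : ∀ j, 0 < e j := fun j => Nat.one_div_pos_of_nat
  have e1 : ∀ j, e j ≤ 1 := fun j => (div_le_one (by positivity)).2 (by linarith [j.cast_nonneg (α := ℝ)])
  have et : Tendsto e atTop (𝓝 0) := tendsto_one_div_add_atTop_nhds_zero_nat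
  have hm := fun j => ms (e j) (e0 j) _ _ h.1.1 h.2.1.1
  refine gh3_lim hσ (fun j => step _ (e0 j) (e1 j)) (fun j => (hm j).1) (fun j => (hm j).2) ib (fun j => ?_) ?_ ?_
  · filter_upwards [ae_all_iff.2 hle, hF, hZ] with o h1 h2 h3
    exact bd _ (e0 j) (e1 j) _ _ _ (le_of_tendsto' h2.abs fun i => (h1 i).1) (le_of_tendsto' h3.norm fun i => (h1 i).2)
  · filter_upwards [h0] with o ho
    have h1 : Continuous fun t => gh3_phi t (f o) := by unfold gh3_phi; fun_prop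
    have h2 := (h1.tendsto 0).comp et
    have h3 : gh3_phi 0 (f o) = f o := by simpa [gh3_phi] using Real.sqrt_sq ho
    rw [h3] at h2
    exact h2
  · filter_upwards [h0] with o ho
    have ho : 0 ≤ f o := ho
    have h1 : Tendsto (fun j => deriv (gh3_phi (e j)) (f o)) atTop (𝓝 1) := by
      have h2 : Tendsto (fun j => 1 - e j) atTop (𝓝 1) := by simpa using et.const_sub 1
      refine tendsto_of_tendsto_of_tendsto_of_le_of_le h2 tendsto_const_nhds (fun j => ?_) fun j => ?_ <;>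
        obtain ⟨p0, p1, p2, p3⟩ := (gh3_phi_spec (e0 j)).2 (f o) <;>
        rw [abs_of_pos (by linarith [e0 j])] at p1 p2 <;> simp only [p3]
      · rw [le_div_iff₀ p0]
        nlinarith [e0 j, mul_le_mul_of_nonneg_left p1 (e0 j).le, mul_nonneg (e0 j).le ho]
      · exact (div_le_one p0).2 p1
    simpa using h1.smul_const (ζ o)

theorem gh3_alg {n Λ σ α l κ s N f i : ℝ} (hn : 0 < n) (hW : 0 < α + l * κ) (hf : 0 ≤ f)
    (hN : N ^ 2 = 2 * κ + σ * κ ^ 2 - s) :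
    l * i + n / 2 * (f * l ^ 2 * s / (α + l * κ)) + n / 2 * (2 * l * α - σ * α ^ 2) * (f / (α + l * κ))
      - n / 2 * ((Λ / n) ^ 2 - σ) * (f * (α + l * κ)) ≤ l * (n * (1 + σ * κ) * f + i) - l * Λ * (f * N) := by
  have h1 : 0 ≤ n / 2 * (f / (α + l * κ)) * (l * N - Λ / n * (α + l * κ)) ^ 2 := by positivity
  have hs : s = 2 * κ + σ * κ ^ 2 - N ^ 2 := by linarith
  rw [← sub_nonneg]
  refine h1.trans_eq ?_
  rw [hs]
  field_simp
  ring

/-- (I): multiply `fv` by `l`, use `Λ l N ≤ (n/2) (l² N² / W + (Λ/n)² W)`, `W = α + l κ`,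
`N² = 2κ + σκ² - ‖ξ‖²` (`sn_sq`, `norm_ξ_sq_le`). -/
theorem InH.basic (hV : V.Std) {f : Ω → ℝ} {ζ : Ω → Euc n} (h : V.InH f ζ) (h0 : 0 ≤ᵐ[V.ν] f)
    {α l : ℝ} (hα : 0 < α) (hl : 0 ≤ l) (x : X) :
    ∫ o, (l * ⟪ζ o, V.ξ o x⟫_ℝ + n / 2 * (f o * l ^ 2 * ‖V.ξ o x‖ ^ 2 / (α + l * V.K x o))
        + n / 2 * (2 * l * α - σ * α ^ 2) * (f o / (α + l * V.K x o))
        - n / 2 * hsq σ Λ n * (f o * (α + l * V.K x o))) ∂V.ν ≤ 0 := by
  obtain ⟨D, -, hD⟩ := gh3_bd (V := V) hV.hσ x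
  have ib : Integrable (fun o => D * (‖f o‖ + ‖ζ o‖)) V.ν :=
    ((h.1.integrable one_le_two).norm.add (h.2.1.integrable one_le_two).norm).const_mul D
  have hm := gh3_meas h.1.1 h.2.1.1 x
  have hb := fun o => hD o (f o) (‖f o‖ + ‖ζ o‖) (ζ o) (le_add_of_nonneg_right (norm_nonneg _))
    (le_add_of_nonneg_left (norm_nonneg _))
  have i1 := (ib.mono' hm.1 (Eventually.of_forall fun o => (hb o).1)).const_mul l
  have i2 := (ib.mono' hm.2 (Eventually.of_forall fun o => (hb o).2)).const_mul (l * Λ)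
  have h1 := mul_le_mul_of_nonneg_left (h.fv hV.hσ h0 x) hl
  rw [← mul_assoc, ← integral_const_mul, ← integral_const_mul, ← sub_nonpos, ← integral_sub i1 i2] at h1
  by_cases hi : Integrable (fun o => l * ⟪ζ o, V.ξ o x⟫_ℝ + n / 2 * (f o * l ^ 2 * ‖V.ξ o x‖ ^ 2 / (α + l * V.K x o))
        + n / 2 * (2 * l * α - σ * α ^ 2) * (f o / (α + l * V.K x o))
        - n / 2 * hsq σ Λ n * (f o * (α + l * V.K x o))) V.ν
  · refine (integral_mono_ae hi (i1.sub i2) ?_).trans h1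
    filter_upwards [h0] with o ho
    have k0 := K_nonneg (V := V) hV.hσ x o
    refine gh3_alg (by have := hV.hn; positivity) (by positivity) ho ?_
    rw [Real.sq_sqrt, sn_sq hV.hσ]
    · rfl
    · rw [sn_sq hV.hσ]
      exact sub_nonneg.2 (V.norm_ξ_sq_le hV.hσ o x)
  · rw [integral_undef hi]

/-- (Gr): `basic` with `l = 1`, `f = u (e + κ)^(-n/2)` (`mul'`, `inH_rpow`), times `a`. -/
theorem InH.green (hV : V.Std) {u : Ω → ℝ} {ζ : Ω → Euc n} (h : V.InH u ζ) (h0 : 0 ≤ᵐ[V.ν] u)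
    {e : ℝ} (he : 0 < e) (x : X) :
    cz n * ((2 - σ * e) * V.T e u x) ≤ V.B u ζ (fun o => (e + 1 * V.K x o) ^ (-aa n))
      fun o => (-aa n * (e + 1 * V.K x o) ^ (-aa n - 1) * 1) • V.ξ o x := by
  have hW : ∀ o, e ≤ e + 1 * V.K x o := fun o => by linarith [K_nonneg (V := V) hV.hσ x o]
  have hW0 : ∀ o, 0 < e + 1 * V.K x o := fun o => he.trans_le (hW o)
  have hn : (0 : ℝ) ≤ n / 2 := by positivity
  obtain ⟨D, -, hD⟩ := V.exists_ξ_le
  have h1 := (h.mul' (inH_rpow hV.hσ he zero_le_one x (-((n : ℝ) / 2))) ⟨e ^ (-((n : ℝ) / 2)), .of_forall fun o => by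
      rw [Real.norm_of_nonneg (Real.rpow_nonneg (hW0 o).le _)]
      exact Real.rpow_le_rpow_of_nonpos he (hW o) (by linarith)⟩
    ⟨n / 2 * e ^ (-((n : ℝ) / 2) - 1) * D, .of_forall fun o => by
      rw [norm_smul, mul_one, norm_mul, norm_neg, Real.norm_of_nonneg hn,
        Real.norm_of_nonneg (Real.rpow_nonneg (hW0 o).le _)]
      exact mul_le_mul (mul_le_mul_of_nonneg_left (Real.rpow_le_rpow_of_nonpos he (hW o) (by linarith)) hn) (hD x o)
        (norm_nonneg _) (by positivity)⟩).basic hV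
    (h0.mono fun o ho => mul_nonneg ho (Real.rpow_nonneg (hW0 o).le _)) he zero_le_one x
  have i1 := h.integrable_B (inH_rpow hV.hσ he zero_le_one x (-aa n))
  have i2 := ((h.integrable_B (inH_rpow hV.hσ he zero_le_one x (-((n : ℝ) / 2 + 1)))).2).const_mul
    (cz n * (2 - σ * e) * e)
  have h2 := mul_nonpos_of_nonneg_of_nonpos hV.aa_pos.le h1
  have h3 : cz n * ((2 - σ * e) * V.T e u x) =
      ∫ o, cz n * (2 - σ * e) * e * (u o * (e + 1 * V.K x o) ^ (-((n : ℝ) / 2 + 1))) ∂V.ν := by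
    rw [integral_const_mul, T]
    simp only [one_mul]
    ring
  have i3 : Integrable (fun o => ⟪ζ o, (-aa n * (e + 1 * V.K x o) ^ (-aa n - 1) * 1) • V.ξ o x⟫_ℝ +
      cz n * hsq σ Λ n * (u o * (e + 1 * V.K x o) ^ (-aa n))) V.ν := i1.1.add (i1.2.const_mul _)
  rw [h3, B, ← sub_nonpos, ← integral_sub i2 i3]
  rw [← integral_const_mul] at h2
  refine le_of_eq_of_le (integral_congr_ae (.of_forall fun o => ?_)) h2
  have e1 : -aa n - 1 = -((n : ℝ) / 2) := by unfold aa; ring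
  have e2 : -((n : ℝ) / 2 + 1) = -((n : ℝ) / 2) - 1 := by ring
  have e3 : -aa n = -((n : ℝ) / 2) + 1 := by unfold aa; ring
  have e4 : (e + 1 * V.K x o) ^ (-aa n) = (e + 1 * V.K x o) ^ (-((n : ℝ) / 2)) * (e + 1 * V.K x o) := by
    rw [e3, Real.rpow_add_one (hW0 o).ne']
  simp only [e1, e2, e4, Real.rpow_sub_one (hW0 o).ne', inner_add_left, real_inner_smul_left, real_inner_smul_right,
    real_inner_self_eq_norm_sq, cz_eq]
  have := (hW0 o).ne'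
  field_simp
  ring

end VS

end Crest.Agent.R241
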