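import Crest.Agent.R241.G.Sob
import Crest.Agent.R241.G.Cpt

/-!
# Existence of subcritical extremals.  Helper prefix `gmin_`.
-/

open MeasureTheory Set Filter Topology
open Crest.GeometryTopology.MetricCurrent
open Crest.GeometryTopology.Submanifold (Euc unitBallVol unitSphereArea)
open scoped ENNReal NNReal InnerProductSpace

noncomputable section

namespace Crest.Agent.R241

universe u

set_option linter.unusedSectionVars false

variable {X : Type u} [MetricSpace X] [CompactSpace X] [MeasurableSpace X] [BorelSpace X]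
  {Ω : Type u} [MeasurableSpace Ω] {σ Λ : ℝ} {n : ℕ} {V : VS σ Λ n X Ω}

namespace VS


theorem gmin_interp (ν : Measure Ω) {q q₂ ε : ℝ} (A : ℝ) (h2 : 2 < q) (hq : q < q₂) (hε : 0 < ε) :
    ∃ η > 0, ∀ d : Ω → ℝ, Integrable (fun o => d o ^ 2) ν → Integrable (fun o => |d o| ^ q₂) ν →
      ∫ o, |d o| ^ q₂ ∂ν ≤ A → ∫ o, d o ^ 2 ∂ν ≤ η → ∫ o, |d o| ^ q ∂ν ≤ ε := by
  have h1 : Tendsto (fun R : ℝ => R ^ (-(q₂ - q)) * A) atTop (𝓝 0) := by
    simpa using (tendsto_rpow_neg_atTop (sub_pos.2 hq)).mul_const A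
  obtain ⟨R, hR, hR0⟩ := ((h1.eventually (gt_mem_nhds (half_pos hε))).and (eventually_gt_atTop 0)).exists
  have hp : 0 < R ^ (q - 2) := by positivity
  have hp' : 0 < R ^ (-(q₂ - q)) := by positivity
  refine ⟨ε / 2 / R ^ (q - 2), by positivity, fun d i1 i2 b2 b1 => ?_⟩
  have h3 := integral_mono_of_nonneg (μ := ν) (f := fun o => |d o| ^ q)
    (Eventually.of_forall fun o => by positivity)
    ((i1.const_mul (R ^ (q - 2))).add (i2.const_mul (R ^ (-(q₂ - q))))) (Eventually.of_forall fun o => ?_)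
  · simp only [Pi.add_apply] at h3
    rw [integral_add (i1.const_mul _) (i2.const_mul _), integral_const_mul, integral_const_mul] at h3
    rw [le_div_iff₀' hp] at b1
    linarith [mul_le_mul_of_nonneg_left b2 hp'.le]
  · simp only [Pi.add_apply]
    rcases le_total |d o| R with h | h
    · refine le_add_of_le_of_nonneg ?_ (by positivity)
      rw [show q = q - 2 + (2 : ℕ) by push_cast; ring, Real.rpow_add' (abs_nonneg _) (by push_cast; linarith),
        Real.rpow_natCast, sq_abs, show q - 2 + (2 : ℕ) - 2 = q - 2 by push_cast; ring]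
      exact mul_le_mul_of_nonneg_right (Real.rpow_le_rpow (abs_nonneg _) h (by linarith)) (sq_nonneg _)
    · refine le_add_of_nonneg_of_le (by positivity) ?_
      have h0 : 0 < |d o| := hR0.trans_le h
      calc |d o| ^ q = |d o| ^ (-(q₂ - q)) * |d o| ^ q₂ := by
            rw [← Real.rpow_add h0]; congr 1; ring
        _ ≤ _ := mul_le_mul_of_nonneg_right
            (Real.rpow_le_rpow_of_nonpos hR0 h (by linarith)) (by positivity)

theorem gmin_sub {f g : Ω → ℝ} {ζ ζ' : Ω → Euc n} (h : V.InH f ζ) (h' : V.InH g ζ') :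
    V.B (fun o => f o - g o) (fun o => ζ o - ζ' o) (fun o => f o - g o) (fun o => ζ o - ζ' o) =
      V.B f ζ f ζ - 2 * V.B f ζ g ζ' + V.B g ζ' g ζ' := by
  rw [B_sub_left h h' (h.sub h'), B_symm f, B_symm g, B_sub_left h h' h, B_sub_left h h' h', B_symm g f]
  ring

theorem gmin_add {f g : Ω → ℝ} {ζ ζ' : Ω → Euc n} (h : V.InH f ζ) (h' : V.InH g ζ') :
    V.B (fun o => f o + g o) (fun o => ζ o + ζ' o) (fun o => f o + g o) (fun o => ζ o + ζ' o) =
      V.B f ζ f ζ + 2 * V.B f ζ g ζ' + V.B g ζ' g ζ' := by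
  rw [B_add_left h h' (h.add h'), B_symm f, B_symm g, B_add_left h h' h, B_add_left h h' h', B_symm g f]
  ring

theorem gmin_abs {f : Ω → ℝ} {ζ : Ω → Euc n} (h : V.InH f ζ) :
    V.B (fun o => |f o|) (fun o => (SignType.sign (f o) : ℝ) • ζ o) (fun o => |f o|)
      (fun o => (SignType.sign (f o) : ℝ) • ζ o) ≤ V.B f ζ f ζ := by
  rw [B_eq h.abs h.abs, B_eq h h]
  simp only [abs_mul_abs_self]
  refine add_le_add_left (integral_mono (h.abs.integrable_B h.abs).1 (h.integrable_B h).1 fun o => ?_) _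
  have h0 : 0 ≤ ⟪ζ o, ζ o⟫_ℝ := real_inner_self_nonneg
  simp only [real_inner_smul_left, real_inner_smul_right]
  rcases lt_trichotomy (f o) 0 with h1 | h1 | h1 <;> simp [h1, -inner_self_eq_norm_sq_to_K, h0]

/-- `μ = inf {B f f | ∫ |f|^q = 1} > 0` (`exists_sobolev`; constants are admissible).  Minimising
sequence, `exists_cauchy`; Cauchy in `L^q` by `|d|^q ≤ R^(q-2) d² + R^(q-q₂) |d|^q₂` with
`q₂ = qq n (δ/2)`; parallelogram: `B((f-g)/2) = (B f + B g)/2 - B((f+g)/2) ≤ μ + o(1) - μ ‖(f+g)/2‖²`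
(Minkowski); `exists_lim`; replace the limit by its absolute value (`InH.abs`). -/
theorem Std.exists_min (hV : V.Std) {δ : ℝ} (hδ : δ ∈ Ioc (0 : ℝ) 1) :
    ∃ (u : Ω → ℝ) (ζ : Ω → Euc n) (μ : ℝ), V.InH u ζ ∧ (∀ o, 0 ≤ u o) ∧ 0 < μ ∧
      ∫ o, u o ^ qq n δ ∂V.ν = 1 ∧ V.B u ζ u ζ ≤ μ ∧
      ∀ v ζ', V.InH v ζ' → μ * (∫ o, |v o| ^ qq n δ ∂V.ν) ^ (2 / qq n δ) ≤ V.B v ζ' v ζ' := by
  have hn : (3 : ℝ) ≤ n := by exact_mod_cast hV.hn
  have hq : 2 < qq n δ := hV.qq_gt (by linarith [hδ.2])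
  have hq2 : qq n δ < qq n (δ / 2) :=
    div_lt_div_of_pos_right (by linarith [hδ.1]) hV.aa_pos
  obtain ⟨C, hC, hS⟩ := hV.exists_sobolev (δ := δ) ⟨hδ.1, by linarith [hδ.2]⟩
  obtain ⟨C₂, hC₂, hS₂⟩ := hV.exists_sobolev (δ := δ / 2) ⟨by linarith [hδ.1], by linarith [hδ.2]⟩
  generalize qq n (δ / 2) = q₂ at hq2 hS₂
  generalize qq n δ = q at hq hq2 hS ⊢
  have hq0 : 0 < q := by linarith
  have hp0 : ENNReal.ofReal q ≠ 0 := (ENNReal.ofReal_pos.2 hq0).ne'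
  have hp1 : 1 ≤ ENNReal.ofReal q := ENNReal.one_le_ofReal.2 (by linarith)
  have hI : ∀ (f : Ω → ℝ) (s : ℝ), 0 ≤ ∫ o, |f o| ^ s ∂V.ν := fun f s =>
    integral_nonneg fun o => by positivity
  have hL : ∀ {f ζ}, V.InH f ζ → lpNorm f (ENNReal.ofReal q) V.ν = (∫ o, |f o| ^ q ∂V.ν) ^ q⁻¹ := fun h => by
    rw [lpNorm_eq_integral_norm_rpow_toReal hp0 ENNReal.ofReal_ne_top h.1.1, ENNReal.toReal_ofReal hq0.le]
    rfl
  have hL2 : ∀ {f ζ}, V.InH f ζ →
      (∫ o, |f o| ^ q ∂V.ν) ^ (2 / q) = lpNorm f (ENNReal.ofReal q) V.ν ^ 2 := fun h => by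
    rw [hL h, ← Real.rpow_natCast, ← Real.rpow_mul (hI _ _)]
    congr 1
    push_cast
    field_simp
  have hM : ∀ {f ζ}, V.InH f ζ → MemLp f (ENNReal.ofReal q) V.ν := fun h =>
    (integrable_norm_rpow_iff h.1.1 hp0 ENNReal.ofReal_ne_top).1 (by
      rw [ENNReal.toReal_ofReal hq0.le]; exact (hS _ _ h).1)
  obtain ⟨L, hLd⟩ : ∃ L : (Ω → ℝ) → ℝ, ∀ f, lpNorm f (ENNReal.ofReal q) V.ν = L f := ⟨_, fun _ => rfl⟩
  have L0 : ∀ f, 0 ≤ L f := fun f => hLd f ▸ lpNorm_nonneg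
  have Ls : ∀ (c : ℝ) f, L (fun o => c * f o) = |c| * L f := fun c f => by
    rw [← hLd, ← hLd]
    exact lpNorm_const_smul c f V.ν
  have Lt : ∀ {f g ζ}, V.InH g ζ → L f ≤ L g + L (fun o => f o - g o) := fun h => by
    rw [← hLd, ← hLd, ← hLd]
    exact lpNorm_le_lpNorm_add_lpNorm_sub' (hM h) hp1
  have Lt' : ∀ {f g ζ}, V.InH g ζ → L f ≤ L g + L (fun o => g o - f o) := fun h => by
    rw [← hLd, ← hLd, ← hLd]
    exact lpNorm_le_lpNorm_add_lpNorm_sub (hM h) hp1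
  simp only [hLd] at hL hL2
  have LS : ∀ {f ζ}, V.InH f ζ → L f ^ 2 ≤ C * V.B f ζ f ζ := fun h => hL2 h ▸ (hS _ _ h).2
  set S : Set ℝ := {b | ∃ f ζ, V.InH f ζ ∧ L f = 1 ∧ V.B f ζ f ζ = b} with hSd
  have nm : ∀ {f ζ}, V.InH f ζ → 0 < L f → (L f)⁻¹ * ((L f)⁻¹ * V.B f ζ f ζ) ∈ S := fun {f ζ} h h0 =>
    ⟨_, _, h.smul (L f)⁻¹, by rw [Ls, abs_of_pos (inv_pos.2 h0), inv_mul_cancel₀ h0.ne'],
      by rw [B_smul_left, B_symm, B_smul_left]⟩
  have hne : S.Nonempty := ⟨_, nm (inH_const 1) (by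
    rw [hL (inH_const 1)]
    have := hV.hM
    simp only [abs_one, Real.one_rpow, integral_const, smul_eq_mul, mul_one]
    exact Real.rpow_pos_of_pos this _)⟩
  have hlb : ∀ b ∈ S, C⁻¹ ≤ b := by
    rintro _ ⟨f, ζ, h, h1, rfl⟩
    have := LS h
    rw [h1, one_pow] at this
    rwa [inv_le_iff_one_le_mul₀' hC]
  have hbd : BddBelow S := ⟨_, hlb⟩
  have hμ : 0 < sInf S := (inv_pos.2 hC).trans_le (le_csInf hne hlb)
  have hmin : ∀ {f ζ}, V.InH f ζ → sInf S * L f ^ 2 ≤ V.B f ζ f ζ := fun {f ζ} h => by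
    rcases (L0 f).eq_or_lt with h0 | h0
    · rw [← h0]
      simpa using hV.B_nonneg f ζ
    · have := mul_le_mul_of_nonneg_right (csInf_le hbd (nm h h0)) (sq_nonneg (L f))
      refine this.trans_eq ?_
      field_simp
  obtain ⟨b, hb1, hb2, hb3⟩ := exists_seq_tendsto_sInf hne hbd
  generalize sInf S = μ at hμ hmin hb2
  choose f ζ hf hf1 hfb using hb3
  obtain ⟨φ, hφ, hc⟩ := hV.exists_cauchy hf (C := b 0) fun j => (hfb j).trans_le (hb1 j.zero_le)
  have hb4 : Tendsto (fun j => b (φ j)) atTop (𝓝 μ) := hb2.comp hφ.tendsto_atTop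
  obtain ⟨u, Z, hu, hlim⟩ := hV.exists_lim (f := fun j => f (φ j)) (ζ := fun j => ζ (φ j))
    (fun j => hf _) fun η hη => by
      obtain ⟨ε, hε, hεη⟩ : ∃ ε : ℝ, 0 < ε ∧ 4 * (1 + μ) * ε = η :=
        ⟨η / (4 * (1 + μ)), by positivity, by field_simp⟩
      obtain ⟨η', hη', hi⟩ := gmin_interp V.ν ((C₂ * (4 * b 0)) ^ (2 / q₂)⁻¹) hq hq2
        (Real.rpow_pos_of_pos hε q)
      obtain ⟨N₁, hN₁⟩ := hc η' hη'
      obtain ⟨N₂, hN₂⟩ := eventually_atTop.1 (hb4.eventually (ge_mem_nhds (lt_add_of_pos_right μ hε)))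
      refine ⟨max N₁ N₂, fun j hj l hl => ?_⟩
      have hd := (hf (φ j)).sub (hf (φ l))
      have ha := (hf (φ j)).add (hf (φ l))
      have e1 := gmin_sub (hf (φ j)) (hf (φ l))
      have e2 := gmin_add (hf (φ j)) (hf (φ l))
      rw [hfb, hfb] at e1 e2
      have h1 := hmin ha
      have h2 : L (fun o => f (φ j) o - f (φ l) o) ≤ ε := by
        rw [hL hd, ← Real.rpow_rpow_inv hε.le hq0.ne']
        refine Real.rpow_le_rpow (hI _ _) (hi _ hd.1.integrable_sq (hS₂ _ _ hd).1 ?_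
          (hN₁ j (le_of_max_le_left hj) l (le_of_max_le_left hl))) (inv_pos.2 hq0).le
        have h3 : 0 < 2 / q₂ := div_pos two_pos (by linarith)
        rw [← Real.rpow_rpow_inv (hI _ q₂) h3.ne']
        refine Real.rpow_le_rpow (Real.rpow_nonneg (hI _ _) _) ((hS₂ _ _ hd).2.trans
          (mul_le_mul_of_nonneg_left ?_ hC₂.le)) (inv_pos.2 h3).le
        linarith [hV.B_nonneg (fun o => f (φ j) o + f (φ l) o) fun o => ζ (φ j) o + ζ (φ l) o,
          hb1 (φ j).zero_le, hb1 (φ l).zero_le]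
      have h4 := Lt (f := fun o => 2 * f (φ j) o) ha
      rw [Ls, hf1, show (fun o => 2 * f (φ j) o - (f (φ j) o + f (φ l) o)) =
        fun o => f (φ j) o - f (φ l) o by funext o; ring, abs_two] at h4
      have h5 : 4 - 4 * ε ≤ L (fun o => f (φ j) o + f (φ l) o) ^ 2 := by
        nlinarith [sq_nonneg (L (fun o => f (φ j) o + f (φ l) o) - 2)]
      have h6 := hN₂ j (le_of_max_le_right hj)
      have h7 := hN₂ l (le_of_max_le_right hl)
      nlinarith [mul_le_mul_of_nonneg_left h5 hμ.le]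
  have hd := fun j => (hf (φ j)).sub hu
  have t1 : Tendsto (fun j => L fun o => f (φ j) o - u o) atTop (𝓝 0) := by
    have h1 := (hlim.const_mul C).sqrt
    rw [mul_zero, Real.sqrt_zero] at h1
    exact squeeze_zero (fun j => L0 _) (fun j => Real.le_sqrt_of_sq_le (LS (hd j))) h1
  have hu1 : L u = 1 := by
    refine le_antisymm (ge_of_tendsto' (by simpa using t1.const_add 1) fun j => ?_)
      (ge_of_tendsto' (by simpa using t1.const_add (L u)) fun j => ?_)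
    · simpa only [hf1] using Lt' (f := u) (hf (φ j))
    · simpa only [hf1] using Lt (f := f (φ j)) hu
  have hu2 : V.B u Z u Z ≤ μ := by
    have h1 := (hb4.add ((hb4.mul hlim).sqrt.const_mul 2)).add hlim
    rw [mul_zero, Real.sqrt_zero, mul_zero, add_zero, add_zero] at h1
    refine ge_of_tendsto' h1 fun j => ?_
    have h2 := gmin_sub (hf (φ j)) (hd j)
    simp only [sub_sub_cancel, hfb] at h2
    have h3 := hV.B_sq_le (hf (φ j)) (hd j)
    rw [hfb] at h3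
    linarith [(abs_le.1 (Real.abs_le_sqrt h3)).1]
  refine ⟨_, _, μ, hu.abs, fun o => abs_nonneg _, hμ, ?_, (gmin_abs hu).trans hu2,
    fun v ζ' h => hL2 h ▸ hmin h⟩
  rw [← Real.rpow_inv_rpow (hI u q) hq0.ne', ← hL hu, hu1, Real.one_rpow]

theorem gmin_b_holder {ν : Measure Ω} {q : ℝ} (hq : 1 < q) {u v : Ω → ℝ} (hm : Measurable u)
    (h0 : ∀ o, 0 ≤ u o) (h1 : ∫ o, u o ^ q ∂ν = 1) (hu : Integrable (fun o => |u o| ^ q) ν)
    (hvm : AEStronglyMeasurable v ν) (hv : Integrable (fun o => |v o| ^ q) ν) :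
    Integrable (fun o => u o ^ (q - 1) * v o) ν ∧
      (∫ o, u o ^ (q - 1) * v o ∂ν) ^ 2 ≤ (∫ o, |v o| ^ q ∂ν) ^ (2 / q) := by
  have hp := (Real.HolderConjugate.conjExponent hq).symm
  have e : ∀ o, ‖u o ^ (q - 1)‖ ^ q.conjExponent = u o ^ q := fun o => by
    rw [Real.norm_of_nonneg (Real.rpow_nonneg (h0 o) _), ← Real.rpow_mul (h0 o), hp.symm.sub_one_mul_conj]
  have h2 : MemLp (fun o => u o ^ (q - 1)) (ENNReal.ofReal q.conjExponent) ν := by
    rw [← integrable_norm_rpow_iff (hm.pow_const _).aestronglyMeasurable (by simpa using hp.pos) (by simp),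
      ENNReal.toReal_ofReal hp.nonneg]
    simpa only [e, abs_of_nonneg (h0 _)] using hu
  have h3 : MemLp v (ENNReal.ofReal q) ν := by
    rw [← integrable_norm_rpow_iff hvm (by simpa using hp.symm.pos) (by simp),
      ENNReal.toReal_ofReal hp.symm.nonneg]
    exact hv
  have := hp.ennrealOfReal
  refine ⟨h2.integrable_mul h3, ?_⟩
  have h4 := integral_mul_norm_le_Lp_mul_Lq hp h2 h3
  simp only [e, h1, Real.one_rpow, one_mul, ← norm_mul] at h4
  rw [show 2 / q = 1 / q * (2 : ℕ) by push_cast; ring,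
    Real.rpow_mul_natCast (integral_nonneg fun o => by positivity), ← sq_abs]
  exact pow_le_pow_left₀ (abs_nonneg _) ((norm_integral_le_integral_norm _).trans h4) 2

/-- Euler–Lagrange without differentiation: `ℓ v = ∫ u^(q-1) v`, `|ℓ v| ≤ ‖v‖_q` (Hölder), so
`Q = B - μ ℓ²` is a nonnegative quadratic form with `Q u ≤ 0`; hence `Q (u, v) = 0`.  Then rescale
`u` by `(μ / c₀)^(1/(q-2))` and take a measurable representative. -/
theorem Std.exists_el (hV : V.Std) {δ : ℝ} (hδ : δ ∈ Ioc (0 : ℝ) 1) :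
    ∃ (u : Ω → ℝ) (ζ : Ω → Euc n), V.InH u ζ ∧ Measurable u ∧ (∀ o, 0 ≤ u o) ∧ 0 < V.N δ u ∧
      (∀ v ζ', V.InH v ζ' → V.B u ζ v ζ' = cz n * ∫ o, u o ^ (qq n δ - 1) * v o ∂V.ν) ∧
      ∀ v ζ', V.InH v ζ' → cz n * V.N δ u ^ (1 - 2 / qq n δ)
        * (∫ o, |v o| ^ qq n δ ∂V.ν) ^ (2 / qq n δ) ≤ V.B v ζ' v ζ' := by
  obtain ⟨u₀, ζ, μ, hu₀, h0₀, hμ, h1₀, hB₀, hmin⟩ := hV.exists_min hδ
  obtain ⟨u, hm, h0, e⟩ : ∃ u : Ω → ℝ, Measurable u ∧ (∀ o, 0 ≤ u o) ∧ u₀ =ᵐ[V.ν] u :=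
    ⟨fun o => |hu₀.1.1.mk u₀ o|, hu₀.1.1.measurable_mk.abs, fun _ => abs_nonneg _,
      hu₀.1.1.ae_eq_mk.mono fun o ho => by simp only [← ho, abs_of_nonneg (h0₀ o)]⟩
  have hu := hu₀.congr e EventuallyEq.rfl
  have h1 : ∫ o, u o ^ qq n δ ∂V.ν = 1 := by
    rw [← h1₀]; exact integral_congr_ae (e.mono fun o ho => by simp only [ho])
  rw [B_congr e EventuallyEq.rfl e EventuallyEq.rfl] at hB₀
  have hq := hV.qq_gt (hδ.2.trans_lt one_lt_two)
  have hc := hV.cz_pos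
  obtain ⟨C, -, hS⟩ := hV.exists_sobolev ⟨hδ.1, hδ.2.trans_lt one_lt_two⟩
  have hH := fun v ζ' (hv : V.InH v ζ') =>
    gmin_b_holder (by linarith) hm h0 h1 (hS u ζ hu).1 hv.1.1 (hS v ζ' hv).1
  have hl : ∫ o, u o ^ (qq n δ - 1) * u o ∂V.ν = 1 := by
    simp only [← Real.rpow_add_one' (h0 _) (show qq n δ - 1 + 1 ≠ 0 by linarith), sub_add_cancel, h1]
  have hel : ∀ v ζ', V.InH v ζ' → V.B u ζ v ζ' = μ * ∫ o, u o ^ (qq n δ - 1) * v o ∂V.ν := by
    intro v ζ' hv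
    have key : ∀ t : ℝ, 0 ≤ (V.B v ζ' v ζ' - μ * (∫ o, u o ^ (qq n δ - 1) * v o ∂V.ν) ^ 2) * (t * t) +
        2 * (V.B u ζ v ζ' - μ * ∫ o, u o ^ (qq n δ - 1) * v o ∂V.ν) * t + 0 := fun t => by
      have hw := hu.add (hv.smul t)
      have h2 := (mul_le_mul_of_nonneg_left (hH _ _ hw).2 hμ.le).trans (hmin _ _ hw)
      simp only [mul_add, mul_left_comm _ t] at h2
      rw [integral_add (hH _ _ hu).1 ((hH _ _ hv).1.const_mul t), integral_const_mul, hl,
        B_add_left hu (hv.smul t) hw, B_smul_left, B_symm u, B_add_left hu (hv.smul t) hu, B_smul_left,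
        B_symm v (fun o => u o + t * v o), B_add_left hu (hv.smul t) hv, B_smul_left, B_symm v u] at h2
      linarith
    have h3 := discrim_le_zero key
    rw [discrim, mul_zero, sub_zero] at h3
    linarith [pow_eq_zero_iff two_ne_zero |>.1 (h3.antisymm (sq_nonneg _))]
  obtain ⟨s, hs, hs'⟩ : ∃ s : ℝ, 0 < s ∧ cz n * s ^ (qq n δ - 2) = μ :=
    ⟨(μ / cz n) ^ (qq n δ - 2)⁻¹, by positivity, by
      rw [Real.rpow_inv_rpow (by positivity) (by linarith), mul_div_cancel₀ _ hc.ne']⟩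
  have hN : V.N δ (fun o => s * u o) = s ^ qq n δ := by
    simp only [N, Real.mul_rpow hs.le (h0 _), integral_const_mul, h1, mul_one]
  refine ⟨fun o => s * u o, fun o => s • ζ o, hu.smul s, hm.const_mul s, fun o => mul_nonneg hs.le (h0 o),
    by rw [hN]; positivity, fun v ζ' hv => ?_, fun v ζ' hv => ?_⟩
  · simp only [B_smul_left, hel v ζ' hv, Real.mul_rpow hs.le (h0 _), mul_assoc, integral_const_mul]
    rw [← hs', show qq n δ - 1 = qq n δ - 2 + 1 by ring, Real.rpow_add_one hs.ne']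
    ring
  · rw [hN, ← Real.rpow_mul hs.le, mul_one_sub, mul_div_cancel₀ _ (by linarith), hs']
    exact hmin v ζ' hv


end VS

end Crest.Agent.R241
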