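import Crest.Agent.R241.G.Defs

/-!
# Real analysis for the conformal path.  Helper prefix `gode_`.
-/

open MeasureTheory Set Filter Topology
open Crest.GeometryTopology.MetricCurrent
open Crest.GeometryTopology.Submanifold (Euc unitBallVol unitSphereArea)
open scoped ENNReal NNReal InnerProductSpace

noncomputable section

namespace Crest.Agent.R241

universe u

theorem gode_cont {H : ℝ → ℝ} (hH : ContinuousOn H (Ioi 0)) (p : ℝ) :
    ContinuousOn (fun τ : ℝ => τ ^ p * H τ) (Ioi 0) :=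
  (continuousOn_id.rpow_const fun _ h => Or.inl (ne_of_gt h)).mul hH

theorem gode_int {n : ℕ} (hn : 3 ≤ n) {H : ℝ → ℝ} (hH : ContinuousOn H (Ioi 0)) (hH0 : ∀ τ > 0, 0 < H τ)
    {s : ℝ} (hs : 0 < s) (hH1 : ∀ τ > s, H τ ≤ τ ^ (-(n : ℝ))) :
    IntegrableOn (fun τ : ℝ => τ ^ ((n : ℝ) / 2) * H τ) (Ioi s) := by
  have h3 : (3 : ℝ) ≤ n := by exact_mod_cast hn
  refine (integrableOn_Ioi_rpow_of_lt (a := (n : ℝ) / 2 + -n) (by linarith) hs).mono'
    (((gode_cont hH _).mono (Ioi_subset_Ioi hs.le)).aestronglyMeasurable measurableSet_Ioi) ?_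
  filter_upwards [ae_restrict_mem measurableSet_Ioi] with τ hτ
  have h0 : 0 < τ := hs.trans hτ
  rw [Real.norm_of_nonneg (mul_pos (Real.rpow_pos_of_pos h0 _) (hH0 τ h0)).le, Real.rpow_add h0]
  exact mul_le_mul_of_nonneg_left (hH1 τ hτ) (by positivity)

/-- `y s = a ∫_s^∞ τ^(n/2) H τ`, `y' = -a s^(n/2) H ≥ -a s^(-δ/2) y^(q/2)`, hence
`y^(1-q/2) - s^(1-δ/2)` is antitone (`a (q/2 - 1) = 1 - δ/2`). -/
theorem ode_path {n : ℕ} (hn : 3 ≤ n) {δ : ℝ} (hδ : δ ∈ Icc (0 : ℝ) 1) {H : ℝ → ℝ}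
    (hH : ContinuousOn H (Ioi 0)) (hH0 : ∀ τ > 0, 0 < H τ) (hH1 : ∀ τ > 0, H τ ≤ τ ^ (-(n : ℝ)))
    (h : ∀ s > 0, s ^ aa n * (s ^ δ * H s) ^ (2 / qq n δ)
      ≤ aa n * ∫ τ in Ioi s, τ ^ ((n : ℝ) / 2) * H τ) {s S : ℝ} (hs : 0 < s) (hS : s ≤ S) :
    (aa n * ∫ τ in Ioi S, τ ^ ((n : ℝ) / 2) * H τ) ^ (1 - qq n δ / 2) - S ^ (1 - δ / 2)
      ≤ (aa n * ∫ τ in Ioi s, τ ^ ((n : ℝ) / 2) * H τ) ^ (1 - qq n δ / 2) := by
  have h3 : (3 : ℝ) ≤ n := by exact_mod_cast hn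
  have ha : 0 < aa n := by unfold aa; linarith
  have hq : 0 < qq n δ := div_pos (by linarith [hδ.2]) ha
  have haq : aa n * qq n δ = n - δ := mul_div_cancel₀ _ ha.ne'
  have hn' : (n : ℝ) = 2 * aa n + 2 := by unfold aa; ring
  have hi : ∀ s > 0, IntegrableOn (fun τ : ℝ => τ ^ ((n : ℝ) / 2) * H τ) (Ioi s) := fun s hs =>
    gode_int hn hH hH0 hs fun τ hτ => hH1 τ (hs.trans hτ)
  set y : ℝ → ℝ := fun s => aa n * ∫ τ in Ioi s, τ ^ ((n : ℝ) / 2) * H τ with hy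
  have hp : ∀ t > 0, 0 < y t := fun t ht => lt_of_lt_of_le (by have := hH0 t ht; positivity) (h t ht)
  have hd : ∀ t > 0, HasDerivAt y (-(aa n * (t ^ ((n : ℝ) / 2) * H t))) t := fun t ht => by
    have h1 := intervalIntegral.integral_hasDerivAt_right (a := t) IntervalIntegrable.refl
      ((gode_cont hH ((n : ℝ) / 2)).stronglyMeasurableAtFilter isOpen_Ioi t ht)
      ((gode_cont hH _).continuousAt (Ioi_mem_nhds ht))
    refine ((h1.const_mul (aa n)).const_sub (y t)).congr_of_eventuallyEq ?_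
    filter_upwards [Ioi_mem_nhds ht] with r hr
    rw [← intervalIntegral.integral_Ioi_sub_Ioi' (hi t ht) (hi r hr)]
    simp only [hy]
    ring
  have hg : ∀ t > 0, HasDerivAt (fun t => y t ^ (1 - qq n δ / 2) - t ^ (1 - δ / 2))
      (-(aa n * (t ^ ((n : ℝ) / 2) * H t)) * (1 - qq n δ / 2) * y t ^ (1 - qq n δ / 2 - 1) -
        (1 - δ / 2) * t ^ (1 - δ / 2 - 1)) t := fun t ht =>
    ((hd t ht).rpow_const (Or.inl (hp t ht).ne')).sub (Real.hasDerivAt_rpow_const (Or.inl ht.ne'))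
  have hm : AntitoneOn (fun t => y t ^ (1 - qq n δ / 2) - t ^ (1 - δ / 2)) (Ioi 0) := by
    refine antitoneOn_of_deriv_nonpos (convex_Ioi 0) (fun t ht => (hg t ht).continuousAt.continuousWithinAt)
      (fun t ht => (hg t (interior_subset ht)).differentiableAt.differentiableWithinAt) fun t ht => ?_
    have ht : 0 < t := interior_subset ht
    have hH := hH0 t ht
    have hyt := hp t ht
    have h1 := Real.rpow_le_rpow (by positivity) (h t ht) (half_pos hq).le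
    rw [Real.mul_rpow (by positivity) (by positivity), ← Real.rpow_mul ht.le, ← Real.rpow_mul (by positivity),
      show 2 / qq n δ * (qq n δ / 2) = 1 by field_simp, Real.rpow_one, ← mul_assoc, ← Real.rpow_add ht,
      show aa n * (qq n δ / 2) + δ = n / 2 + δ / 2 by linarith, Real.rpow_add ht] at h1
    rw [(hg t ht).deriv, sub_sub_cancel_left, sub_sub_cancel_left, Real.rpow_neg hyt.le, Real.rpow_neg ht.le,
      sub_nonpos, show -(aa n * (t ^ ((n : ℝ) / 2) * H t)) * (1 - qq n δ / 2) =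
        (1 - δ / 2) * (t ^ ((n : ℝ) / 2) * H t) by
          linear_combination (t ^ ((n : ℝ) / 2) * H t / 2) * (haq + hn'), mul_assoc]
    refine mul_le_mul_of_nonneg_left ?_ (by linarith [hδ.2])
    rw [← div_eq_mul_inv, div_le_iff₀ (by positivity), le_inv_mul_iff₀ (by positivity)]
    linarith
  exact (hm hs (hs.trans_le hS) hS).trans (sub_le_self _ (by positivity))

/-- behaviour at infinity: `y S ≤ S^(-a) (1 - x)`, `x = 2 a k / S`, and Bernoulli
`(1-x)^(-β) ≥ 1 + β x`, `β = q/2 - 1 = (1 - δ/2)/a`. -/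
theorem ode_end {n : ℕ} (hn : 3 ≤ n) {δ : ℝ} (hδ : δ ∈ Icc (0 : ℝ) 1) {H : ℝ → ℝ}
    (hH : ContinuousOn H (Ioi 0)) (hH0 : ∀ τ > 0, 0 < H τ) {S k : ℝ} (hS : 0 < S) (hk : 0 ≤ k)
    (hH1 : ∀ τ ≥ S, H τ ≤ τ ^ (-(n : ℝ)) - n * k * τ ^ (-(n + 1 : ℝ))) :
    2 * k * (1 - δ / 2) * S ^ (-δ / 2)
      ≤ (aa n * ∫ τ in Ioi S, τ ^ ((n : ℝ) / 2) * H τ) ^ (1 - qq n δ / 2) - S ^ (1 - δ / 2) := by
  have h3 : (3 : ℝ) ≤ n := by exact_mod_cast hn
  have ha : 0 < aa n := by unfold aa; linarith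
  have haq : aa n * qq n δ = n - δ := mul_div_cancel₀ _ ha.ne'
  have hn' : (n : ℝ) = 2 * aa n + 2 := by unfold aa; ring
  have hi := gode_int hn hH hH0 hS fun τ hτ => (hH1 τ hτ.le).trans (sub_le_self _ (by
    have := hS.trans hτ; positivity))
  have hf : ∀ τ ∈ Ioi S, 0 < τ ^ ((n : ℝ) / 2) * H τ := fun τ hτ =>
    mul_pos (Real.rpow_pos_of_pos (hS.trans hτ) _) (hH0 τ (hS.trans hτ))
  have h0 : 0 < aa n * ∫ τ in Ioi S, τ ^ ((n : ℝ) / 2) * H τ := by
    refine mul_pos ha ((setIntegral_pos_iff_support_of_nonneg_ae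
      ((ae_restrict_mem measurableSet_Ioi).mono fun τ hτ => (hf τ hτ).le) hi).2 ?_)
    rw [inter_eq_right.2 fun τ hτ => Function.mem_support.2 (hf τ hτ).ne']
    simp
  have i1 := integrableOn_Ioi_rpow_of_lt (a := -aa n - 1) (by linarith) hS
  have i2 := (integrableOn_Ioi_rpow_of_lt (a := -aa n - 2) (by linarith) hS).const_mul (n * k)
  have h1 : ∫ τ in Ioi S, τ ^ ((n : ℝ) / 2) * H τ ≤
      ∫ τ in Ioi S, (τ ^ (-aa n - 1) - n * k * τ ^ (-aa n - 2)) := by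
    refine setIntegral_mono_on hi (i1.sub i2) measurableSet_Ioi fun τ hτ => ?_
    have hτ0 : 0 < τ := hS.trans hτ
    refine (mul_le_mul_of_nonneg_left (hH1 τ (le_of_lt hτ)) (by positivity)).trans_eq ?_
    rw [mul_sub, mul_left_comm, ← Real.rpow_add hτ0, ← Real.rpow_add hτ0,
      show (n : ℝ) / 2 + -n = -aa n - 1 by linarith, show (n : ℝ) / 2 + -(n + 1) = -aa n - 2 by linarith]
  rw [integral_sub i1 i2, integral_const_mul, integral_Ioi_rpow_of_lt (by linarith) hS,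
    integral_Ioi_rpow_of_lt (by linarith) hS, sub_add_cancel, show -aa n - 2 + 1 = -aa n - 1 by ring,
    Real.rpow_sub_one hS.ne'] at h1
  have hE := Real.rpow_pos_of_pos hS (-aa n)
  have h2 : aa n * ∫ τ in Ioi S, τ ^ ((n : ℝ) / 2) * H τ ≤ S ^ (-aa n) * (1 - 2 * aa n * k / S) := by
    refine (mul_le_mul_of_nonneg_left h1 ha.le).trans_eq ?_
    have : -aa n - 1 ≠ 0 := by linarith
    rw [hn']
    field_simp
    ring
  have hx : 0 < 1 - 2 * aa n * k / S := pos_of_mul_pos_right (h0.trans_le h2) hE.le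
  have hβ : 1 - qq n δ / 2 ≤ 0 := by
    refine nonpos_of_mul_nonpos_right (a := aa n) ?_ ha
    linarith [hδ.2]
  have h4 := Real.rpow_le_rpow_of_nonpos h0 h2 hβ
  rw [Real.mul_rpow hE.le hx.le, ← Real.rpow_mul hS.le,
    show -aa n * (1 - qq n δ / 2) = -δ / 2 + 1 by linarith, Real.rpow_def_of_pos hx] at h4
  have h5 := (add_le_add_left (mul_le_mul_of_nonpos_right (Real.log_le_sub_one_of_pos hx) hβ) 1).trans
    (Real.add_one_le_exp _)
  rw [show 1 - δ / 2 = -δ / 2 + 1 by ring, le_sub_iff_add_le]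
  refine le_trans (le_of_eq ?_) ((mul_le_mul_of_nonneg_left h5 (by positivity)).trans h4)
  rw [Real.rpow_add_one hS.ne']
  field_simp
  linear_combination (-2 * k) * (haq + hn')

theorem gode_prim {a b s t : ℝ} (ha : 0 ≤ a) (hab : a < b) (hs : 0 < s) (ht : 0 ≤ t) :
    IntegrableOn (fun τ => τ ^ (a - 1) * ((b * τ - a * (τ + t)) * (τ + t) ^ (-(b + 1)))) (Ioi s) ∧
    ∫ τ in Ioi s, τ ^ (a - 1) * ((b * τ - a * (τ + t)) * (τ + t) ^ (-(b + 1))) = s ^ a * (s + t) ^ (-b) := by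
  have hb : 0 < b := ha.trans_lt hab
  have hle : ∀ τ, 0 < τ → (τ + t) ^ (-b) ≤ τ ^ (-b) := fun τ hτ =>
    Real.rpow_le_rpow_of_nonpos hτ (by linarith) (by linarith)
  have hsplit : ∀ τ, 0 < τ → (τ + t) ^ (-b) = (τ + t) * (τ + t) ^ (-(b + 1)) := fun τ hτ => by
    rw [show -b = -(b + 1) + 1 by ring, Real.rpow_add_one (by positivity), mul_comm]
  have hI : IntegrableOn (fun τ => τ ^ (a - 1) * ((b * τ - a * (τ + t)) * (τ + t) ^ (-(b + 1)))) (Ioi s) := by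
    refine Integrable.mono' ((integrableOn_Ioi_rpow_of_lt (a := a - 1 + -b) (by linarith) hs).const_mul (a + b))
      (Measurable.aestronglyMeasurable (by fun_prop)) ?_
    filter_upwards [ae_restrict_mem measurableSet_Ioi] with τ hτ
    have hτ0 : 0 < τ := hs.trans hτ
    have h1 : |b * τ - a * (τ + t)| ≤ (a + b) * (τ + t) := by
      rw [abs_le]
      constructor <;> nlinarith [mul_nonneg hb.le ht, mul_nonneg ha ht, mul_nonneg ha hτ0.le, mul_nonneg hb.le hτ0.le]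
    rw [Real.norm_eq_abs, abs_mul, abs_mul, abs_of_pos (Real.rpow_pos_of_pos hτ0 _),
      abs_of_pos (Real.rpow_pos_of_pos (by positivity) _), Real.rpow_add hτ0]
    calc τ ^ (a - 1) * (|b * τ - a * (τ + t)| * (τ + t) ^ (-(b + 1)))
        ≤ τ ^ (a - 1) * ((a + b) * (τ + t) * (τ + t) ^ (-(b + 1))) := by gcongr
      _ = (a + b) * (τ ^ (a - 1) * (τ + t) ^ (-b)) := by rw [hsplit τ hτ0]; ring
      _ ≤ (a + b) * (τ ^ (a - 1) * τ ^ (-b)) :=
        mul_le_mul_of_nonneg_left (mul_le_mul_of_nonneg_left (hle τ hτ0) (by positivity)) (by positivity)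
  refine ⟨hI, ?_⟩
  have hd : ∀ τ ∈ Ici s, HasDerivAt (fun τ => -(τ ^ a * (τ + t) ^ (-b)))
      (τ ^ (a - 1) * ((b * τ - a * (τ + t)) * (τ + t) ^ (-(b + 1)))) τ := fun τ hτ => by
    have hτ0 : 0 < τ := hs.trans_le hτ
    have h1 := Real.hasDerivAt_rpow_const (x := τ) (p := a) (Or.inl hτ0.ne')
    have h2 := ((hasDerivAt_id τ).add_const t).rpow_const (p := -b) (Or.inl (by simp only [id]; positivity))
    refine (h1.mul h2).neg.congr_deriv ?_
    simp only [id]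
    rw [hsplit τ hτ0, show -b - 1 = -(b + 1) by ring, show τ ^ a = τ ^ (a - 1) * τ by
      rw [← Real.rpow_add_one hτ0.ne', sub_add_cancel]]
    ring
  have hlim : Tendsto (fun τ : ℝ => -(τ ^ a * (τ + t) ^ (-b))) atTop (𝓝 (-0)) := by
    refine Tendsto.neg (squeeze_zero' ?_ ?_ (tendsto_rpow_neg_atTop (y := b - a) (by linarith)))
    · filter_upwards [eventually_gt_atTop 0] with τ hτ
      positivity
    · filter_upwards [eventually_gt_atTop 0] with τ hτ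
      rw [show -(b - a) = a + -b by ring, Real.rpow_add hτ]
      exact mul_le_mul_of_nonneg_left (hle τ hτ) (by positivity)
  rw [integral_Ioi_of_hasDerivAt_of_tendsto' hd hI hlim]
  ring

theorem gode_aa {n : ℕ} (hn : 3 ≤ n) : 0 < aa n := by
  have : (3 : ℝ) ≤ n := by exact_mod_cast hn
  unfold aa
  linarith

/-- pointwise primitives -/
theorem prim_one {n : ℕ} (hn : 3 ≤ n) {s t : ℝ} (hs : 0 < s) (ht : 0 ≤ t) :
    IntegrableOn (fun τ => τ ^ (aa n - 1) * (((n / 2 + 1) * τ - aa n * t) * (τ + t) ^ (-(n + 1 : ℝ))))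
      (Ioi s) ∧
    ∫ τ in Ioi s, τ ^ (aa n - 1) * (((n / 2 + 1) * τ - aa n * t) * (τ + t) ^ (-(n + 1 : ℝ)))
      = s ^ aa n * (s + t) ^ (-(n : ℝ)) := by
  have h := gode_prim (b := n) (gode_aa hn).le (by have := gode_aa hn; unfold aa at *; linarith) hs ht
  have e : ∀ τ : ℝ, (n / 2 + 1) * τ - aa n * t = n * τ - aa n * (τ + t) := fun τ => by unfold aa; ring
  simp only [e]
  exact h

theorem prim_two {n : ℕ} (hn : 3 ≤ n) {s t : ℝ} (hs : 0 < s) (ht : 0 ≤ t) :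
    IntegrableOn (fun τ => τ ^ (aa n - 1) * ((τ ^ 2 - t ^ 2) * (τ + t) ^ (-(n : ℝ)))) (Ioi s) ∧
    aa n * ∫ τ in Ioi s, τ ^ (aa n - 1) * ((τ ^ 2 - t ^ 2) * (τ + t) ^ (-(n : ℝ)))
      = s ^ aa n * (s + t) ^ (-(2 * aa n)) := by
  have ha := gode_aa hn
  obtain ⟨h1, h2⟩ := gode_prim (b := 2 * aa n) ha.le (by linarith) hs ht
  have e : EqOn (fun τ => τ ^ (aa n - 1) * ((2 * aa n * τ - aa n * (τ + t)) * (τ + t) ^ (-(2 * aa n + 1))))
      (fun τ => aa n * (τ ^ (aa n - 1) * ((τ ^ 2 - t ^ 2) * (τ + t) ^ (-(n : ℝ))))) (Ioi s) := fun τ hτ => by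
    have hτ0 : 0 < τ := hs.trans hτ
    simp only
    rw [show -(2 * aa n + 1) = -(n : ℝ) + 1 by unfold aa; ring, Real.rpow_add_one (by positivity)]
    ring
  refine ⟨?_, ?_⟩
  · have h3 := (h1.congr_fun e measurableSet_Ioi).const_mul (aa n)⁻¹
    simp only [inv_mul_cancel_left₀ ha.ne'] at h3
    exact h3
  · rw [← h2, setIntegral_congr_fun measurableSet_Ioi e, integral_const_mul]

theorem gode_lgam {a r : ℝ} (ha : 0 < a) (hr : 0 < r) :
    ∫⁻ y in Ioi (0 : ℝ), ENNReal.ofReal (y ^ (a - 1) * Real.exp (-(r * y)))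
      = ENNReal.ofReal (r ^ (-a) * Real.Gamma a) := by
  have h := Real.integral_rpow_mul_exp_neg_mul_Ioi ha hr
  rw [one_div, Real.inv_rpow hr.le, ← Real.rpow_neg hr.le] at h
  rw [← h, ofReal_integral_eq_lintegral_ofReal]
  · refine Integrable.of_integral_ne_zero ?_
    rw [h]
    have := Real.Gamma_pos_of_pos ha
    positivity
  · filter_upwards [ae_restrict_mem measurableSet_Ioi] with y hy
    have : 0 < y := hy
    positivity

theorem gode_beta {p q K : ℝ} (hp : 0 < p) (hq : 0 < q) (hK : 0 < K) :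
    (∫⁻ τ in Ioi (0 : ℝ), ENNReal.ofReal (τ ^ (p - 1) * (τ + K) ^ (-(p + q)))) * ENNReal.ofReal (Real.Gamma (p + q))
      = ENNReal.ofReal (K ^ (-q) * Real.Gamma q * Real.Gamma p) := by
  have hGp := Real.Gamma_pos_of_pos hp
  have hGq := Real.Gamma_pos_of_pos hq
  rw [← lintegral_mul_const' _ _ ENNReal.ofReal_ne_top]
  calc ∫⁻ τ in Ioi (0 : ℝ), ENNReal.ofReal (τ ^ (p - 1) * (τ + K) ^ (-(p + q))) * ENNReal.ofReal (Real.Gamma (p + q))
      = ∫⁻ τ in Ioi (0 : ℝ), ∫⁻ y in Ioi (0 : ℝ),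
          ENNReal.ofReal (τ ^ (p - 1) * (y ^ (p + q - 1) * Real.exp (-((τ + K) * y)))) := by
        refine setLIntegral_congr_fun measurableSet_Ioi fun τ hτ => ?_
        have hτ0 : 0 < τ := hτ
        simp only [ENNReal.ofReal_mul (Real.rpow_pos_of_pos hτ0 (p - 1)).le]
        rw [lintegral_const_mul' _ _ ENNReal.ofReal_ne_top, gode_lgam (by positivity) (by positivity),
          ENNReal.ofReal_mul (by positivity), mul_assoc]
    _ = ∫⁻ y in Ioi (0 : ℝ), ∫⁻ τ in Ioi (0 : ℝ),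
          ENNReal.ofReal (τ ^ (p - 1) * (y ^ (p + q - 1) * Real.exp (-((τ + K) * y)))) :=
        lintegral_lintegral_swap (Measurable.aemeasurable (by fun_prop))
    _ = ∫⁻ y in Ioi (0 : ℝ), ENNReal.ofReal (y ^ (q - 1) * Real.exp (-(K * y))) * ENNReal.ofReal (Real.Gamma p) := by
        refine setLIntegral_congr_fun measurableSet_Ioi fun y hy => ?_
        have hy0 : 0 < y := hy
        have e : ∀ τ : ℝ, τ ^ (p - 1) * (y ^ (p + q - 1) * Real.exp (-((τ + K) * y))) =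
            y ^ (p + q - 1) * Real.exp (-(K * y)) * (τ ^ (p - 1) * Real.exp (-(y * τ))) := fun τ => by
          rw [show -((τ + K) * y) = -(K * y) + -(y * τ) by ring, Real.exp_add]
          ring
        have h0 : 0 ≤ y ^ (p + q - 1) * Real.exp (-(K * y)) := by positivity
        simp only [e, ENNReal.ofReal_mul h0]
        rw [lintegral_const_mul' _ _ ENNReal.ofReal_ne_top, gode_lgam hp hy0, ← ENNReal.ofReal_mul h0,
          ← ENNReal.ofReal_mul (by positivity), show q - 1 = p + q - 1 + -p by ring, Real.rpow_add hy0]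
        congr 1
        ring
    _ = _ := by
        rw [lintegral_mul_const' _ _ ENNReal.ofReal_ne_top, gode_lgam hq hK, ← ENNReal.ofReal_mul (by positivity)]

/-- the Beta integral: `∫₀^∞ τ^(n/2) (1+τ)^(-n) = B(n/2+1, n/2-1)` (substitute in
`Complex.betaIntegral`/`Real.Gamma`, or integrate `(1+τ)^(-n) Γ(n) = ∫ y^(n-1) e^(-(1+τ) y) dy`),
`Real.Gamma_mul_Gamma_add_half`, `om_eq_Gamma`; scaling `τ = K τ'`. -/
theorem beta_sph {n : ℕ} (hn : 3 ≤ n) {K : ℝ} (hK : 0 < K) :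
    ∫⁻ τ in Ioi (0 : ℝ), ENNReal.ofReal (aa n * (τ ^ ((n : ℝ) / 2) * (τ + K) ^ (-(n : ℝ))))
      = ENNReal.ofReal (sph n / (2 ^ aa n * Cn n) * K ^ (-aa n)) := by
  have ha := gode_aa hn
  have hn0 : (0 : ℝ) < n := by exact_mod_cast (by omega : 0 < n)
  have h := gode_beta (p := (n : ℝ) / 2 + 1) (by positivity) ha hK
  rw [add_sub_cancel_right, show (n : ℝ) / 2 + 1 + aa n = n by unfold aa; ring] at h
  have hGn := Real.Gamma_pos_of_pos hn0
  have hG1 := Real.Gamma_pos_of_pos (s := (n : ℝ) / 2 + 1) (by positivity)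
  have hG2 := Real.Gamma_pos_of_pos (s := (n : ℝ) / 2 + 1 / 2) (by positivity)
  have hGa := Real.Gamma_pos_of_pos ha
  have hdup := Real.Gamma_mul_Gamma_add_half ((n : ℝ) / 2)
  have hG3 : Real.Gamma ((n : ℝ) / 2) = aa n * Real.Gamma (aa n) := by
    rw [← Real.Gamma_add_one ha.ne']
    congr 1
    unfold aa
    ring
  have hG4 : Real.Gamma (((n + 1 : ℕ) : ℝ) / 2 + 1) = (n / 2 + 1 / 2) * Real.Gamma ((n : ℝ) / 2 + 1 / 2) := by
    rw [← Real.Gamma_add_one (by positivity)]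
    congr 1
    push_cast
    ring
  have h2 : (2 : ℝ) ^ aa n * 2 ^ ((n : ℝ) / 2 + 1) * 2 ^ (1 - 2 * ((n : ℝ) / 2)) = 2 := by
    rw [← Real.rpow_add two_pos, ← Real.rpow_add two_pos,
      show aa n + ((n : ℝ) / 2 + 1) + (1 - 2 * ((n : ℝ) / 2)) = 1 by unfold aa; ring, Real.rpow_one]
  rw [hG3, show 2 * ((n : ℝ) / 2) = n by ring] at hdup
  rw [show 2 * ((n : ℝ) / 2) = n by ring] at h2
  have hπ : 0 < √Real.pi := Real.sqrt_pos.2 Real.pi_pos
  have key : sph n / (2 ^ aa n * Cn n) * Real.Gamma n = aa n * Real.Gamma (aa n) * Real.Gamma ((n : ℝ) / 2 + 1) := by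
    rw [sph_eq, Cn, om_eq_Gamma, om_eq_Gamma, hG4, pow_succ]
    have h3 : (0 : ℝ) < 2 ^ aa n := by positivity
    have h4 : (0 : ℝ) < 2 ^ ((n : ℝ) / 2 + 1) := by positivity
    generalize Real.Gamma ((n : ℝ) / 2 + 1 / 2) = G2 at *
    generalize Real.Gamma ((n : ℝ) / 2 + 1) = G1 at *
    generalize (2 : ℝ) ^ ((n : ℝ) / 2 + 1) = P2 at *
    field_simp
    linear_combination (-(2 ^ aa n * P2)) * hdup - Real.Gamma n * √Real.pi * h2
  simp only [ENNReal.ofReal_mul ha.le]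
  rw [lintegral_const_mul' _ _ ENNReal.ofReal_ne_top]
  refine (ENNReal.mul_left_inj (ENNReal.ofReal_pos.2 hGn).ne' ENNReal.ofReal_ne_top).1 ?_
  rw [mul_assoc, h, ← ENNReal.ofReal_mul ha.le, mul_comm (ENNReal.ofReal _) (ENNReal.ofReal (Real.Gamma n)),
    ← ENNReal.ofReal_mul hGn.le]
  congr 1
  linear_combination (-K ^ (-aa n)) * key

end Crest.Agent.R241
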