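import Crest.Agent.R241.G.W
import Crest.Agent.R241.G.Ode
import Crest.Agent.R241.G.Bdd

/-!
# The conformal path `u_s = u (s + t)^(-a)`.  Helper prefix `gpath_`.
-/

open MeasureTheory Set Filter Topology
open Crest.GeometryTopology.MetricCurrent
open Crest.GeometryTopology.Submanifold (Euc unitBallVol unitSphereArea)
open scoped ENNReal NNReal InnerProductSpace

noncomputable section

namespace Crest.Agent.R241

universe u

set_option linter.unusedSectionVars false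

variable {X : Type u} [MetricSpace X] [CompactSpace X] [MeasurableSpace X] [BorelSpace X]
  {Ω : Type u} [MeasurableSpace Ω] {σ Λ : ℝ} {n : ℕ} {V : VS σ Λ n X Ω}

namespace VS


variable {δ : ℝ} {u : Ω → ℝ} {ζ : Ω → Euc n}

/-- `H τ = N⁻¹ ∫ u^q (τ + t)^(-n)` -/
def HH (V : VS σ Λ n X Ω) (δ : ℝ) (u : Ω → ℝ) (l : ℝ) (x : X) (τ : ℝ) : ℝ :=
  (V.N δ u)⁻¹ * ∫ o, u o ^ qq n δ * (τ + V.tt u 0 l x o) ^ (-(n : ℝ)) ∂V.ν

theorem gpath_meas_tt (h : V.Ext δ u ζ) (l : ℝ) (x : X) : Measurable (V.tt u 0 l x) :=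
  (h.meas.pow_const _).mul (((measurable_K x).const_mul l).const_add 0)

theorem gpath_intU (hV : V.Std) (h : V.Ext δ u ζ) (hδ : δ ∈ Icc (0 : ℝ) 1) :
    Integrable (fun o => u o ^ qq n δ) V.ν := by
  obtain ⟨R, hR⟩ := h.bdd
  have hq : 0 ≤ qq n δ := by linarith [hV.qq_gt (δ := δ) (by linarith [hδ.2])]
  refine Integrable.of_bound (h.meas.pow_const _).aestronglyMeasurable (R ^ qq n δ)
    (Eventually.of_forall fun o => ?_)
  rw [Real.norm_of_nonneg (Real.rpow_nonneg (h.nonneg o) _)]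
  exact Real.rpow_le_rpow (h.nonneg o) (hR o) hq

theorem gpath_int {μ : Measure Ω} {t R : Ω → ℝ} (ht : Measurable t) (t0 : ∀ o, 0 ≤ t o) (hR : Integrable R μ)
    {φ : ℝ → ℝ} (hφ : Measurable φ) {C : ℝ} (hC : ∀ y, 0 ≤ y → |φ y| ≤ C) :
    Integrable (fun o => R o * φ (t o)) μ :=
  hR.mul_bdd (hφ.comp ht).aestronglyMeasurable (Eventually.of_forall fun o => hC _ (t0 o))

theorem gpath_anti {τ₀ τ y p : ℝ} (h0 : 0 < τ₀) (h1 : τ₀ ≤ τ) (hy : 0 ≤ y) (hp : p ≤ 0) :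
    |(τ + y) ^ p| ≤ τ₀ ^ p := by
  rw [abs_of_nonneg (Real.rpow_nonneg (by linarith) _)]
  exact Real.rpow_le_rpow_of_nonpos h0 (by linarith) hp

theorem Ext.HH_prop (hV : V.Std) (h : V.Ext δ u ζ) (hδ : δ ∈ Icc (0 : ℝ) 1) {l : ℝ} (hl : 0 < l)
    (x : X) : ContinuousOn (V.HH δ u l x) (Ioi 0) ∧ (∀ τ > 0, 0 < V.HH δ u l x τ) ∧
      ∀ τ > 0, V.HH δ u l x τ ≤ τ ^ (-(n : ℝ)) := by
  have hU := gpath_intU hV h hδ
  have mt := gpath_meas_tt h l x
  have t0 := gwb_tt_nonneg hV h.nonneg le_rfl hl.le x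
  have U0 : ∀ o, 0 ≤ u o ^ qq n δ := fun o => Real.rpow_nonneg (h.nonneg o) _
  have hn : -(n : ℝ) ≤ 0 := neg_nonpos.2 (Nat.cast_nonneg n)
  have hi : ∀ τ > 0, Integrable (fun o => u o ^ qq n δ * (τ + V.tt u 0 l x o) ^ (-(n : ℝ))) V.ν := fun τ hτ =>
    gpath_int mt t0 hU (φ := fun y => (τ + y) ^ (-(n : ℝ))) (by fun_prop) fun y hy => gpath_anti hτ le_rfl hy hn
  have hN := h.pos
  refine ⟨fun τ hτ => ContinuousAt.continuousWithinAt (continuousAt_const.mul ?_), fun τ hτ => ?_,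
    fun τ hτ => ?_⟩
  · have hτ' : 0 < τ / 2 := half_pos hτ
    refine continuousAt_of_dominated (bound := fun o => u o ^ qq n δ * (τ / 2) ^ (-(n : ℝ)))
      ((lt_mem_nhds hτ).mono fun τ' h' => (hi τ' h').1)
      ((lt_mem_nhds (half_lt_self hτ)).mono fun τ' h' => Eventually.of_forall fun o => ?_) (hU.mul_const _)
      (Eventually.of_forall fun o => continuousAt_const.mul ((continuousAt_id.add continuousAt_const).rpow_const
        (Or.inl (add_pos_of_pos_of_nonneg hτ (t0 o)).ne')))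
    rw [norm_mul, Real.norm_of_nonneg (U0 o)]
    exact mul_le_mul_of_nonneg_left (gpath_anti hτ' h'.le (t0 o) hn) (U0 o)
  · obtain ⟨C, hC⟩ := gwb_tt_le hV h.nonneg h.bdd hl.le x 0
    refine mul_pos (inv_pos.2 hN) ?_
    refine (mul_pos hN (Real.rpow_pos_of_pos (add_pos_of_pos_of_nonneg hτ (abs_nonneg C)) (-(n : ℝ)))).trans_le ?_
    rw [N, ← integral_mul_const]
    refine integral_mono (hU.mul_const _) (hi τ hτ) fun o => mul_le_mul_of_nonneg_left ?_ (U0 o)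
    exact Real.rpow_le_rpow_of_nonpos (add_pos_of_pos_of_nonneg hτ (t0 o))
      (add_le_add le_rfl ((hC 0 le_rfl le_rfl o).trans (le_abs_self C))) hn
  · rw [HH, inv_mul_le_iff₀ hN, N, ← integral_mul_const]
    exact integral_mono (hi τ hτ) (hU.mul_const _) fun o =>
      mul_le_mul_of_nonneg_left ((le_abs_self _).trans (gpath_anti hτ le_rfl (t0 o) hn)) (U0 o)

theorem gpath_fub {μ : Measure Ω} [SFinite μ] {t R : Ω → ℝ} (ht : Measurable t) (t0 : ∀ o, 0 ≤ t o)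
    (hR : Integrable R μ) {k : ℝ → ℝ → ℝ} (hk : Measurable fun q : ℝ × ℝ => k q.1 q.2) {s C p : ℝ} (hs : 0 < s)
    (hp : p < -1) (hC : ∀ τ, s < τ → ∀ y, 0 ≤ y → |k τ y| ≤ C * τ ^ p) :
    IntegrableOn (fun τ => ∫ o, R o * k τ (t o) ∂μ) (Ioi s) ∧
      ∫ o, R o * (∫ τ in Ioi s, k τ (t o)) ∂μ = ∫ τ in Ioi s, ∫ o, R o * k τ (t o) ∂μ := by
  have h1 : Integrable (fun q : Ω × ℝ => R q.1 * k q.2 (t q.1)) (μ.prod (volume.restrict (Ioi s))) := by
    refine (hR.norm.mul_prod ((integrableOn_Ioi_rpow_of_lt hp hs).const_mul C)).mono'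
      (hR.1.comp_fst.mul (hk.comp (measurable_snd.prodMk (ht.comp measurable_fst))).aestronglyMeasurable) ?_
    have h2 : ∀ᵐ q : Ω × ℝ ∂μ.prod (volume.restrict (Ioi s)), q.2 ∈ Ioi s :=
      Measure.quasiMeasurePreserving_snd.ae (ae_restrict_mem measurableSet_Ioi)
    filter_upwards [h2] with q hq
    rw [norm_mul]
    exact mul_le_mul_of_nonneg_left (hC _ hq _ (t0 _)) (norm_nonneg _)
  refine ⟨h1.integral_prod_right, ?_⟩
  rw [← integral_integral_swap (f := fun o τ => R o * k τ (t o)) h1]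
  simp only [integral_const_mul]

theorem gpath_k {a τ y p c v : ℝ} (hτ : 0 < τ) (hy : 0 ≤ y) (j : ℕ) (hp : j + p ≤ 0) (hc : 0 ≤ c)
    (hv : |v| ≤ c * (τ + y) ^ j) : |τ ^ a * (v * (τ + y) ^ p)| ≤ c * τ ^ (a + (j + p)) := by
  have h1 : 0 < τ + y := by linarith
  rw [abs_mul, abs_mul, abs_of_pos (Real.rpow_pos_of_pos hτ _), abs_of_pos (Real.rpow_pos_of_pos h1 _),
    Real.rpow_add hτ]
  calc _ ≤ τ ^ a * (c * (τ + y) ^ j * (τ + y) ^ p) := by gcongr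
    _ = c * (τ ^ a * (τ + y) ^ (j + p)) := by rw [Real.rpow_add h1, Real.rpow_natCast]; ring
    _ ≤ _ := by
      have := Real.rpow_le_rpow_of_nonpos hτ (le_add_of_nonneg_right hy) hp
      gcongr

theorem gpath_upper (hV : V.Std) (h : V.Ext δ u ζ) (hδ : δ ∈ Icc (0 : ℝ) 1) {l : ℝ} (hl : 0 < l)
    (x : X) {s : ℝ} (hs : 0 < s) :
    s ^ aa n * (cz n * ∫ o, u o ^ qq n δ * (s + V.tt u 0 l x o) ^ (-(2 * aa n)) ∂V.ν + aa n ^ 2 *
      ∫ o, V.ww u o ^ 2 * ‖V.rr u ζ 0 l x o‖ ^ 2 * (s + V.tt u 0 l x o) ^ (-(n : ℝ)) ∂V.ν)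
      ≤ cz n * V.N δ u * (aa n * ∫ τ in Ioi s, τ ^ ((n : ℝ) / 2) * V.HH δ u l x τ) := by
  have hU := gpath_intU hV h hδ
  have hR := h.integrable_rr hV 0 l x
  have mt := gpath_meas_tt h l x
  have t0 := gwb_tt_nonneg hV h.nonneg le_rfl hl.le x
  have ha := hV.aa_pos
  have hc := hV.cz_pos
  have hN := h.pos
  have hn : (n : ℝ) = 2 * aa n + 2 := by unfold aa; ring
  have b1 : ∀ τ, 0 < τ → ∀ y, 0 ≤ y →
      |τ ^ (aa n - 1) * (((n / 2 + 1) * τ - aa n * y) * (τ + y) ^ (-(n + 1 : ℝ)))| ≤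
        n * τ ^ (aa n - 1 + ((1 : ℕ) + -(n + 1 : ℝ))) := fun τ hτ y hy =>
    gpath_k hτ hy 1 (by push_cast; linarith) (by linarith) (by
      rw [pow_one, abs_le]
      constructor <;> nlinarith [mul_pos ha hτ, mul_nonneg ha.le hy])
  have b2 : ∀ (c d : ℝ), |c| ≤ 1 → |d| ≤ 1 → ∀ τ, 0 < τ → ∀ y, 0 ≤ y →
      |τ ^ (aa n - 1) * ((c * τ ^ 2 + d * y ^ 2) * (τ + y) ^ (-(n : ℝ)))| ≤
        1 * τ ^ (aa n - 1 + ((2 : ℕ) + -(n : ℝ))) := fun c d h1 h2 τ hτ y hy =>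
    gpath_k hτ hy 2 (by push_cast; linarith) zero_le_one (by
      refine (abs_add_le _ _).trans ?_
      rw [abs_mul, abs_mul, abs_sq, abs_sq]
      nlinarith [mul_nonneg hτ.le hy, mul_le_mul_of_nonneg_right h1 (sq_nonneg τ),
        mul_le_mul_of_nonneg_right h2 (sq_nonneg y)])
  obtain ⟨i1, f1⟩ := gpath_fub mt t0 hR
    (k := fun τ y => τ ^ (aa n - 1) * (((n / 2 + 1) * τ - aa n * y) * (τ + y) ^ (-(n + 1 : ℝ))))
    (by fun_prop) hs (by push_cast; linarith) fun τ hτ => b1 τ (hs.trans hτ)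
  have f23 := fun (c d : ℝ) (h1 : |c| ≤ 1) (h2 : |d| ≤ 1) => gpath_fub mt t0 hU
    (k := fun τ y => τ ^ (aa n - 1) * ((c * τ ^ 2 + d * y ^ 2) * (τ + y) ^ (-(n : ℝ))))
    (by fun_prop) hs (by push_cast; linarith) fun τ hτ => b2 c d h1 h2 τ (hs.trans hτ)
  obtain ⟨i2, f2⟩ := f23 1 (-1) (by simp) (by simp)
  obtain ⟨i3, -⟩ := f23 1 0 (by simp) (by simp)
  have e1 := Eq.trans (a := s ^ aa n * ∫ o, V.ww u o ^ 2 * ‖V.rr u ζ 0 l x o‖ ^ 2 *
      (s + V.tt u 0 l x o) ^ (-(n : ℝ)) ∂V.ν) (by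
    rw [← integral_const_mul]
    refine integral_congr_ae (Eventually.of_forall fun o => ?_)
    simp only [(prim_one hV.hn hs (t0 o)).2]
    ring) f1
  have e2 := Eq.trans (a := s ^ aa n * ∫ o, u o ^ qq n δ * (s + V.tt u 0 l x o) ^ (-(2 * aa n)) ∂V.ν) (by
    rw [← integral_const_mul, ← integral_const_mul]
    refine integral_congr_ae (Eventually.of_forall fun o => ?_)
    have := (prim_two hV.hn hs (t0 o)).2
    simp only [one_mul, neg_mul, ← sub_eq_add_neg]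
    linear_combination (-(u o ^ qq n δ)) * this) (congrArg (aa n * ·) f2)
  have e3 : V.N δ u * ∫ τ in Ioi s, τ ^ ((n : ℝ) / 2) * V.HH δ u l x τ = ∫ τ in Ioi s, ∫ o, u o ^ qq n δ *
      (τ ^ (aa n - 1) * ((1 * τ ^ 2 + 0 * V.tt u 0 l x o ^ 2) * (τ + V.tt u 0 l x o) ^ (-(n : ℝ)))) ∂V.ν := by
    rw [← integral_const_mul]
    refine setIntegral_congr_fun measurableSet_Ioi fun τ hτ => ?_
    have e : τ ^ ((n : ℝ) / 2) = τ ^ (aa n - 1) * τ ^ 2 := by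
      rw [← Real.rpow_natCast, ← Real.rpow_add (hs.trans hτ)]
      congr 1
      push_cast
      linarith
    simp only [HH]
    rw [mul_left_comm, mul_inv_cancel_left₀ hN.ne', ← integral_const_mul, e]
    refine integral_congr_ae (Eventually.of_forall fun o => ?_)
    simp only
    ring
  rw [mul_add, mul_left_comm, e2, mul_left_comm _ (aa n ^ 2), e1, mul_assoc (cz n), mul_left_comm (V.N δ u), e3,
    ← mul_assoc, ← mul_assoc, ← integral_const_mul, ← integral_const_mul, ← integral_const_mul,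
    ← integral_add (i2.const_mul _) (i1.const_mul _)]
  refine setIntegral_mono_on ((i2.const_mul _).add (i1.const_mul _)) (i3.const_mul _) measurableSet_Ioi
    fun τ hτ => ?_
  have hτ0 : 0 < τ := hs.trans hτ
  have j := fun (c d : ℝ) (h1 : |c| ≤ 1) (h2 : |d| ≤ 1) => gpath_int mt t0 hU
    (φ := fun y => τ ^ (aa n - 1) * ((c * τ ^ 2 + d * y ^ 2) * (τ + y) ^ (-(n : ℝ)))) (by fun_prop)
    (b2 c d h1 h2 τ hτ0)
  have w := mul_le_mul_of_nonneg_left (h.W0 hV hδ hl x hτ0) (Real.rpow_pos_of_pos hτ0 (aa n - 1)).le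
  rw [mul_left_comm, ← integral_const_mul, ← integral_const_mul] at w
  have g1 : ∫ o, u o ^ qq n δ * (τ ^ (aa n - 1) * ((1 * τ ^ 2 + 0 * V.tt u 0 l x o ^ 2) *
      (τ + V.tt u 0 l x o) ^ (-(n : ℝ)))) ∂V.ν = ∫ o, u o ^ qq n δ * (τ ^ (aa n - 1) *
        ((1 * τ ^ 2 + -1 * V.tt u 0 l x o ^ 2) * (τ + V.tt u 0 l x o) ^ (-(n : ℝ)))) ∂V.ν +
      ∫ o, u o ^ qq n δ * (τ ^ (aa n - 1) * ((0 * τ ^ 2 + 1 * V.tt u 0 l x o ^ 2) *
        (τ + V.tt u 0 l x o) ^ (-(n : ℝ)))) ∂V.ν := by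
    rw [← integral_add (j 1 (-1) (by simp) (by simp)) (j 0 1 (by simp) (by simp))]
    exact integral_congr_ae (Eventually.of_forall fun o => by simp only; ring)
  have g2 : ∫ o, V.ww u o ^ 2 * ‖V.rr u ζ 0 l x o‖ ^ 2 * (τ ^ (aa n - 1) * (((n / 2 + 1) * τ -
      aa n * V.tt u 0 l x o) * (τ + V.tt u 0 l x o) ^ (-(n + 1 : ℝ)))) ∂V.ν ≤
      (n : ℝ) / 2 * ∫ o, u o ^ qq n δ * (τ ^ (aa n - 1) * ((0 * τ ^ 2 + 1 * V.tt u 0 l x o ^ 2) *
        (τ + V.tt u 0 l x o) ^ (-(n : ℝ)))) ∂V.ν := by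
    refine le_of_eq_of_le (integral_congr_ae (Eventually.of_forall fun o => ?_)) (le_of_le_of_eq w
      (congrArg ((n : ℝ) / 2 * ·) (integral_congr_ae (Eventually.of_forall fun o => ?_)))) <;>
      beta_reduce <;> ring
  rw [g1, cz_eq]
  linarith [mul_le_mul_of_nonneg_left g2 (sq_nonneg (aa n))]

/-- `ground` with `G = (s + ·)^(-a)`; `prim_one`, `prim_two`, Fubini and `W0` give
`s^a B(u_s) ≤ c₀ N a ∫_s^∞ τ^(n/2) H τ` (`a² (n/2) = a c₀`); `min` and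
`(s+t)^(-a q) ≥ s^δ (s+t)^(-n)` give the lower bound. -/
theorem Ext.path_ineq (hV : V.Std) (h : V.Ext δ u ζ) (hδ : δ ∈ Icc (0 : ℝ) 1) {l : ℝ} (hl : 0 < l)
    (x : X) {s : ℝ} (hs : 0 < s) :
    s ^ aa n * (s ^ δ * V.HH δ u l x s) ^ (2 / qq n δ)
      ≤ aa n * ∫ τ in Ioi s, τ ^ ((n : ℝ) / 2) * V.HH δ u l x τ := by
  have hU := gpath_intU hV h hδ
  have mt := gpath_meas_tt h l x
  have t0 := gwb_tt_nonneg hV h.nonneg le_rfl hl.le x
  have tp : ∀ o, 0 < s + V.tt u 0 l x o := fun o => add_pos_of_pos_of_nonneg hs (t0 o)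
  have U0 : ∀ o, 0 ≤ u o ^ qq n δ := fun o => Real.rpow_nonneg (h.nonneg o) _
  have ha := hV.aa_pos
  have hc := hV.cz_pos
  have hN := h.pos
  have hq : 0 < qq n δ := by linarith [hV.qq_gt (δ := δ) (by linarith [hδ.2])]
  have hn : (n : ℝ) = 2 * aa n + 2 := by unfold aa; ring
  have hG : ∀ y ∈ Ioi (-s), HasDerivAt (fun y => (s + y) ^ (-aa n)) (-aa n * (s + y) ^ (-aa n - 1)) y :=
    fun y hy => by
      simpa using ((hasDerivAt_id y).const_add s).rpow_const (p := -aa n)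
        (Or.inl (neg_lt_iff_pos_add'.1 hy).ne')
  have hG' : ContinuousOn (fun y => -aa n * (s + y) ^ (-aa n - 1)) (Ioi (-s)) :=
    continuousOn_const.mul ((continuousOn_const.add continuousOn_id).rpow_const
      fun y hy => Or.inl (neg_lt_iff_pos_add'.1 hy).ne')
  have h1 := h.min _ _ (h.inH.pow hV h.nonneg h.bdd le_rfl hl.le x hs hG hG')
    (gwb_bdd hV h.nonneg h.bdd le_rfl hl.le x hs fun y hy => (hG y hy).continuousAt.continuousWithinAt)
    fun o => mul_nonneg (h.nonneg o) (Real.rpow_nonneg (tp o).le _)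
  rw [h.ground hV hδ le_rfl hl.le x hs hG hG'] at h1
  have e1 : ∀ o, ((s + V.tt u 0 l x o) ^ (-aa n)) ^ 2 = (s + V.tt u 0 l x o) ^ (-(2 * aa n)) := fun o => by
    rw [← Real.rpow_natCast, ← Real.rpow_mul (tp o).le]
    congr 1
    push_cast
    ring
  have e2 : ∀ o, (-aa n * (s + V.tt u 0 l x o) ^ (-aa n - 1)) ^ 2 * (V.ww u o ^ 2 * ‖V.rr u ζ 0 l x o‖ ^ 2) =
      aa n ^ 2 * (V.ww u o ^ 2 * ‖V.rr u ζ 0 l x o‖ ^ 2 * (s + V.tt u 0 l x o) ^ (-(n : ℝ))) := fun o => by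
    rw [mul_pow, ← Real.rpow_natCast (_ ^ _), ← Real.rpow_mul (tp o).le,
      show (-aa n - 1) * ((2 : ℕ) : ℝ) = -(n : ℝ) by push_cast; linarith]
    ring
  simp only [e1, e2] at h1
  rw [integral_const_mul] at h1
  have hH := (h.HH_prop hV hδ hl x).2.1 s hs
  have h2 : V.N δ u * (s ^ δ * V.HH δ u l x s) ≤ V.N δ fun o => u o * (s + V.tt u 0 l x o) ^ (-aa n) := by
    have e3 : ∀ o, (u o * (s + V.tt u 0 l x o) ^ (-aa n)) ^ qq n δ =
        u o ^ qq n δ * (s + V.tt u 0 l x o) ^ (δ + -(n : ℝ)) := fun o => by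
      rw [Real.mul_rpow (h.nonneg o) (Real.rpow_nonneg (tp o).le _), ← Real.rpow_mul (tp o).le, neg_mul,
        hV.aa_mul_qq]
      congr 2
      ring
    rw [HH, mul_left_comm, mul_inv_cancel_left₀ hN.ne', ← integral_const_mul, N]
    simp only [e3]
    refine integral_mono_of_nonneg (Eventually.of_forall fun o => ?_)
      (gpath_int mt t0 hU (φ := fun y => (s + y) ^ (δ + -(n : ℝ))) (by fun_prop)
        fun y hy => gpath_anti hs le_rfl hy (by linarith [hδ.2])) (Eventually.of_forall fun o => ?_)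
    · exact mul_nonneg (Real.rpow_nonneg hs.le _) (mul_nonneg (U0 o) (Real.rpow_nonneg (tp o).le _))
    · simp only
      rw [Real.rpow_add (tp o), mul_left_comm]
      exact mul_le_mul_of_nonneg_left (mul_le_mul_of_nonneg_right
        (Real.rpow_le_rpow hs.le (le_add_of_nonneg_right (t0 o)) hδ.1) (Real.rpow_nonneg (tp o).le _)) (U0 o)
  have h0 : 0 ≤ s ^ δ * V.HH δ u l x s := by positivity
  have h3 := Real.rpow_le_rpow (mul_nonneg hN.le h0) h2 (by positivity : 0 ≤ 2 / qq n δ)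
  rw [Real.mul_rpow hN.le h0] at h3
  have h4 := Eq.trans_le (a := cz n * V.N δ u * (s ^ δ * V.HH δ u l x s) ^ (2 / qq n δ)) (by
    rw [mul_assoc (cz n), mul_assoc (cz n), ← mul_assoc (_ ^ _), ← Real.rpow_add hN, sub_add_cancel,
      Real.rpow_one]) ((mul_le_mul_of_nonneg_left h3 (by positivity)).trans h1)
  have h5 := (mul_le_mul_of_nonneg_left h4 (Real.rpow_pos_of_pos hs (aa n)).le).trans
    (gpath_upper hV h hδ hl x hs)
  rw [mul_left_comm] at h5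
  exact le_of_mul_le_mul_left h5 (by positivity)

theorem gpath_b_int (hn : 3 ≤ n) {H : ℝ → ℝ} (hH : ContinuousOn H (Ioi 0)) (hH0 : ∀ τ > 0, 0 < H τ)
    (hH1 : ∀ τ > 0, H τ ≤ τ ^ (-(n : ℝ))) {s : ℝ} (hs : 0 < s) :
    IntegrableOn (fun τ => τ ^ ((n : ℝ) / 2) * H τ) (Ioi s) ∧
      ∀ᵐ τ ∂volume.restrict (Ioi s), 0 ≤ τ ^ ((n : ℝ) / 2) * H τ := by
  have hn' : (3 : ℝ) ≤ n := by exact_mod_cast hn
  have h0 : ∀ τ ∈ Ioi s, 0 ≤ τ ^ ((n : ℝ) / 2) * H τ := fun τ hτ =>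
    mul_nonneg (Real.rpow_nonneg (hs.trans hτ).le _) (hH0 τ (hs.trans hτ)).le
  have hc : ContinuousOn (fun τ : ℝ => τ ^ ((n : ℝ) / 2) * H τ) (Ioi s) :=
    (continuousOn_id.rpow_const fun τ hτ => Or.inl (hs.trans hτ).ne').mul (hH.mono (Ioi_subset_Ioi hs.le))
  refine ⟨(integrableOn_Ioi_rpow_of_lt (a := (n : ℝ) / 2 + -(n : ℝ)) (by linarith) hs).mono'
    (hc.aestronglyMeasurable measurableSet_Ioi) (ae_restrict_of_forall_mem measurableSet_Ioi fun τ hτ => ?_),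
    ae_restrict_of_forall_mem measurableSet_Ioi h0⟩
  rw [Real.norm_of_nonneg (h0 τ hτ), Real.rpow_add (hs.trans hτ)]
  exact mul_le_mul_of_nonneg_left (hH1 τ (hs.trans hτ)) (Real.rpow_nonneg (hs.trans hτ).le _)

theorem gpath_b_iu (hV : V.Std) (h : V.Ext δ u ζ) (hδ : δ ∈ Icc (0 : ℝ) 1) {g : Ω → ℝ} (hg : Measurable g)
    {C : ℝ} (hC : ∀ o, |g o| ≤ C) : Integrable (fun o => u o ^ qq n δ * g o) V.ν := by
  obtain ⟨R, hR⟩ := h.bdd
  have hq := hV.qq_gt (δ := δ) (by linarith [hδ.2])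
  refine (integrable_const (R ^ qq n δ * C)).mono' ((h.meas.pow_const _).mul hg).aestronglyMeasurable
    (ae_of_all _ fun o => ?_)
  rw [norm_mul, Real.norm_of_nonneg (Real.rpow_nonneg (h.nonneg o) _)]
  exact mul_le_mul (Real.rpow_le_rpow (h.nonneg o) (hR o) (by linarith)) (hC o) (abs_nonneg _)
    (Real.rpow_nonneg ((h.nonneg o).trans (hR o)) _)

theorem gpath_b_ih (hV : V.Std) (h : V.Ext δ u ζ) (hδ : δ ∈ Icc (0 : ℝ) 1) {l : ℝ} (hl : 0 ≤ l) (x : X) {τ : ℝ}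
    (hτ : 0 < τ) : Integrable (fun o => u o ^ qq n δ * (τ + V.tt u 0 l x o) ^ (-(n : ℝ))) V.ν := by
  have mt : Measurable (V.tt u 0 l x) := (h.meas.pow_const _).mul (((measurable_K x).const_mul l).const_add 0)
  refine gpath_b_iu hV h hδ ((mt.const_add τ).pow_const _) (C := τ ^ (-(n : ℝ))) fun o => ?_
  have := gwb_tt_nonneg hV h.nonneg le_rfl hl x o
  rw [abs_of_nonneg (Real.rpow_nonneg (by linarith) _)]
  exact Real.rpow_le_rpow_of_nonpos hτ (by linarith) (by simp)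

/-- `s → 0`: monotone convergence, Tonelli, `beta_sph`, `pole` (`t^(-a) = (u o u o')⁻¹ κ^(-a)` where
`u o' > 0`, `κ > 0`). -/
theorem Ext.path_zero (hV : V.Std) (h : V.Ext δ u ζ) (hδ : δ ∈ Icc (0 : ℝ) 1) :
    ∀ᵐ o ∂V.ν, 0 < u o → ∀ y : ℝ,
      (∀ s > 0, aa n * ∫ τ in Ioi s, τ ^ ((n : ℝ) / 2) * V.HH δ u (V.ww u o) (V.p o) τ ≤ y) →
      sph n / (2 ^ aa n * V.N δ u) ≤ y := by
  filter_upwards [h.pole hV hδ] with o ho hu y hy
  have ha := hV.aa_pos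
  have hN := h.pos
  have hC := Cn_pos n
  have hs := sph_pos n
  have hq := hV.qq_gt (δ := δ) (by linarith [hδ.2])
  have hl : 0 < V.ww u o := Real.rpow_pos_of_pos hu _
  obtain ⟨h1, h2, h3⟩ := h.HH_prop hV hδ hl (V.p o)
  have hy0 : 0 ≤ y :=
    (mul_nonneg ha.le (integral_nonneg_of_ae (gpath_b_int hV.hn h1 h2 h3 one_pos).2)).trans (hy 1 one_pos)
  have mt : Measurable (V.tt u 0 (V.ww u o) (V.p o)) :=
    (h.meas.pow_const _).mul (((measurable_K _).const_mul _).const_add 0)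
  have t0 := gwb_tt_nonneg hV h.nonneg le_rfl hl.le (V.p o)
  have up : ∫⁻ τ in Ioi (0 : ℝ), ENNReal.ofReal (aa n * (τ ^ ((n : ℝ) / 2) * V.HH δ u (V.ww u o) (V.p o) τ))
      ≤ ENNReal.ofReal y := by
    have e : Ioi (0 : ℝ) = ⋃ j : ℕ, Ioi (1 / ((j : ℝ) + 1)) := by
      ext τ
      simp only [mem_iUnion, mem_Ioi]
      exact ⟨exists_nat_one_div_lt, fun ⟨j, hj⟩ => Nat.one_div_pos_of_nat.trans hj⟩
    rw [e, setLIntegral_iUnion_of_directed _ (Monotone.directed_le fun i j hij =>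
      Ioi_subset_Ioi (Nat.one_div_le_one_div hij))]
    refine iSup_le fun j => ?_
    obtain ⟨i1, i2⟩ := gpath_b_int hV.hn h1 h2 h3 (Nat.one_div_pos_of_nat (n := j))
    rw [← ofReal_integral_eq_lintegral_ofReal (i1.const_mul _) (i2.mono fun τ hτ => mul_nonneg ha.le hτ),
      integral_const_mul]
    exact ENNReal.ofReal_le_ofReal (hy _ Nat.one_div_pos_of_nat)
  have e1 : ∀ τ ∈ Ioi (0 : ℝ), ENNReal.ofReal (aa n * (τ ^ ((n : ℝ) / 2) * V.HH δ u (V.ww u o) (V.p o) τ)) =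
      ∫⁻ o', ENNReal.ofReal ((V.N δ u)⁻¹ * u o' ^ qq n δ) * ENNReal.ofReal (aa n * (τ ^ ((n : ℝ) / 2) *
        (τ + V.tt u 0 (V.ww u o) (V.p o) o') ^ (-(n : ℝ)))) ∂V.ν := fun τ hτ => by
    have hτ' : 0 < τ := hτ
    rw [HH, ← mul_assoc, ← mul_assoc, ← integral_const_mul, ofReal_integral_eq_lintegral_ofReal
      ((gpath_b_ih hV h hδ hl.le _ hτ).const_mul _) (ae_of_all _ fun o' => by
        have := h.nonneg o'
        have := t0 o'
        positivity)]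
    refine lintegral_congr fun o' => ?_
    rw [← ENNReal.ofReal_mul (mul_nonneg (inv_pos.2 hN).le (Real.rpow_nonneg (h.nonneg o') _))]
    congr 1
    ring
  have hm := h.meas
  rw [setLIntegral_congr_fun measurableSet_Ioi e1, lintegral_lintegral_swap (Measurable.aemeasurable (by
    unfold Function.uncurry; fun_prop))] at up
  rw [← ENNReal.ofReal_le_ofReal_iff hy0]
  refine le_trans ?_ up
  have e2 : sph n / (2 ^ aa n * V.N δ u) = (V.N δ u)⁻¹ * (sph n / (2 ^ aa n * Cn n)) / u o * (Cn n * u o) := by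
    field_simp
  rw [e2, ENNReal.ofReal_mul (by positivity)]
  refine (mul_le_mul_right ho _).trans ?_
  rw [← lintegral_const_mul' _ _ ENNReal.ofReal_ne_top]
  refine lintegral_mono fun o' => ?_
  rw [lintegral_const_mul' _ _ ENNReal.ofReal_ne_top]
  rcases (h.nonneg o').eq_or_lt with hu' | hu'
  · rw [← hu', Real.zero_rpow (by linarith), ENNReal.ofReal_zero, zero_mul, mul_zero]
    exact zero_le
  rcases (K_nonneg (V := V) hV.hσ (V.p o) o').eq_or_lt with hK | hK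
  · rw [kk, ← hK, Real.zero_rpow (by linarith), ENNReal.ofReal_zero, mul_zero, mul_zero]
    exact zero_le
  have hw : 0 < V.ww u o' := Real.rpow_pos_of_pos hu' _
  have ew : ∀ z : ℝ, 0 < z → (z ^ (1 / aa n)) ^ (-aa n) = z⁻¹ := fun z hz => by
    rw [← Real.rpow_mul hz.le, show 1 / aa n * -aa n = -1 by field_simp, Real.rpow_neg_one]
  rw [beta_sph hV.hn (K := V.tt u 0 (V.ww u o) (V.p o) o') (by unfold tt; positivity), kk,
    ← ENNReal.ofReal_mul (by positivity), ← ENNReal.ofReal_mul (by positivity), ← ENNReal.ofReal_mul (by positivity)]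
  refine ENNReal.ofReal_le_ofReal (le_of_eq ?_)
  rw [tt, zero_add, Real.mul_rpow hw.le (by positivity), Real.mul_rpow hl.le hK.le, ww, ww, ew _ hu, ew _ hu',
    Real.rpow_sub_one hu'.ne']
  ring

theorem gpath_b_pt (n : ℕ) {S τ K L t : ℝ} (hS : 0 < S) (hτ : S ≤ τ) (h0 : 0 ≤ K) (hL : K ≤ L) (ht : K ≤ t) :
    (τ + t) ^ (-(n : ℝ)) ≤ τ ^ (-(n : ℝ)) - n * (1 + L / S) ^ (-(n + 1 : ℝ)) * τ ^ (-(n + 1 : ℝ)) * K := by
  have hτ0 : 0 < τ := hS.trans_le hτ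
  have hL0 : 0 ≤ L := h0.trans hL
  have hr : 0 < τ + K := by linarith
  have hn : (0 : ℝ) ≤ n := n.cast_nonneg
  have b1 : (τ + t) ^ (-(n : ℝ)) ≤ (τ + K) ^ (-(n : ℝ)) := Real.rpow_le_rpow_of_nonpos hr (by linarith) (by linarith)
  have b2 : (1 + L / S) ^ (-(n + 1 : ℝ)) * τ ^ (-(n + 1 : ℝ)) ≤ (τ + K) ^ (-(n : ℝ)) / τ := by
    rw [← Real.mul_rpow (by positivity) hτ0.le]
    have : L ≤ L / S * τ := by
      rw [div_mul_eq_mul_div, le_div_iff₀ hS]; exact mul_le_mul_of_nonneg_left hτ hL0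
    refine (Real.rpow_le_rpow_of_nonpos hr (by linarith) (by linarith)).trans ?_
    rw [show -((n : ℝ) + 1) = -(n : ℝ) - 1 by ring, Real.rpow_sub_one hr.ne']
    exact div_le_div_of_nonneg_left (Real.rpow_nonneg hr.le _) hτ0 (by linarith)
  have e : τ ^ (-(n : ℝ)) = (τ + K) ^ (-(n : ℝ)) * (1 + K / τ) ^ n := by
    rw [Real.rpow_neg hτ0.le, Real.rpow_neg hr.le, Real.rpow_natCast, Real.rpow_natCast,
      show 1 + K / τ = (τ + K) / τ by field_simp, div_pow]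
    field_simp
  have b3 := mul_le_mul_of_nonneg_left (one_add_mul_le_pow (a := K / τ)
    (by linarith [div_nonneg h0 hτ0.le]) n) (Real.rpow_nonneg hr.le (-(n : ℝ)))
  have b4 := mul_le_mul_of_nonneg_left b2 (mul_nonneg hn h0)
  rw [e]
  have e2 : (τ + K) ^ (-(n : ℝ)) * (1 + n * (K / τ)) =
      (τ + K) ^ (-(n : ℝ)) + n * K * ((τ + K) ^ (-(n : ℝ)) / τ) := by ring
  linarith

/-- `ode_path`, `ode_end` with `k = E K' (1 + L/S)^(-n-1)`
(`τ^(-n) - (τ+K')^(-n) ≥ n K' (τ+K')^(-n-1)`), `path_zero`. -/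
theorem Ext.path (hV : V.Std) (h : V.Ext δ u ζ) (hδ : δ ∈ Icc (0 : ℝ) 1) :
    ∀ᵐ o ∂V.ν, 0 < u o → ∀ (K' : Ω → ℝ) (L : ℝ), Measurable K' →
      (∀ o', 0 ≤ K' o' ∧ K' o' ≤ L ∧ K' o' ≤ V.tt u 0 (V.ww u o) (V.p o) o') → ∀ S > 0,
      2 * ((V.N δ u)⁻¹ * ∫ o', u o' ^ qq n δ * K' o' ∂V.ν) * (1 - δ / 2) * S ^ (-δ / 2)
          * (1 + L / S) ^ (-(n + 1 : ℝ))
        ≤ (2 ^ aa n * V.N δ u / sph n) ^ (qq n δ / 2 - 1) := by
  filter_upwards [h.path_zero hV hδ] with o ho hu K' L hm hK S hS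
  have ha := hV.aa_pos
  have hN := h.pos
  have hs := sph_pos n
  have hq := hV.qq_gt (δ := δ) (by linarith [hδ.2])
  have hl : 0 < V.ww u o := Real.rpow_pos_of_pos hu _
  have hL : 0 ≤ L := (hK o).1.trans (hK o).2.1
  obtain ⟨h1, h2, h3⟩ := h.HH_prop hV hδ hl (V.p o)
  have iK := gpath_b_iu hV h hδ hm (C := L) fun o' => by rw [abs_of_nonneg (hK o').1]; exact (hK o').2.1
  have i1 := gpath_b_iu hV h hδ (measurable_const (a := (1 : ℝ))) (C := 1) fun o' => by simp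
  simp only [mul_one] at i1
  set E := ∫ o', u o' ^ qq n δ * K' o' ∂V.ν with hE
  have hE0 : 0 ≤ E := integral_nonneg fun o' => mul_nonneg (Real.rpow_nonneg (h.nonneg o') _) (hK o').1
  have hend := ode_end hV.hn hδ h1 h2 hS (k := (V.N δ u)⁻¹ * E * (1 + L / S) ^ (-(n + 1 : ℝ))) (by positivity)
    fun τ hτ => by
      have b := integral_mono (gpath_b_ih hV h hδ hl.le (V.p o) (hS.trans_le hτ))
        ((i1.mul_const (τ ^ (-(n : ℝ)))).sub
          (iK.const_mul (n * (1 + L / S) ^ (-(n + 1 : ℝ)) * τ ^ (-(n + 1 : ℝ))))) fun o' => by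
        have := mul_le_mul_of_nonneg_left (gpath_b_pt n hS hτ (hK o').1 (hK o').2.1 (hK o').2.2)
          (Real.rpow_nonneg (h.nonneg o') (qq n δ))
        simp only [Pi.sub_apply]
        linarith
      simp only [Pi.sub_apply] at b
      rw [integral_sub (i1.mul_const _) (iK.const_mul _), integral_mul_const, integral_const_mul] at b
      refine (mul_le_mul_of_nonneg_left b (inv_pos.2 hN).le).trans (le_of_eq ?_)
      rw [← hE, show ∫ o', u o' ^ qq n δ ∂V.ν = V.N δ u from rfl]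
      field_simp
  set D := 2 * ((V.N δ u)⁻¹ * E) * (1 - δ / 2) * S ^ (-δ / 2) * (1 + L / S) ^ (-(n + 1 : ℝ)) with hD
  rw [show 2 * ((V.N δ u)⁻¹ * E * (1 + L / S) ^ (-(n + 1 : ℝ))) * (1 - δ / 2) * S ^ (-δ / 2) = D by
    rw [hD]; ring] at hend
  rcases le_or_gt D 0 with hD0 | hD0
  · exact hD0.trans (by positivity)
  have hz : 1 - qq n δ / 2 < 0 := by linarith
  have key : ∀ s, 0 < s → s ≤ S → aa n * ∫ τ in Ioi s, τ ^ ((n : ℝ) / 2) * V.HH δ u (V.ww u o) (V.p o) τ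
      ≤ D ^ (1 - qq n δ / 2)⁻¹ := fun s hs0 hsS => by
    have b := hend.trans (ode_path hV.hn hδ h1 h2 h3 (fun s hs => h.path_ineq hV hδ hl _ hs) hs0 hsS)
    rcases le_or_gt (aa n * ∫ τ in Ioi s, τ ^ ((n : ℝ) / 2) * V.HH δ u (V.ww u o) (V.p o) τ) 0 with h0 | h0
    · exact h0.trans (Real.rpow_nonneg hD0.le _)
    · exact (Real.le_rpow_inv_iff_of_neg h0 hD0 hz).2 b
  have := ho hu (D ^ (1 - qq n δ / 2)⁻¹) fun s hs0 => by
    rcases le_total s S with hsS | hsS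
    · exact key s hs0 hsS
    · obtain ⟨j1, j2⟩ := gpath_b_int hV.hn h1 h2 h3 hS
      exact (mul_le_mul_of_nonneg_left (setIntegral_mono_set j1 j2 (Ioi_subset_Ioi hsS).eventuallyLE)
        ha.le).trans (key S hS le_rfl)
  rw [Real.le_rpow_inv_iff_of_neg (by positivity) hD0 hz] at this
  rwa [← inv_div, Real.inv_rpow (by positivity), ← Real.rpow_neg (by positivity), neg_sub]


end VS

end Crest.Agent.R241
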