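import Crest.Agent.R241.G.H3

/-!
# Upper regularity and kernel integrals.  Helper prefix `greg_`.
-/

open MeasureTheory Set Filter Topology
open Crest.GeometryTopology.MetricCurrent
open Crest.GeometryTopology.Submanifold (Euc unitBallVol unitSphereArea)
open scoped ENNReal NNReal InnerProductSpace

noncomputable section

namespace Crest.Agent.R241

universe u

set_option linter.unusedSectionVars false

variable {X : Type u} [MetricSpace X] [CompactSpace X] [MeasurableSpace X] [BorelSpace X]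
  {Ω : Type u} [MeasurableSpace Ω] {σ Λ : ℝ} {n : ℕ} {V : VS σ Λ n X Ω}

namespace VS


theorem grega_bern {W e a : ℝ} (hW : 0 < W) (he : 0 ≤ e) (ha : 0 ≤ a) :
    W ^ (-a) ≤ (W + e) ^ (-a) + a * e * W ^ (-(a + 1)) := by
  have h1 : 1 - a * (e / W) ≤ (1 + e / W) ^ (-a) := by
    rw [Real.rpow_def_of_pos (by positivity)]
    have h2 := Real.log_le_sub_one_of_pos (x := 1 + e / W) (by positivity)
    nlinarith [Real.add_one_le_exp (Real.log (1 + e / W) * -a)]
  rw [show W + e = W * (1 + e / W) by field_simp, Real.mul_rpow hW.le (by positivity), neg_add,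
    Real.rpow_add hW, Real.rpow_neg_one]
  have h3 := mul_le_mul_of_nonneg_left h1 (Real.rpow_pos_of_pos hW (-a)).le
  rw [div_eq_mul_inv] at h3 ⊢
  linarith

theorem grega_le (hσ : 0 ≤ σ) {e s β : ℝ} (hs : 0 < s) (he : s ≤ e) (hβ : 0 ≤ β) (x : X) (o : Ω) :
    (e + V.K x o) ^ (-β) ≤ s ^ (-β) :=
  Real.rpow_le_rpow_of_nonpos hs (by linarith [V.K_nonneg hσ x o]) (by linarith)

theorem grega_int (hσ : 0 ≤ σ) {e β : ℝ} (he : 0 < e) (hβ : 0 ≤ β) (x : X) :
    Integrable (fun o => (e + V.K x o) ^ (-β)) V.ν :=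
  .of_bound ((measurable_const.add (measurable_K x)).pow_const _).aestronglyMeasurable (e ^ (-β))
    (ae_of_all _ fun o => by
      rw [Real.norm_of_nonneg (Real.rpow_nonneg (by linarith [V.K_nonneg hσ x o]) _)]
      exact grega_le hσ he le_rfl hβ x o)

theorem grega_green (hV : V.Std) {e : ℝ} (he : 0 < e) (h : σ * e ≤ 1) (x : X) :
    e * ∫ o, (e + V.K x o) ^ (-(aa n + 1 + 1)) ∂V.ν ≤ hsq σ Λ n * ∫ o, (e + V.K x o) ^ (-aa n) ∂V.ν := by
  have h1 := (inH_const (V := V) 1).green hV (ae_of_all _ fun _ => zero_le_one) he x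
  have h2 : aa n + 1 + 1 = n / 2 + 1 := by unfold aa; ring
  simp only [T, B, one_mul, inner_zero_left, zero_add, integral_const_mul, mul_assoc] at h1
  have h3 : 0 ≤ e * ∫ o, (e + V.K x o) ^ (-((n : ℝ) / 2 + 1)) ∂V.ν :=
    mul_nonneg he.le (integral_nonneg fun o => Real.rpow_nonneg (by linarith [V.K_nonneg hV.hσ x o]) _)
  rw [h2]
  nlinarith [le_of_mul_le_mul_left h1 hV.cz_pos]

theorem grega_bd (hV : V.Std) : ∃ ρ > 0, ∃ B ≥ 0, ∀ x, ∀ e ∈ Ioc 0 ρ,
    e * ∫ o, (e + V.K x o) ^ (-(aa n + 1 + 1)) ∂V.ν ≤ B := by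
  have ha := hV.aa_pos
  have hh := hV.hsq_pos
  have hσ := hV.hσ
  have hM := hV.hM
  set C := 2 * aa n * (aa n + 1) * hsq σ Λ n with hC
  have hC0 : 0 < C := by positivity
  obtain ⟨ρ, hρ, h1, h2⟩ : ∃ ρ > 0, σ * ρ ≤ 1 ∧ C * ρ ≤ 1 / 2 := by
    refine ⟨(σ + 2 * C)⁻¹, by positivity, ?_, ?_⟩ <;> rw [← div_eq_mul_inv, div_le_iff₀ (by positivity)] <;>
      linarith
  set B := 2 * (((ρ / 2) ^ (-aa n) + aa n * ρ * (ρ / 2) ^ (-(aa n + 1))) * V.M) with hB
  have hB0 : 0 ≤ B := by positivity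
  refine ⟨ρ, hρ, hsq σ Λ n * B, by positivity, fun x e he => ?_⟩
  set I : ℝ → ℝ → ℝ := fun β e => ∫ o, (e + V.K x o) ^ (-β) ∂V.ν with hI
  have I0 (β : ℝ) {e : ℝ} (he : 0 < e) : 0 ≤ I β e :=
    integral_nonneg fun o => Real.rpow_nonneg (by linarith [V.K_nonneg hσ x o]) _
  have I1 {β e : ℝ} (hβ : 0 ≤ β) (he : ρ / 2 ≤ e) : I β e ≤ (ρ / 2) ^ (-β) * V.M := by
    refine (integral_mono (grega_int hσ (by linarith) hβ x) (integrable_const _)
      fun o => grega_le hσ (by positivity) he hβ x o).trans_eq ?_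
    rw [integral_const, smul_eq_mul, mul_comm, M]
  have I2 {β e : ℝ} (hβ : 0 ≤ β) (he : 0 < e) : I β e ≤ I β (2 * e) + β * e * I (β + 1) e := by
    have i1 := grega_int (V := V) hσ (e := 2 * e) (by positivity) hβ x
    have i2 := (grega_int (V := V) hσ he (β := β + 1) (by positivity) x).const_mul (β * e)
    rw [hI]
    simp only
    rw [← integral_const_mul, ← integral_add i1 i2]
    refine integral_mono (grega_int hσ he hβ x) (i1.add i2) fun o => ?_
    have := grega_bern (W := e + V.K x o) (by linarith [V.K_nonneg hσ x o]) he.le hβ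
    rwa [show e + V.K x o + e = 2 * e + V.K x o by ring] at this
  have I3 {e : ℝ} (he : e ∈ Ioc 0 ρ) : e * I (aa n + 1 + 1) e ≤ hsq σ Λ n * I (aa n) e :=
    grega_green hV he.1 ((mul_le_mul_of_nonneg_left he.2 hσ).trans h1) x
  have key (k : ℕ) : ∀ e ∈ Ioc 0 ρ, ρ / 2 ≤ 2 ^ k * e →
      I (aa n) e + aa n * e * I (aa n + 1) e ≤ B * (1 - C * e) := by
    have base : ∀ e ∈ Ioc 0 ρ, ρ / 2 ≤ e → I (aa n) e + aa n * e * I (aa n + 1) e ≤ B * (1 - C * e) := by
      intro e he h3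
      have h4 := I1 ha.le h3
      have h5 : aa n * e * I (aa n + 1) e ≤ aa n * ρ * ((ρ / 2) ^ (-(aa n + 1)) * V.M) :=
        mul_le_mul (mul_le_mul_of_nonneg_left he.2 ha.le) (I1 (by positivity) h3) (I0 _ he.1) (by positivity)
      have h6 : B * (1 / 2) ≤ B * (1 - C * e) :=
        mul_le_mul_of_nonneg_left (by linarith [mul_le_mul_of_nonneg_left he.2 hC0.le]) hB0
      linarith
    induction k with
    | zero => exact fun e he h3 => base e he (by simpa using h3)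
    | succ k ih =>
      intro e he h3
      rcases le_total (ρ / 2) e with h4 | h4
      · exact base e he h4
      have h0 := he.1
      have h5 := ih (2 * e) ⟨by positivity, by linarith⟩ (by rwa [← mul_assoc, ← pow_succ])
      have h6 := I2 ha.le h0
      have h7 := mul_le_mul_of_nonneg_left (I2 (β := aa n + 1) (by positivity) h0)
        (by positivity : 0 ≤ 2 * aa n * e)
      have h8 := mul_le_mul_of_nonneg_left (I3 he) (by positivity : 0 ≤ 2 * aa n * (aa n + 1) * e)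
      have h9 : 0 ≤ C * e * (aa n * e * I (aa n + 1) e) := by have := I0 (aa n + 1) h0; positivity
      have h10 : 0 < 1 - C * e := by linarith [mul_le_mul_of_nonneg_left he.2 hC0.le]
      refine le_of_mul_le_mul_right ?_ h10
      have h11 : 0 ≤ B * (C * e) ^ 2 := by positivity
      have h12 : C * e * I (aa n) e = 2 * aa n * (aa n + 1) * e * (hsq σ Λ n * I (aa n) e) := by rw [hC]; ring
      nlinarith
  obtain ⟨k, hk⟩ := pow_unbounded_of_one_lt (ρ / 2 / e) one_lt_two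
  have h3 := key k e he ((div_le_iff₀ he.1).1 hk.le)
  have h0 := he.1
  have h4 : 0 ≤ aa n * e * I (aa n + 1) e := by have := I0 (aa n + 1) h0; positivity
  have h5 : 0 ≤ B * (C * e) := by positivity
  exact (I3 he).trans (mul_le_mul_of_nonneg_left (by linarith) hh.le)

/-- `green` with `u = 1`: `T e 1 x ≤ h² ∫ (e+κ)^(-a)` for `σ e ≤ 1`, and
`T e 1 x ≥ 2^(-n/2-1) ν{κ ≤ e} / e^(n/2)`.  Fix `0 < ρ₀ ≤ ρ₁`, `Θ = sup_{[ρ₀,ρ₁]} ν{κ ≤ s}/s^(n/2)`
(finite).  `(e+κ)^(-a) = ∫_κ^∞ a (e+s)^(-a-1) ds` and Tonelli give, for `e ∈ [ρ₀,ρ₁]`,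
`∫ (e+κ)^(-a) ≤ 2 a Θ ρ₁ + M ρ₁^(-a)` (`a + 1 = n/2`); absorb for small `ρ₁` (independent of `x`,
`ρ₀`); for `s ≥ ρ₁` use `ν ≤ M`. -/
theorem Std.exists_reg (hV : V.Std) : ∃ Θ > 0, V.Reg Θ := by
  obtain ⟨ρ, hρ, B, hB, h⟩ := grega_bd hV
  have hM := hV.hM
  have h2 : aa n + 1 + 1 = n / 2 + 1 := by unfold aa; ring
  rw [h2] at h
  refine ⟨B * 2 ^ ((n : ℝ) / 2 + 1) + V.M / ρ ^ ((n : ℝ) / 2), by positivity, fun x s hs => ?_⟩
  rw [add_mul]
  rcases le_total s ρ with h3 | h3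
  · refine le_add_of_le_of_nonneg ?_ (by positivity)
    have h4 := mul_meas_ge_le_integral_of_nonneg
      (ae_of_all _ fun o => Real.rpow_nonneg (by linarith [V.K_nonneg hV.hσ x o]) _)
      (grega_int (V := V) hV.hσ hs (β := n / 2 + 1) (by positivity) x) ((2 * s) ^ (-((n : ℝ) / 2 + 1)))
    have h5 : V.ν.real {o | V.K x o ≤ s} ≤
        V.ν.real {o | (2 * s) ^ (-((n : ℝ) / 2 + 1)) ≤ (s + V.K x o) ^ (-((n : ℝ) / 2 + 1))} :=
      measureReal_mono fun o (ho : V.K x o ≤ s) => Real.rpow_le_rpow_of_nonpos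
        (by linarith [V.K_nonneg hV.hσ x o]) (by linarith) (neg_nonpos.2 (by positivity))
    have h6 := (mul_le_mul_of_nonneg_left ((mul_le_mul_of_nonneg_left h5 (by positivity)).trans h4)
      hs.le).trans (h x s ⟨hs, h3⟩)
    rw [Real.rpow_neg (by positivity), ← mul_assoc, mul_right_comm, ← div_eq_mul_inv,
      div_le_iff₀ (by positivity), Real.mul_rpow zero_le_two hs.le, Real.rpow_add hs, Real.rpow_one] at h6
    exact le_of_mul_le_mul_left (h6.trans_eq (by ring)) hs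
  · refine le_add_of_nonneg_of_le (by positivity) ((measureReal_mono (subset_univ _)).trans ?_)
    rw [div_mul_eq_mul_div, mul_div_assoc]
    exact le_mul_of_one_le_right hM.le ((one_le_div (by positivity)).2 (by gcongr))

theorem Reg.ae_pos (hV : V.Std) {Θ : ℝ} (h : V.Reg Θ) (x : X) : ∀ᵐ o ∂V.ν, 0 < V.K x o := by
  have hn : (0 : ℝ) < n / 2 := by have := hV.hn; positivity
  have h1 : Tendsto (fun s : ℝ => Θ * s ^ ((n : ℝ) / 2)) (𝓝[>] 0) (𝓝 (Θ * 0 ^ ((n : ℝ) / 2))) :=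
    ((Real.continuousAt_rpow_const 0 _ (Or.inr hn.le)).tendsto.mono_left nhdsWithin_le_nhds).const_mul Θ
  rw [Real.zero_rpow hn.ne', mul_zero] at h1
  rw [ae_iff, ← measureReal_eq_zero_iff]
  refine le_antisymm (ge_of_tendsto h1 (eventually_nhdsWithin_of_forall fun s hs => le_trans ?_ (h x s hs)))
    measureReal_nonneg
  exact measureReal_mono fun o ho => (not_lt.1 ho).trans (le_of_lt hs)

theorem greg_layer (μ : Measure ℝ) [SFinite μ] {φ : ℝ → ℝ≥0∞} (hφ : Measurable φ) :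
    ∫⁻ s, φ s ∂μ = ∫⁻ t in Ioi (0 : ℝ), μ {s | ENNReal.ofReal t < φ s} := by
  have hS : MeasurableSet {p : ℝ × ℝ | ENNReal.ofReal p.2 < φ p.1} :=
    measurableSet_lt measurable_snd.ennreal_ofReal (hφ.comp measurable_fst)
  refine Eq.trans (lintegral_congr fun s => ?_) ((Measure.prod_apply (ν := volume.restrict (Ioi 0)) hS).symm.trans
    (Measure.prod_apply_symm hS))
  rw [Measure.restrict_apply' measurableSet_Ioi]
  rcases eq_or_ne (φ s) ⊤ with h | h
  · simp [h]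
  · rw [show Prod.mk s ⁻¹' {p : ℝ × ℝ | ENNReal.ofReal p.2 < φ p.1} ∩ Ioi 0 = Ioo 0 (φ s).toReal from
      Set.ext fun t => ⟨fun ht => ⟨ht.2, (ENNReal.ofReal_lt_iff_lt_toReal ht.2.le h).1 ht.1⟩,
        fun ht => ⟨(ENNReal.ofReal_lt_iff_lt_toReal ht.1.le h).2 ht.2, ht.1⟩⟩]
    simp [h]

theorem greg_anti {m μ : Measure ℝ} [SFinite m] [SFinite μ] [NullSingletonClass μ]
    (h : ∀ a, m (Iic a) ≤ μ (Iic a)) {φ : ℝ → ℝ≥0∞} (hφ : Antitone φ) : ∫⁻ s, φ s ∂m ≤ ∫⁻ s, φ s ∂μ := by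
  rw [greg_layer m hφ.measurable, greg_layer μ hφ.measurable]
  refine lintegral_mono fun t => ?_
  obtain ⟨L, hL⟩ : ∃ L, L = {s | ENNReal.ofReal t < φ s} := ⟨_, rfl⟩
  have hl : IsLowerSet L := hL ▸ fun a b hab ha => lt_of_lt_of_le ha (hφ hab)
  rw [← hL]
  rcases L.eq_empty_or_nonempty with rfl | hne
  · simp
  by_cases hb : BddAbove L
  · exact (measure_mono fun a ha => le_csSup hb ha).trans ((h _).trans ((measure_congr Iio_ae_eq_Iic).ge.trans
      (measure_mono fun a ha => (exists_lt_of_lt_csSup hne ha).elim fun b hb => hl hb.2.le hb.1)))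
  · rw [show L = univ from eq_univ_of_forall fun a => (not_bddAbove_iff.1 hb a).elim fun b hb => hl hb.2.le hb.1]
    exact le_of_tendsto' (tendsto_measure_Iic_atTop m) fun a => (h a).trans (measure_mono (subset_univ _))

theorem greg_rpow {c r ρ : ℝ} (hc : 0 ≤ c) (hr : 0 < r) (hρ : 0 ≤ ρ) :
    ∫⁻ s in Ioc (0 : ℝ) ρ, ENNReal.ofReal (c * s ^ (r - 1)) = ENNReal.ofReal (c / r * ρ ^ r) := by
  rw [← ofReal_integral_eq_lintegral_ofReal ((intervalIntegral.intervalIntegrable_rpow' (by linarith)).1.const_mul c)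
    ((ae_restrict_mem measurableSet_Ioc).mono fun s hs => mul_nonneg hc (Real.rpow_nonneg hs.1.le _)),
    ← intervalIntegral.integral_of_le hρ, intervalIntegral.integral_const_mul, integral_rpow (Or.inl (by linarith)),
    sub_add_cancel, Real.zero_rpow hr.ne', sub_zero, mul_div_assoc', mul_div_right_comm]

theorem Reg.greg_nonneg {Θ : ℝ} (h : V.Reg Θ) (x : X) : 0 ≤ Θ := by
  simpa using measureReal_nonneg.trans (h x 1 one_pos)

/-- layer cake: `{s > 0 | φ s > t}` is an interval `(0, s_t)` or `(0, s_t]` -/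
theorem Reg.lintegral_anti_le (hV : V.Std) {Θ : ℝ} (h : V.Reg Θ) {φ : ℝ → ℝ≥0∞}
    (hφ : AntitoneOn φ (Ioi 0)) (x : X) :
    ∫⁻ o, φ (V.K x o) ∂V.ν
      ≤ ∫⁻ s in Ioi (0 : ℝ), φ s * ENNReal.ofReal (Θ * (n / 2) * s ^ ((n : ℝ) / 2 - 1)) := by
  have hn : (0 : ℝ) < n / 2 := half_pos (Nat.cast_pos.2 (by linarith [hV.hn]))
  have hψ : Antitone fun s : ℝ => if 0 < s then φ s else ⊤ := fun a b hab => by
    by_cases ha : 0 < a
    · simpa [ha, ha.trans_le hab] using hφ ha (ha.trans_le hab) hab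
    · simp [ha]
  have hg : Measurable fun s : ℝ => ENNReal.ofReal (Θ * (n / 2) * s ^ ((n : ℝ) / 2 - 1)) := by fun_prop
  have key := greg_anti (m := V.ν.map (V.K x)) (μ := (volume.restrict (Ioi 0)).withDensity fun s : ℝ =>
    ENNReal.ofReal (Θ * (n / 2) * s ^ ((n : ℝ) / 2 - 1))) (fun a => ?_) hψ
  · rw [lintegral_map hψ.measurable (measurable_K x), lintegral_withDensity_eq_lintegral_mul _ hg hψ.measurable,
      lintegral_congr_ae ((h.ae_pos hV x).mono fun o ho => if_pos ho)] at key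
    exact key.trans_eq (setLIntegral_congr_fun measurableSet_Ioi fun s hs => by
      rw [Pi.mul_apply, if_pos (mem_Ioi.1 hs), mul_comm])
  rw [Measure.map_apply (measurable_K x) measurableSet_Iic]
  rcases le_or_gt a 0 with ha | ha
  · exact (measure_mono_null (fun o ho => (le_trans ho ha).not_gt) (h.ae_pos hV x)).trans_le zero_le
  · rw [withDensity_apply _ measurableSet_Iic, Measure.restrict_restrict measurableSet_Iic, Iic_inter_Ioi,
      greg_rpow (mul_nonneg (h.greg_nonneg x) hn.le) hn ha.le, mul_div_cancel_right₀ _ hn.ne']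
    exact (ENNReal.ofReal_toReal (measure_ne_top _ _)).ge.trans (ENNReal.ofReal_le_ofReal (h x a ha))

theorem Std.ae_K_pos (hV : V.Std) (x : X) : ∀ᵐ o ∂V.ν, 0 < V.K x o :=
  let ⟨_, _, h⟩ := hV.exists_reg
  h.ae_pos hV x

theorem Reg.greg_near (hV : V.Std) {Θ β ρ : ℝ} (h : V.Reg Θ) (hβ : 0 ≤ β) (hβn : β < n / 2) (hρ : 0 < ρ) (o : Ω) :
    ∫⁻ o' in {o' | V.K (V.p o) o' ≤ ρ}, V.kk β o o' ∂V.ν
      ≤ ENNReal.ofReal (Θ * (n / 2) / (n / 2 - β) * ρ ^ (n / 2 - β)) := by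
  have hc : 0 ≤ Θ * (n / 2) := mul_nonneg (h.greg_nonneg (V.p o)) (by positivity)
  have key := h.lintegral_anti_le hV (φ := (Iic ρ).indicator fun s => ENNReal.ofReal (s ^ (-β)))
    (fun a ha b hb hab => ?_) (V.p o)
  · rw [← lintegral_indicator (measurableSet_le (measurable_K _) measurable_const), ← greg_rpow hc (sub_pos.2 hβn) hρ.le,
      ← Iic_inter_Ioi, ← Measure.restrict_restrict measurableSet_Iic, ← lintegral_indicator measurableSet_Iic]
    refine key.trans_eq (setLIntegral_congr_fun measurableSet_Ioi fun s hs => ?_)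
    by_cases h1 : s ∈ Iic ρ
    · rw [indicator_of_mem h1, indicator_of_mem h1, ← ENNReal.ofReal_mul (Real.rpow_nonneg (le_of_lt hs) _),
        mul_left_comm, ← Real.rpow_add hs]
      congr 3
      ring
    · rw [indicator_of_notMem h1, indicator_of_notMem h1, zero_mul]
  by_cases h1 : b ∈ Iic ρ
  · rw [indicator_of_mem h1, indicator_of_mem (mem_Iic.2 (hab.trans h1))]
    exact ENNReal.ofReal_le_ofReal (Real.rpow_le_rpow_of_nonpos ha hab (neg_nonpos.2 hβ))
  · exact (indicator_of_notMem h1 _).trans_le zero_le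

theorem Std.exists_near_le (hV : V.Std) {η : ℝ} (hη : 0 < η) : ∃ ρ > 0, ∀ o,
    ∫⁻ o' in {o' | V.K (V.p o) o' ≤ ρ}, V.kk (aa n) o o' ∂V.ν ≤ ENNReal.ofReal η := by
  obtain ⟨Θ, hΘ, h⟩ := hV.exists_reg
  have hn : (0 : ℝ) < n / 2 := half_pos (Nat.cast_pos.2 (by linarith [hV.hn]))
  have e : (n : ℝ) / 2 - aa n = 1 := by unfold aa; ring
  refine ⟨η / (Θ * (n / 2)), by positivity, fun o =>
    (h.greg_near hV hV.aa_pos.le (by linarith) (by positivity) o).trans_eq ?_⟩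
  rw [e, div_one, Real.rpow_one, mul_div_cancel₀ _ (by positivity)]

theorem Std.exists_kk_le (hV : V.Std) : ∃ C > 0, ∀ δ ∈ Ioc (0 : ℝ) 2, ∀ o,
    ∫⁻ o', V.kk ((n - δ) / 2) o o' ∂V.ν ≤ ENNReal.ofReal (C / δ) := by
  obtain ⟨Θ, hΘ, h⟩ := hV.exists_reg
  obtain ⟨D, hD, hK⟩ := V.exists_K_le
  have hn : (3 : ℝ) ≤ n := by exact_mod_cast hV.hn
  refine ⟨Θ * n * D, by positivity, fun δ hδ o => ?_⟩
  have h1 := h.greg_near hV (β := (n - δ) / 2) (by linarith [hδ.2]) (by linarith [hδ.1]) (one_pos.trans_le hD) o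
  rw [show {o' | V.K (V.p o) o' ≤ D} = univ from eq_univ_of_forall (hK _), Measure.restrict_univ,
    show (n : ℝ) / 2 - (n - δ) / 2 = δ / 2 by ring, mul_div_assoc, div_div_div_cancel_right₀ two_ne_zero] at h1
  refine h1.trans (ENNReal.ofReal_le_ofReal ?_)
  rw [mul_div_right_comm, mul_div_assoc]
  exact mul_le_mul_of_nonneg_left (Real.rpow_le_self_of_one_le hD (by linarith [hδ.2]))
    (mul_nonneg hΘ.le (div_nonneg n.cast_nonneg hδ.1.le))

theorem Std.exists_T_one_le (hV : V.Std) : ∃ C, ∀ e > 0, ∀ x, V.T e (fun _ => 1) x ≤ C := by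
  obtain ⟨Θ, hΘ, h⟩ := hV.exists_reg
  have hn : (3 : ℝ) ≤ n := by exact_mod_cast hV.hn
  refine ⟨Θ * (n / 2), fun e he x => ?_⟩
  have hd : ∀ s ∈ Ici (0 : ℝ), HasDerivAt (fun s => -(e + s)⁻¹) ((e + s) ^ 2)⁻¹ s := fun s hs => by
    simpa [neg_div] using (((hasDerivAt_id s).const_add e).fun_inv (add_pos_of_pos_of_nonneg he hs).ne').fun_neg
  have hl : Tendsto (fun s => -(e + s)⁻¹) atTop (𝓝 (-0)) :=
    (tendsto_inv_atTop_zero.comp (tendsto_atTop_add_const_left _ e tendsto_id)).neg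
  have h1 := h.lintegral_anti_le hV (φ := fun s => ENNReal.ofReal ((e + s) ^ (-((n : ℝ) / 2 + 1))))
    (fun a ha b _ hab => ENNReal.ofReal_le_ofReal (Real.rpow_le_rpow_of_nonpos (add_pos he ha)
      (by linarith) (by linarith))) x
  have h2 : ∫⁻ s in Ioi (0 : ℝ), ENNReal.ofReal (Θ * (n / 2) * ((e + s) ^ 2)⁻¹) =
      ENNReal.ofReal (Θ * (n / 2) * e⁻¹) := by
    rw [← ofReal_integral_eq_lintegral_ofReal ((integrableOn_Ioi_deriv_of_nonneg' hd (fun _ _ => by positivity)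
      hl).const_mul _) (Eventually.of_forall fun _ => by positivity), integral_const_mul,
      integral_Ioi_of_hasDerivAt_of_nonneg' hd (fun _ _ => by positivity) hl]
    simp
  have h3 := (h1.trans (setLIntegral_mono' measurableSet_Ioi fun s hs => ?_)).trans_eq h2
  · have hK := measurable_K (V := V) x
    simp only [T, one_mul]
    rw [integral_eq_lintegral_of_nonneg_ae (Eventually.of_forall fun o =>
      Real.rpow_nonneg (add_nonneg he.le (K_nonneg hV.hσ x o)) _) (Measurable.aestronglyMeasurable (by fun_prop)),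
      ← le_div_iff₀' he]
    exact ENNReal.toReal_le_of_le_ofReal (by positivity) h3
  have hs : 0 < s := hs
  rw [← ENNReal.ofReal_mul (by positivity), mul_left_comm]
  refine ENNReal.ofReal_le_ofReal (mul_le_mul_of_nonneg_left ((mul_le_mul_of_nonneg_left (Real.rpow_le_rpow hs.le
    (le_add_of_nonneg_left he.le) (by linarith)) (by positivity)).trans_eq ?_) (by positivity))
  rw [← Real.rpow_add (by positivity), ← Real.rpow_two, ← Real.rpow_neg (by positivity)]
  congr 1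
  ring


end VS

end Crest.Agent.R241
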