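import Crest.Agent.R241.G.Tep

/-!
# The resolvent.  Helper prefix `gres_`.
-/

open MeasureTheory Set Filter Topology
open Crest.GeometryTopology.MetricCurrent
open Crest.GeometryTopology.Submanifold (Euc unitBallVol unitSphereArea)
open scoped ENNReal NNReal InnerProductSpace

noncomputable section

namespace Crest.Agent.R241

universe u

set_option linter.unusedSectionVars false

variable {X : Type u} [MetricSpace X] [CompactSpace X] [MeasurableSpace X] [BorelSpace X]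
  {Ω : Type u} [MeasurableSpace Ω] {σ Λ : ℝ} {n : ℕ} {V : VS σ Λ n X Ω}

namespace VS


theorem gres_norm_sq {F : Type*} [NormedAddCommGroup F] [InnerProductSpace ℝ F] {μ : Measure Ω}
    (x y : Lp F 2 μ) {f g : Ω → F} (hf : x =ᵐ[μ] f) (hg : y =ᵐ[μ] g) :
    dist x y ^ 2 = ∫ o, ‖f o - g o‖ ^ 2 ∂μ := by
  rw [dist_eq_norm, ← real_inner_self_eq_norm_sq, L2.inner_def]
  refine integral_congr_ae ?_
  filter_upwards [Lp.coeFn_sub x y, hf, hg] with o h1 h2 h3
  rw [real_inner_self_eq_norm_sq, h1, Pi.sub_apply, h2, h3]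

theorem gres_lim {F : Type*} [NormedAddCommGroup F] [InnerProductSpace ℝ F] [CompleteSpace F]
    {μ : Measure Ω} {f : ℕ → Ω → F} (hf : ∀ j, MemLp (f j) 2 μ)
    (hc : ∀ η > 0, ∃ N, ∀ j ≥ N, ∀ l ≥ N, ∫ o, ‖f j o - f l o‖ ^ 2 ∂μ ≤ η) :
    ∃ u, MemLp u 2 μ ∧ Tendsto (fun j => ∫ o, ‖f j o - u o‖ ^ 2 ∂μ) atTop (𝓝 0) := by
  obtain ⟨u, hu⟩ := cauchySeq_tendsto_of_complete (u := fun j => (hf j).toLp)
    (Metric.cauchySeq_iff.2 fun ε hε => by
      obtain ⟨N, hN⟩ := hc (ε ^ 2 / 2) (by positivity)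
      refine ⟨N, fun j hj l hl => lt_of_pow_lt_pow_left₀ 2 hε.le ?_⟩
      rw [gres_norm_sq _ _ (hf j).coeFn_toLp (hf l).coeFn_toLp]
      exact (hN j hj l hl).trans_lt (half_lt_self (by positivity)))
  refine ⟨u, Lp.memLp u, ?_⟩
  have := (tendsto_iff_dist_tendsto_zero.1 hu).pow 2
  simpa only [gres_norm_sq _ u (hf _).coeFn_toLp EventuallyEq.rfl, ne_eq, OfNat.ofNat_ne_zero,
    not_false_eq_true, zero_pow] using this

theorem gres_B_self {w : Ω → ℝ} {Z : Ω → Euc n} (h : V.InH w Z) :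
    V.B w Z w Z = ∫ o, ‖Z o‖ ^ 2 ∂V.ν + cz n * hsq σ Λ n * ∫ o, ‖w o‖ ^ 2 ∂V.ν := by
  rw [B_eq h h]
  simp only [real_inner_self_eq_norm_sq, Real.norm_eq_abs, sq_abs, ← sq]

/-- completeness: `Lp` completeness for both components, `of_approx` -/
theorem Std.exists_lim (hV : V.Std) {f : ℕ → Ω → ℝ} {ζ : ℕ → Ω → Euc n}
    (h : ∀ j, V.InH (f j) (ζ j))
    (hc : ∀ η > 0, ∃ N, ∀ j ≥ N, ∀ l ≥ N, V.B (fun o => f j o - f l o) (fun o => ζ j o - ζ l o)
      (fun o => f j o - f l o) (fun o => ζ j o - ζ l o) ≤ η) :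
    ∃ u Z, V.InH u Z ∧ Tendsto (fun j => V.B (fun o => f j o - u o) (fun o => ζ j o - Z o)
      (fun o => f j o - u o) (fun o => ζ j o - Z o)) atTop (𝓝 0) := by
  have hp : 0 < cz n * hsq σ Λ n := mul_pos hV.cz_pos hV.hsq_pos
  have hn : ∀ {F : Type} [NormedAddCommGroup F] (w : Ω → F), 0 ≤ ∫ o, ‖w o‖ ^ 2 ∂V.ν :=
    fun w => integral_nonneg fun _ => sq_nonneg _
  simp only [gres_B_self ((h _).sub (h _))] at hc
  obtain ⟨u, hu, hu'⟩ := gres_lim (fun j => (h j).1) fun η hη => by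
    obtain ⟨N, hN⟩ := hc _ (mul_pos hp hη)
    exact ⟨N, fun j hj l hl => le_of_mul_le_mul_left
      ((le_add_of_nonneg_left (hn _)).trans (hN j hj l hl)) hp⟩
  obtain ⟨Z, hZ, hZ'⟩ := gres_lim (fun j => (h j).2.1) fun η hη => by
    obtain ⟨N, hN⟩ := hc _ hη
    exact ⟨N, fun j hj l hl =>
      (le_add_of_nonneg_right (mul_nonneg hp.le (hn _))).trans (hN j hj l hl)⟩
  have hH : V.InH u Z := InH.of_approx hu hZ fun η hη => by
    obtain ⟨j, hj⟩ := ((hu'.add hZ').eventually_lt_const (show 0 + 0 < η by linarith)).exists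
    refine ⟨f j, ζ j, h j, le_trans (le_of_eq ?_) hj.le⟩
    refine Eq.trans (integral_congr_ae (ae_of_all _ fun o => ?_))
      (integral_add (((h j).1.sub hu).integrable_norm_pow two_ne_zero)
      (((h j).2.1.sub hZ).integrable_norm_pow two_ne_zero))
    simp only [Pi.sub_apply, Real.norm_eq_abs, sq_abs, norm_sub_rev (Z o)]
    ring
  refine ⟨u, Z, hH, ?_⟩
  simpa only [gres_B_self ((h _).sub hH), mul_zero, add_zero]
    using hZ'.add (hu'.const_mul (cz n * hsq σ Λ n))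

theorem gres_riesz {W : Type*} [AddCommGroup W] [Module ℝ W] (B : W →ₗ[ℝ] W →ₗ[ℝ] ℝ)
    (L : W →ₗ[ℝ] ℝ) (hs : ∀ x y, B x y = B y x) (h0 : ∀ x, 0 ≤ B x x) {C : ℝ}
    (hb : ∀ x, 2 * L x ≤ C + B x x)
    (hc : ∀ f : ℕ → W, (∀ η > 0, ∃ N, ∀ j ≥ N, ∀ l ≥ N, B (f j - f l) (f j - f l) ≤ η) →
      ∃ u, Tendsto (fun j => B (f j - u) (f j - u)) atTop (𝓝 0)) : ∃ u, ∀ v, B u v = L v := by
  have hbd : BddBelow (range fun x => B x x - 2 * L x) :=
    ⟨-C, by rintro _ ⟨x, rfl⟩; linarith [hb x]⟩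
  obtain ⟨a, -, ha, hm⟩ := exists_seq_tendsto_sInf (range_nonempty _) hbd
  choose f hf using hm
  have hle := fun x => csInf_le hbd (mem_range_self x)
  generalize sInf (range fun x => B x x - 2 * L x) = m at ha hle
  obtain ⟨u, hu⟩ := hc f fun η hη => by
    obtain ⟨N, hN⟩ := eventually_atTop.1 (ha.eventually_lt_const (show m < m + η / 4 by linarith))
    refine ⟨N, fun j hj l hl => ?_⟩
    have h1 := hle ((1 / 2 : ℝ) • (f j + f l))
    have h2 := hN j hj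
    have h3 := hN l hl
    rw [← hf] at h2 h3
    simp only [map_add, map_sub, map_smul, LinearMap.add_apply, LinearMap.sub_apply,
      LinearMap.smul_apply, smul_eq_mul] at h1 ⊢
    linarith
  refine ⟨u, fun v => ?_⟩
  have key : ∀ t : ℝ, 0 ≤ 2 * B v v * (t * t) + 2 * (B u v - L v) * t + 0 := fun t => by
    have := ge_of_tendsto' ((ha.add hu).add_const (2 * B v v * (t * t) + 2 * (B u v - L v) * t))
      (b := m) fun j => by
        have h1 := hle (f j + t • v)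
        have h2 := h0 (f j - u - t • v)
        rw [← hf j]
        simp only [map_add, map_sub, map_smul, LinearMap.add_apply, LinearMap.sub_apply,
          LinearMap.smul_apply, smul_eq_mul, hs v (f j), hs v u] at h1 h2 ⊢
        linarith
    linarith
  have := discrim_le_zero key
  rw [discrim] at this
  nlinarith [sq_nonneg (B u v - L v)]

/-- Riesz by hand: minimise `B v v - 2 ∫ g v` (bounded below, parallelogram law, `exists_lim`),
then the first variation. -/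
theorem Std.exists_solves (hV : V.Std) {g : Ω → ℝ} (hg : MemLp g 2 V.ν) :
    ∃ u ζ, V.Solves g u ζ := by
  have hp : 0 < cz n * hsq σ Λ n := mul_pos hV.cz_pos hV.hsq_pos
  let W : Submodule ℝ ((Ω → ℝ) × (Ω → Euc n)) :=
    { carrier := {x | V.InH x.1 x.2}
      add_mem' := fun h h' => InH.add h h'
      zero_mem' := inH_const 0
      smul_mem' := fun c _ h => InH.smul h c }
  have hi : ∀ x : W, Integrable (fun o => g o * x.1.1 o) V.ν := fun x => hg.integrable_mul x.2.1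
  let B : W →ₗ[ℝ] W →ₗ[ℝ] ℝ := LinearMap.mk₂ ℝ (fun x y => V.B x.1.1 x.1.2 y.1.1 y.1.2)
    (fun x y z => B_add_left x.2 y.2 z.2) (fun c x y => B_smul_left c _ _ _ _)
    (fun x y z => by
      rw [B_symm, B_symm x.1.1 y.1.1, B_symm x.1.1 z.1.1]; exact B_add_left y.2 z.2 x.2)
    fun c x y => by rw [B_symm, B_symm x.1.1 y.1.1]; exact B_smul_left c _ _ _ _
  let L : W →ₗ[ℝ] ℝ :=
    { toFun := fun x => ∫ o, g o * x.1.1 o ∂V.ν
      map_add' := fun x y => by
        rw [← integral_add (hi x) (hi y)]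
        exact integral_congr_ae (ae_of_all _ fun o => mul_add _ _ _)
      map_smul' := fun c x => by
        rw [RingHom.id_apply, smul_eq_mul, ← integral_const_mul]
        exact integral_congr_ae (ae_of_all _ fun o => mul_left_comm _ _ _) }
  obtain ⟨u, hu⟩ := gres_riesz B L (fun x y => B_symm _ _ _ _) (fun x => hV.B_nonneg _ _)
    (C := (cz n * hsq σ Λ n)⁻¹ * ∫ o, g o ^ 2 ∂V.ν)
    (fun x => by
      refine le_trans ?_ (add_le_add le_rfl (hV.sq_le_B x.2))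
      generalize cz n * hsq σ Λ n = c at hp
      have h1 := hg.integrable_sq.const_mul c⁻¹
      have h2 := x.2.1.integrable_sq.const_mul c
      rw [← integral_const_mul, ← integral_const_mul, ← integral_add h1 h2]
      refine (integral_const_mul _ _).symm.trans_le
        (integral_mono ((hi x).const_mul 2) (h1.add h2) fun o => ?_)
      have : c⁻¹ * g o ^ 2 + c * x.1.1 o ^ 2 - 2 * (g o * x.1.1 o) =
          c⁻¹ * (g o - c * x.1.1 o) ^ 2 := by field_simp; ring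
      have h3 : 0 ≤ c⁻¹ * (g o - c * x.1.1 o) ^ 2 := by positivity
      simp only
      linarith)
    fun f hf => by
      obtain ⟨u, Z, hu, ht⟩ := hV.exists_lim (fun j => (f j).2) hf
      exact ⟨⟨(u, Z), hu⟩, ht⟩
  exact ⟨u.1.1, u.1.2, u.2, fun v ζ' hv => hu ⟨(v, ζ'), hv⟩⟩

theorem Solves.unique (hV : V.Std) {g g' u u' : Ω → ℝ} {ζ ζ' : Ω → Euc n} (h : V.Solves g u ζ)
    (h' : V.Solves g' u' ζ') (hg : g =ᵐ[V.ν] g') : u =ᵐ[V.ν] u' := by
  have hw := h.1.sub h'.1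
  have h1 := hV.sq_le_B hw
  rw [B_sub_left h.1 h'.1 hw, h.2 _ _ hw, h'.2 _ _ hw,
    integral_congr_ae (hg.mono fun o ho => congrArg (· * (u o - u' o)) ho), sub_self] at h1
  have h2 : ∫ o, (u o - u' o) ^ 2 ∂V.ν = 0 := le_antisymm
    (nonpos_of_mul_nonpos_right h1 (mul_pos hV.cz_pos hV.hsq_pos)) (integral_nonneg fun _ => sq_nonneg _)
  filter_upwards [(integral_eq_zero_iff_of_nonneg (fun _ => sq_nonneg _) hw.1.integrable_sq).1 h2] with o ho
  exact sub_eq_zero.1 (pow_eq_zero_iff two_ne_zero |>.1 ho)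

theorem Solves.add {g g' u u' : Ω → ℝ} {ζ ζ' : Ω → Euc n} (h : V.Solves g u ζ)
    (h' : V.Solves g' u' ζ') (hg : MemLp g 2 V.ν) (hg' : MemLp g' 2 V.ν) :
    V.Solves (fun o => g o + g' o) (fun o => u o + u' o) fun o => ζ o + ζ' o := by
  refine ⟨h.1.add h'.1, fun v ζ₁ hv => ?_⟩
  rw [B_add_left h.1 h'.1 hv, h.2 _ _ hv, h'.2 _ _ hv]
  simp only [add_mul]
  exact (integral_add (hg.integrable_mul hv.1) (hg'.integrable_mul hv.1)).symm

theorem Solves.smul {g u : Ω → ℝ} {ζ : Ω → Euc n} (h : V.Solves g u ζ) (c : ℝ) :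
    V.Solves (fun o => c * g o) (fun o => c * u o) fun o => c • ζ o := by
  refine ⟨h.1.smul c, fun v ζ₁ hv => ?_⟩
  rw [B_smul_left, h.2 _ _ hv, ← integral_const_mul]
  simp only [mul_assoc]

theorem gres_phi : ∃ φ : ℝ → ℝ, ContDiff ℝ 1 φ ∧ (∀ s, 0 ≤ deriv φ s ∧ deriv φ s ≤ 1) ∧
    (∀ s, 0 ≤ s → φ s = 0) ∧ ∀ s, s < 0 → φ s < 0 := by
  have hc : Continuous fun t : ℝ => min 1 (max (-t) 0) := by fun_prop
  have hd : ∀ s, HasDerivAt (fun s => ∫ t in (0 : ℝ)..s, min 1 (max (-t) 0)) (min 1 (max (-s) 0)) s :=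
    fun s => (hc.integral_hasStrictDerivAt 0 s).hasDerivAt
  have he : (deriv fun s => ∫ t in (0 : ℝ)..s, min 1 (max (-t) 0)) = fun s => min 1 (max (-s) 0) :=
    funext fun s => (hd s).deriv
  refine ⟨fun s => ∫ t in (0 : ℝ)..s, min 1 (max (-t) 0),
    contDiff_one_iff_deriv.2 ⟨fun s => (hd s).differentiableAt, by rw [he]; exact hc⟩, fun s => ?_, fun s hs => ?_,
    fun s hs => ?_⟩
  · rw [he]
    exact ⟨le_min zero_le_one (le_max_right _ _), min_le_left _ _⟩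
  · beta_reduce
    rw [intervalIntegral.integral_congr (g := fun _ => 0), intervalIntegral.integral_zero]
    intro t ht
    rw [uIcc_of_le hs] at ht
    simp [ht.1]
  · beta_reduce
    rw [intervalIntegral.integral_symm, neg_lt_zero]
    exact intervalIntegral.intervalIntegral_pos_of_pos_on (hc.intervalIntegrable _ _)
      (fun t ht => lt_min one_pos (lt_max_of_lt_left (neg_pos.2 ht.2))) hs

/-- test with `φ (u)`, `φ s = 1 - √(1 + (min s 0)²)` (`C¹`, `0 ≤ φ' ≤ 1`, `φ ≤ 0`, `s φ s > 0` for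
`s < 0`) -/
theorem Solves.nonneg (hV : V.Std) {g u : Ω → ℝ} {ζ : Ω → Euc n} (h : V.Solves g u ζ)
    (hg0 : 0 ≤ᵐ[V.ν] g) : 0 ≤ᵐ[V.ν] u := by
  obtain ⟨φ, h1, h2, h3, h4⟩ := gres_phi
  have hle : ∀ s, φ s ≤ 0 := fun s => (lt_or_ge s 0).elim (fun h => (h4 s h).le) fun h => (h3 s h).le
  have hv := h.1.comp₁ h1 (C := 1) fun s => by rw [abs_of_nonneg (h2 s).1]; exact (h2 s).2
  have hc := mul_pos hV.cz_pos hV.hsq_pos
  have hm : ∀ s, 0 ≤ s * φ s := fun s => (lt_or_ge s 0).elim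
    (fun h => mul_nonneg_of_nonpos_of_nonpos h.le (hle s)) fun h => by rw [h3 s h, mul_zero]
  have hi : ∀ o, 0 ≤ ⟪ζ o, deriv φ (u o) • ζ o⟫_ℝ := fun o => by
    rw [real_inner_smul_right]
    exact mul_nonneg (h2 _).1 real_inner_self_nonneg
  have h5 : V.B u ζ (fun o => φ (u o)) (fun o => deriv φ (u o) • ζ o) ≤ 0 := by
    rw [h.2 _ _ hv]
    exact integral_nonpos_of_ae (hg0.mono fun o ho => mul_nonpos_of_nonneg_of_nonpos ho (hle _))
  rw [B_eq h.1 hv] at h5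
  have h6 : ∫ o, u o * φ (u o) ∂V.ν = 0 := le_antisymm
    (nonpos_of_mul_nonpos_right (le_trans (le_add_of_nonneg_left (integral_nonneg hi)) h5) hc)
    (integral_nonneg fun o => hm _)
  filter_upwards [(integral_eq_zero_iff_of_nonneg (fun o => hm _) (h.1.integrable_B hv).2).1 h6] with o ho
  by_contra hn
  have hn' : u o < 0 := not_le.1 hn
  exact (mul_pos_of_neg_of_neg hn' (h4 _ hn')).ne' ho

theorem gres_half (hV : V.Std) {g g₁ : Ω → ℝ} (hg : MemLp g₁ 2 V.ν) (h0 : ∀ o, 0 ≤ g₁ o)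
    (hle : ∀ o, g₁ o ≤ |g o|) : ∃ u ζ, V.Solves g₁ u ζ ∧ ∀ᵐ o ∂V.ν, 0 ≤ u o ∧ ENNReal.ofReal (u o) ≤
      ∫⁻ o', ‖g o'‖ₑ * (Real.toNNReal ((Cn n)⁻¹ * (cz n)⁻¹) * V.kk (aa n) o o') ∂V.ν := by
  obtain ⟨u, ζ, h⟩ := hV.exists_solves hg
  have hc := hV.cz_pos
  have hC := Cn_pos n
  have hu := h.nonneg hV (Eventually.of_forall h0)
  have hb := h.1.green_bound hV (g := fun o => (cz n)⁻¹ * g₁ o) hu ((hg.integrable one_le_two).const_mul _)
    (Eventually.of_forall fun o => mul_nonneg (inv_pos.2 hc).le (h0 o)) fun v ζ' hv _ => by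
      rw [h.2 _ _ hv]
      simp only [mul_assoc, integral_const_mul, mul_inv_cancel_left₀ hc.ne']
  refine ⟨u, ζ, h, ?_⟩
  filter_upwards [hu, hb] with o a1 a2
  refine ⟨a1, ?_⟩
  calc ENNReal.ofReal (u o) = ENNReal.ofReal (Cn n)⁻¹ * ENNReal.ofReal (Cn n * u o) := by
        rw [← ENNReal.ofReal_mul (inv_pos.2 hC).le, inv_mul_cancel_left₀ hC.ne']
    _ ≤ ENNReal.ofReal (Cn n)⁻¹ * ∫⁻ o', ENNReal.ofReal ((cz n)⁻¹ * g₁ o') * V.kk (aa n) o o' ∂V.ν := by
        gcongr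
    _ ≤ _ := by
        rw [← lintegral_const_mul' _ _ ENNReal.ofReal_ne_top]
        refine lintegral_mono fun o' => ?_
        rw [← mul_assoc, ← mul_assoc, Real.enorm_eq_ofReal_abs, ← ENNReal.ofReal_mul (inv_pos.2 hC).le]
        refine mul_le_mul_left ?_ _
        change _ ≤ _ * ENNReal.ofReal _
        rw [← ENNReal.ofReal_mul (abs_nonneg _)]
        refine ENNReal.ofReal_le_ofReal ?_
        rw [← mul_assoc, mul_comm]
        exact mul_le_mul_of_nonneg_right (hle o') (by positivity)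

/-- split `g = g⁺ - g⁻`, `green_bound` -/
theorem Std.exists_kernel_bound (hV : V.Std) : ∃ C : ℝ≥0, ∀ g u ζ, MemLp g 2 V.ν → V.Solves g u ζ →
    ∀ᵐ o ∂V.ν, ‖u o‖ₑ ≤ ∫⁻ o', ‖g o'‖ₑ * (C * V.kk (aa n) o o') ∂V.ν := by
  refine ⟨Real.toNNReal ((Cn n)⁻¹ * (cz n)⁻¹), fun g u ζ hg h => ?_⟩
  have hp := hg.pos_part
  have hm := hg.neg_part
  obtain ⟨u₁, ζ₁, s1, b1⟩ := gres_half hV (g := g) hp (fun o => le_max_right _ _)
    fun o => max_le (le_abs_self _) (abs_nonneg _)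
  obtain ⟨u₂, ζ₂, s2, b2⟩ := gres_half hV (g := g) hm (fun o => le_max_right _ _)
    fun o => max_le (neg_le_abs _) (abs_nonneg _)
  have h1 := h.unique hV (s1.add (s2.smul (-1)) hp (hm.const_mul _)) (Eventually.of_forall fun o => by
    rcases le_total (g o) 0 with h' | h' <;> simp [h'])
  filter_upwards [h1, b1, b2] with o e a1 a2
  rw [e, Real.enorm_eq_ofReal_abs]
  rcases le_total (u₁ o) (u₂ o) with h' | h'
  · exact (ENNReal.ofReal_le_ofReal (by rw [abs_of_nonpos (by linarith)]; linarith [a1.1])).trans a2.2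
  · exact (ENNReal.ofReal_le_ofReal (by rw [abs_of_nonneg (by linarith)]; linarith [a2.1])).trans a1.2


end VS

end Crest.Agent.R241
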