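import Crest.Agent.R241.G.Res

/-!
# Subcritical Sobolev inequality.  Helper prefix `gsob_`.
-/

open MeasureTheory Set Filter Topology
open Crest.GeometryTopology.MetricCurrent
open Crest.GeometryTopology.Submanifold (Euc unitBallVol unitSphereArea)
open scoped ENNReal NNReal InnerProductSpace

noncomputable section

namespace Crest.Agent.R241

universe u

theorem gsob_alg (x y z : ℝ≥0∞) {q : ℝ} (hq : 2 < q) :
    x * (y * z) = (x ^ (q / (q - 1)) * z ^ (q / 2)) ^ (1 / q) * (y ^ (q / (q - 1)) * z ^ (q / 2)) ^ (1 / q) *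
      (x ^ (q / (q - 1)) * y ^ (q / (q - 1))) ^ (1 - 2 / q) := by
  have h0 : 0 < q := by linarith
  have h1 : 0 < q - 1 := by linarith
  have h2 : 0 ≤ 1 / q := by positivity
  have h3 : 0 ≤ 1 - 2 / q := sub_nonneg.2 ((div_le_one h0).2 hq.le)
  have e1 : ∀ w : ℝ≥0∞, w ^ (q / (q - 1) * (1 / q)) * w ^ (q / (q - 1) * (1 - 2 / q)) = w := fun w => by
    rw [← ENNReal.rpow_add_of_nonneg _ _ (by positivity) (by positivity),
      show q / (q - 1) * (1 / q) + q / (q - 1) * (1 - 2 / q) = 1 by field_simp; ring, ENNReal.rpow_one]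
  have e2 : z ^ (q / 2 * (1 / q)) * z ^ (q / 2 * (1 / q)) = z := by
    rw [← ENNReal.rpow_add_of_nonneg _ _ (by positivity) (by positivity),
      show q / 2 * (1 / q) + q / 2 * (1 / q) = 1 by field_simp; ring, ENNReal.rpow_one]
  simp only [ENNReal.mul_rpow_of_nonneg _ _ h2, ENNReal.mul_rpow_of_nonneg _ _ h3, ← ENNReal.rpow_mul]
  conv_lhs => rw [← e1 x, ← e1 y, ← e2]
  ring

/-- symmetric Young inequality: `g g' k = (g^{q'} k^{q/2})^{1/q} (g'^{q'} k^{q/2})^{1/q}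
(g^{q'} g'^{q'})^{1-2/q}`, `ENNReal.lintegral_prod_norm_pow_le` on `ν.prod ν` (beware `k = ⊤`,
`g = 0`; all in `ℝ≥0∞` with positive exponents). -/
theorem young_symm {Ω : Type*} [MeasurableSpace Ω] (ν : Measure Ω) [IsFiniteMeasure ν]
    {k : Ω → Ω → ℝ≥0∞} (hk : Measurable (Function.uncurry k)) (hs : ∀ o o', k o o' = k o' o)
    {g : Ω → ℝ≥0∞} (hg : AEMeasurable g ν) {q : ℝ} (hq : 2 < q) {A : ℝ≥0∞}
    (hA : ∀ o, ∫⁻ o', k o o' ^ (q / 2) ∂ν ≤ A) :
    ∫⁻ o, g o * ∫⁻ o', g o' * k o o' ∂ν ∂ν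
      ≤ A ^ (2 / q) * (∫⁻ o, g o ^ (q / (q - 1)) ∂ν) ^ (2 * (q - 1) / q) := by
  have h0 : 0 < q := by linarith
  have h2 : 0 ≤ 1 / q := by positivity
  have h3 : 0 ≤ 1 - 2 / q := sub_nonneg.2 ((div_le_one h0).2 hq.le)
  have g1 : AEMeasurable (fun z : Ω × Ω => g z.1) (ν.prod ν) := hg.comp_fst
  have g2 : AEMeasurable (fun z : Ω × Ω => g z.2) (ν.prod ν) := hg.comp_snd
  have k1 : AEMeasurable (fun z : Ω × Ω => k z.1 z.2) (ν.prod ν) := hk.aemeasurable
  have k2 : ∀ o, AEMeasurable (k o) ν := fun o => (hk.of_uncurry_left).aemeasurable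
  have m1 := (g1.pow_const (q / (q - 1))).mul (k1.pow_const (q / 2))
  have m2 := (g2.pow_const (q / (q - 1))).mul (k1.pow_const (q / 2))
  have m3 := (g1.pow_const (q / (q - 1))).mul (g2.pow_const (q / (q - 1)))
  have H := ENNReal.lintegral_prod_norm_pow_le (μ := ν.prod ν) (Finset.univ : Finset (Fin 3))
    (f := ![fun z => g z.1 ^ (q / (q - 1)) * k z.1 z.2 ^ (q / 2),
      fun z => g z.2 ^ (q / (q - 1)) * k z.1 z.2 ^ (q / 2),
      fun z => g z.1 ^ (q / (q - 1)) * g z.2 ^ (q / (q - 1))]) (p := ![1 / q, 1 / q, 1 - 2 / q])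
    (fun i _ => by fin_cases i; exacts [m1, m2, m3]) (by simp [Fin.sum_univ_three]; ring)
    (fun i _ => by fin_cases i; exacts [h2, h2, h3])
  simp only [Fin.prod_univ_three, Matrix.cons_val_zero, Matrix.cons_val_one, Matrix.cons_val_two,
    Matrix.head_cons, Matrix.tail_cons, ← gsob_alg _ _ _ hq] at H
  set N := ∫⁻ o, g o ^ (q / (q - 1)) ∂ν with hN
  have key : ∫⁻ o, ∫⁻ o', g o ^ (q / (q - 1)) * k o o' ^ (q / 2) ∂ν ∂ν ≤ A * N := by
    rw [hN, ← lintegral_const_mul'' _ (hg.pow_const _)]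
    refine lintegral_mono fun o => ?_
    rw [lintegral_const_mul'' _ ((k2 o).pow_const _), mul_comm A]
    exact mul_le_mul_right (hA o) _
  have i1 : ∫⁻ z, g z.1 ^ (q / (q - 1)) * k z.1 z.2 ^ (q / 2) ∂ν.prod ν ≤ A * N :=
    (lintegral_prod _ m1).trans_le key
  have i2 : ∫⁻ z, g z.2 ^ (q / (q - 1)) * k z.1 z.2 ^ (q / 2) ∂ν.prod ν ≤ A * N := by
    refine (lintegral_prod_symm _ m2).trans_le (le_trans (le_of_eq ?_) key)
    refine lintegral_congr fun o => lintegral_congr fun o' => ?_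
    simp only [Pi.mul_apply, hs o' o]
  have i3 : ∫⁻ z, g z.1 ^ (q / (q - 1)) * g z.2 ^ (q / (q - 1)) ∂ν.prod ν = N * N :=
    lintegral_prod_mul (hg.pow_const _) (hg.pow_const _)
  calc ∫⁻ o, g o * ∫⁻ o', g o' * k o o' ∂ν ∂ν = ∫⁻ z, g z.1 * (g z.2 * k z.1 z.2) ∂ν.prod ν := by
        refine Eq.trans ?_ (lintegral_prod _ (g1.mul (g2.mul k1))).symm
        exact lintegral_congr fun o => (lintegral_const_mul'' _ (hg.mul (k2 o))).symm
    _ ≤ (A * N) ^ (1 / q) * (A * N) ^ (1 / q) * (N * N) ^ (1 - 2 / q) := by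
        refine H.trans ?_
        rw [i3]
        gcongr
    _ = A ^ (2 / q) * N ^ (2 * (q - 1) / q) := by
        rw [show 2 / q = 1 / q + 1 / q by ring, show 2 * (q - 1) / q =
          1 / q + 1 / q + ((1 - (1 / q + 1 / q)) + (1 - (1 / q + 1 / q))) by field_simp; ring]
        have h4 : 0 ≤ 1 - (1 / q + 1 / q) := by rwa [show 1 / q + 1 / q = 2 / q by ring]
        simp only [ENNReal.mul_rpow_of_nonneg _ _ h2, ENNReal.mul_rpow_of_nonneg _ _ h4,
          ENNReal.rpow_add_of_nonneg _ _ h2 h2, ENNReal.rpow_add_of_nonneg _ _ h4 h4,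
          ENNReal.rpow_add_of_nonneg _ _ (add_nonneg h2 h2) (add_nonneg h4 h4)]
        ring

/-- the truncated dual function -/
def gsob_G (q R s : ℝ) : ℝ := min (max s 0) R ^ (q - 1) - min (max (-s) 0) R ^ (q - 1)

theorem gsob_G_cont {q : ℝ} (hq : 2 < q) (R : ℝ) : Continuous (gsob_G q R) :=
  (Continuous.rpow_const (by fun_prop) fun _ => Or.inr (by linarith)).sub
    (Continuous.rpow_const (by fun_prop) fun _ => Or.inr (by linarith))

theorem gsob_G_spec {q R : ℝ} (hq : 2 < q) (hR : 0 ≤ R) (s : ℝ) :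
    |gsob_G q R s| = min |s| R ^ (q - 1) ∧ gsob_G q R s * s = min |s| R ^ (q - 1) * |s| := by
  have h1 : q - 1 ≠ 0 := by linarith
  rcases le_total 0 s with h | h
  · have e : gsob_G q R s = min s R ^ (q - 1) := by
      rw [gsob_G, max_eq_left h, max_eq_right (neg_nonpos.2 h), min_eq_left hR, Real.zero_rpow h1, sub_zero]
    rw [e, abs_of_nonneg h, abs_of_nonneg (Real.rpow_nonneg (le_min h hR) _)]
    exact ⟨rfl, rfl⟩
  · have e : gsob_G q R s = -min (-s) R ^ (q - 1) := by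
      rw [gsob_G, max_eq_right h, max_eq_left (neg_nonneg.2 h), min_eq_left hR, Real.zero_rpow h1, zero_sub]
    rw [e, abs_of_nonpos h, abs_neg, abs_of_nonneg (Real.rpow_nonneg (le_min (neg_nonneg.2 h) hR) _)]
    exact ⟨rfl, by ring⟩

theorem gsob_fin {I C B q : ℝ} (hq : 2 < q) (hI : 0 ≤ I) (hC : 0 ≤ C * B)
    (h : I ^ 2 ≤ C * I ^ (2 * (q - 1) / q) * B) : I ≤ (C * B) ^ (q / 2) := by
  have h0 : 0 < q := by linarith
  rcases hI.eq_or_lt with rfl | hI'
  · positivity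
  have e : I ^ 2 = I ^ (2 / q) * I ^ (2 * (q - 1) / q) := by
    rw [← Real.rpow_add hI', show 2 / q + 2 * (q - 1) / q = (2 : ℕ) by push_cast; field_simp; ring,
      Real.rpow_natCast]
  rw [e, mul_right_comm] at h
  have h1 : I ^ (2 / q) ≤ C * B := le_of_mul_le_mul_right h (Real.rpow_pos_of_pos hI' _)
  have h2 := Real.rpow_le_rpow (Real.rpow_nonneg hI _) h1 (by positivity : 0 ≤ q / 2)
  rwa [← Real.rpow_mul hI, show 2 / q * (q / 2) = 1 by field_simp, Real.rpow_one] at h2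

set_option linter.unusedSectionVars false

variable {X : Type u} [MetricSpace X] [CompactSpace X] [MeasurableSpace X] [BorelSpace X]
  {Ω : Type u} [MeasurableSpace Ω] {σ Λ : ℝ} {n : ℕ} {V : VS σ Λ n X Ω}

namespace VS


/-- the quadratic form of the resolvent is bounded on `L^{q'}` -/
theorem Std.gsob_res (hV : V.Std) {δ : ℝ} (hδ : δ ∈ Ioo (0 : ℝ) 2) : ∃ C > 0, ∀ g u Z (I : ℝ), 0 ≤ I →
    MemLp g 2 V.ν → V.Solves g u Z →
    ∫⁻ o, ‖g o‖ₑ ^ (qq n δ / (qq n δ - 1)) ∂V.ν ≤ ENNReal.ofReal I →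
    V.B u Z u Z ≤ C * I ^ (2 * (qq n δ - 1) / qq n δ) := by
  obtain ⟨C₀, h₀⟩ := hV.exists_kernel_bound
  obtain ⟨C₁, -, h₁⟩ := hV.exists_kk_le
  have hq := hV.qq_gt hδ.2
  have hq0 : 0 < qq n δ := by linarith
  have hA : ∀ o, ∫⁻ o', (C₀ * V.kk (aa n) o o') ^ (qq n δ / 2) ∂V.ν ≤
      (C₀ : ℝ≥0∞) ^ (qq n δ / 2) * ENNReal.ofReal (C₁ / δ) := by
    intro o
    have e : ∀ o', (C₀ * V.kk (aa n) o o') ^ (qq n δ / 2) =
        (C₀ : ℝ≥0∞) ^ (qq n δ / 2) * V.kk ((n - δ) / 2) o o' := fun o' => by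
      have hK := V.K_nonneg hV.hσ (V.p o) o'
      rw [ENNReal.mul_rpow_of_nonneg _ _ (by positivity), kk, kk,
        ENNReal.ofReal_rpow_of_nonneg (Real.rpow_nonneg hK _) (by positivity), ← Real.rpow_mul hK,
        ← hV.aa_mul_qq δ]
      congr 3
      ring
    simp only [e]
    rw [lintegral_const_mul' _ _ (ENNReal.rpow_ne_top_of_nonneg (by positivity) ENNReal.coe_ne_top)]
    exact mul_le_mul_right (h₁ δ ⟨hδ.1, hδ.2.le⟩ o) _
  set A := (C₀ : ℝ≥0∞) ^ (qq n δ / 2) * ENNReal.ofReal (C₁ / δ)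
  have hA' : A ^ (2 / qq n δ) ≠ ⊤ := ENNReal.rpow_ne_top_of_nonneg (by positivity)
    (ENNReal.mul_ne_top (ENNReal.rpow_ne_top_of_nonneg (by positivity) ENNReal.coe_ne_top)
      ENNReal.ofReal_ne_top)
  refine ⟨(A ^ (2 / qq n δ)).toReal + 1, by positivity, fun g u Z I hI hg hs hN => ?_⟩
  have hY := young_symm V.ν (k := fun o o' => C₀ * V.kk (aa n) o o')
    ((V.measurable_kk (aa n)).const_mul _) (fun o o' => by rw [V.kk_symm]) hg.1.enorm hq hA
  have he : 0 ≤ 2 * (qq n δ - 1) / qq n δ := div_nonneg (by linarith) hq0.le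
  rw [hs.2 u Z hs.1]
  refine (Real.le_norm_self _).trans ((norm_integral_le_lintegral_norm _).trans ?_)
  refine ENNReal.toReal_le_of_le_ofReal (by positivity) ?_
  calc ∫⁻ o, ENNReal.ofReal ‖g o * u o‖ ∂V.ν
      ≤ ∫⁻ o, ‖g o‖ₑ * ∫⁻ o', ‖g o'‖ₑ * (C₀ * V.kk (aa n) o o') ∂V.ν ∂V.ν := by
        refine lintegral_mono_ae ((h₀ g u Z hg hs).mono fun o ho => ?_)
        rw [ofReal_norm, enorm_mul]
        exact mul_le_mul_right ho _
    _ ≤ A ^ (2 / qq n δ) * ENNReal.ofReal I ^ (2 * (qq n δ - 1) / qq n δ) := by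
        refine hY.trans ?_
        gcongr
    _ ≤ _ := by
        rw [ENNReal.ofReal_mul (by positivity), ENNReal.ofReal_rpow_of_nonneg hI he]
        refine mul_le_mul_left ?_ _
        conv_lhs => rw [← ENNReal.ofReal_toReal hA']
        exact ENNReal.ofReal_le_ofReal (by linarith)

/-- duality: `g = sign f · min (|f|, R)^(q-1)`, `(u, Z)` solving for `g`:
`(∫ f g)² = B(u,f)² ≤ B(f,f) ∫ g u ≤ C B(f,f) ‖g‖²_{q'}`; `kk a ^ (q/2) = kk ((n-δ)/2)`; `R → ∞`. -/
theorem Std.exists_sobolev (hV : V.Std) {δ : ℝ} (hδ : δ ∈ Ioo (0 : ℝ) 2) : ∃ C > 0, ∀ f ζ,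
    V.InH f ζ → Integrable (fun o => |f o| ^ qq n δ) V.ν ∧
      (∫ o, |f o| ^ qq n δ ∂V.ν) ^ (2 / qq n δ) ≤ C * V.B f ζ f ζ := by
  obtain ⟨C, hC, hres⟩ := hV.gsob_res hδ
  have hq := hV.qq_gt hδ.2
  generalize qq n δ = q at hres hq ⊢
  have hq0 : 0 < q := by linarith
  have hq1 : 0 < q - 1 := by linarith
  refine ⟨C, hC, fun f ζ hf => ?_⟩
  have hB := hV.B_nonneg f ζ
  have hCB : 0 ≤ C * V.B f ζ f ζ := by positivity
  have hm := hf.1.1
  have cm : ∀ R : ℝ, Continuous fun s : ℝ => min |s| R ^ q := fun R =>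
    Continuous.rpow_const (by fun_prop) fun _ => Or.inr hq0.le
  have key : ∀ R : ℝ, 0 ≤ R → ∫⁻ o, ENNReal.ofReal (min |f o| R ^ q) ∂V.ν ≤
      ENNReal.ofReal ((C * V.B f ζ f ζ) ^ (q / 2)) := by
    intro R hR
    have m0 : ∀ o, 0 ≤ min |f o| R := fun o => le_min (abs_nonneg _) hR
    have hi : Integrable (fun o => min |f o| R ^ q) V.ν :=
      Integrable.of_bound ((cm R).comp_aestronglyMeasurable hm) (R ^ q) (Eventually.of_forall fun o => by
        rw [Real.norm_eq_abs, abs_of_nonneg (Real.rpow_nonneg (m0 o) _)]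
        exact Real.rpow_le_rpow (m0 o) (min_le_right _ _) hq0.le)
    have hI := ofReal_integral_eq_lintegral_ofReal hi
      (Eventually.of_forall fun o => Real.rpow_nonneg (m0 o) _)
    have hI0 : 0 ≤ ∫ o, min |f o| R ^ q ∂V.ν := integral_nonneg fun o => Real.rpow_nonneg (m0 o) _
    have hg : MemLp (fun o => gsob_G q R (f o)) 2 V.ν :=
      MemLp.of_bound ((gsob_G_cont hq R).comp_aestronglyMeasurable hm) (R ^ (q - 1))
        (Eventually.of_forall fun o => by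
          rw [Real.norm_eq_abs, (gsob_G_spec hq hR _).1]
          exact Real.rpow_le_rpow (m0 o) (min_le_right _ _) hq1.le)
    obtain ⟨u, Z, hs⟩ := hV.exists_solves hg
    have h1 := hres _ u Z _ hI0 hg hs (by
      rw [hI]
      refine le_of_eq (lintegral_congr fun o => ?_)
      rw [← ofReal_norm, Real.norm_eq_abs, (gsob_G_spec hq hR _).1,
        ENNReal.ofReal_rpow_of_nonneg (Real.rpow_nonneg (m0 o) _) (by positivity),
        ← Real.rpow_mul (m0 o), mul_div_cancel₀ _ hq1.ne'])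
    have h2 : ∫ o, min |f o| R ^ q ∂V.ν ≤ V.B u Z f ζ := by
      rw [hs.2 f ζ hf]
      refine integral_mono hi (hg.integrable_mul hf.1) fun o => ?_
      simp only
      rw [(gsob_G_spec hq hR _).2]
      calc min |f o| R ^ q = min |f o| R ^ (q - 1) * min |f o| R := by
            rw [← Real.rpow_add_one' (m0 o) (by linarith), sub_add_cancel]
        _ ≤ _ := mul_le_mul_of_nonneg_left (min_le_left _ _) (Real.rpow_nonneg (m0 o) _)
    rw [← hI]
    refine ENNReal.ofReal_le_ofReal (gsob_fin hq hI0 hCB ?_)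
    exact (pow_le_pow_left₀ hI0 h2 2).trans ((hV.B_sq_le hs.1 hf).trans
      (mul_le_mul_of_nonneg_right h1 hB))
  have hlim := lintegral_tendsto_of_tendsto_of_monotone (μ := V.ν)
    (f := fun (j : ℕ) o => ENNReal.ofReal (min |f o| j ^ q)) (F := fun o => ENNReal.ofReal (|f o| ^ q))
    (fun j => ((cm j).comp_aestronglyMeasurable hm).aemeasurable.ennreal_ofReal)
    (Eventually.of_forall fun o i j hij => ENNReal.ofReal_le_ofReal (Real.rpow_le_rpow
      (le_min (abs_nonneg _) (Nat.cast_nonneg _)) (min_le_min_left _ (Nat.cast_le.2 hij)) hq0.le))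
    (Eventually.of_forall fun o => tendsto_const_nhds.congr' (by
      filter_upwards [tendsto_natCast_atTop_atTop.eventually_ge_atTop |f o|] with j hj
      rw [min_eq_left hj]))
  have hle := le_of_tendsto' hlim fun j => key j (Nat.cast_nonneg j)
  have h0 : ∀ o, 0 ≤ |f o| ^ q := fun o => Real.rpow_nonneg (abs_nonneg _) _
  have hm' : AEStronglyMeasurable (fun o => |f o| ^ q) V.ν :=
    (Continuous.rpow_const (f := fun s : ℝ => |s|) continuous_abs
      fun _ => Or.inr hq0.le).comp_aestronglyMeasurable hm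
  refine ⟨⟨hm', (hasFiniteIntegral_iff_ofReal (Eventually.of_forall h0)).2
    (hle.trans_lt ENNReal.ofReal_lt_top)⟩, ?_⟩
  have h3 : ∫ o, |f o| ^ q ∂V.ν ≤ (C * V.B f ζ f ζ) ^ (q / 2) := by
    rw [integral_eq_lintegral_of_nonneg_ae (Eventually.of_forall h0) hm']
    exact ENNReal.toReal_le_of_le_ofReal (by positivity) hle
  have h4 := Real.rpow_le_rpow (integral_nonneg h0) h3 (by positivity : 0 ≤ 2 / q)
  rwa [← Real.rpow_mul hCB, show q / 2 * (2 / q) = 1 by field_simp, Real.rpow_one] at h4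


end VS

end Crest.Agent.R241
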