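import Crest.Agent.R241.G.Reg

/-!
# From the approximate identity to pointwise bounds.  Helper prefix `gtep_`.
-/

open MeasureTheory Set Filter Topology
open Crest.GeometryTopology.MetricCurrent
open Crest.GeometryTopology.Submanifold (Euc unitBallVol unitSphereArea)
open scoped ENNReal NNReal InnerProductSpace

noncomputable section

namespace Crest.Agent.R241

universe u

set_option linter.unusedSectionVars false

variable {X : Type u} [MetricSpace X] [CompactSpace X] [MeasurableSpace X] [BorelSpace X]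
  {Ω : Type u} [MeasurableSpace Ω] {σ Λ : ℝ} {n : ℕ} {V : VS σ Λ n X Ω}

namespace VS


theorem gtepb_int (m : ℕ) {R : ℝ} (hR : 0 ≤ R) :
    ((m + 1 : ℕ) : ℝ) * ∫ r in (0 : ℝ)..R, (1 + r ^ 2 / 2) ^ (-(((m + 1 : ℕ) : ℝ) / 2 + 1)) * r ^ m
      = (R ^ 2 / (1 + R ^ 2 / 2)) ^ (((m + 1 : ℕ) : ℝ) / 2) := by
  rw [← intervalIntegral.integral_const_mul, intervalIntegral.integral_eq_sub_of_hasDerivAt
    (f := fun r : ℝ => r ^ (m + 1) * (1 + r ^ 2 / 2) ^ (-(((m + 1 : ℕ) : ℝ) / 2))) (fun r _ => ?_)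
    (Continuous.intervalIntegrable (by
      exact continuous_const.mul ((Continuous.rpow_const (by fun_prop) fun r =>
        Or.inl (by positivity)).mul (continuous_pow m))) _ _)]
  · rw [Real.div_rpow (by positivity) (by positivity), ← Real.rpow_natCast R 2, ← Real.rpow_mul hR,
      show ((2 : ℕ) : ℝ) * (((m + 1 : ℕ) : ℝ) / 2) = ((m + 1 : ℕ) : ℝ) by push_cast; ring,
      Real.rpow_natCast, Real.rpow_natCast, Real.rpow_neg (by positivity)]
    simp [div_eq_mul_inv]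
  · have hW : 0 < 1 + r ^ 2 / 2 := by positivity
    refine ((hasDerivAt_pow (m + 1) r).mul ((((hasDerivAt_pow 2 r).div_const 2).const_add 1).rpow_const
      (p := -(((m + 1 : ℕ) : ℝ) / 2)) (Or.inl hW.ne'))).congr_deriv ?_
    rw [show -(((m + 1 : ℕ) : ℝ) / 2 + 1) = -(((m + 1 : ℕ) : ℝ) / 2) - 1 by ring,
      Real.rpow_sub_one hW.ne']
    simp only [Nat.add_sub_cancel]
    push_cast
    field_simp
    ring

theorem gtepb_cont (hσ : 0 ≤ σ) {e : ℝ} (he : 0 < e) (β : ℝ) :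
    Continuous fun q : X × X => (e + kap σ q.1 q.2) ^ β :=
  (continuous_const.add (continuous_kap σ)).rpow_const fun _ =>
    Or.inl (add_pos_of_pos_of_nonneg he (kap_nonneg hσ _ _)).ne'

/-- `ae_dens_kernel` with `F s = (1+s)^(-n/2-1)`;
`n ∫₀^R (1 + r²/2)^(-n/2-1) r^(n-1) dr = Rⁿ (1 + R²/2)^(-n/2) → 2^(n/2)`. -/
theorem Std.ae_T_one (hV : V.Std) : ∀ᵐ o ∂V.ν, ∀ γ > 0, ∀ᶠ e in 𝓝[>] (0 : ℝ),
    Cn n / 2 - γ ≤ V.T e (fun _ => 1) (V.p o) := by
  obtain ⟨m, rfl⟩ : ∃ m, n = m + 1 := ⟨n - 1, by have := hV.hn; omega⟩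
  have hβ : -(((m + 1 : ℕ) : ℝ) / 2 + 1) ≤ 0 := neg_nonpos.2 (by positivity)
  have hlim : Tendsto (fun R : ℝ => om (m + 1) * (R ^ 2 / (1 + R ^ 2 / 2)) ^ (((m + 1 : ℕ) : ℝ) / 2))
      atTop (𝓝 (Cn (m + 1) / 2)) := by
    have h1 : Tendsto (fun R : ℝ => 2 - 2 * (1 + R ^ 2 / 2)⁻¹) atTop (𝓝 (2 - 2 * 0)) :=
      ((tendsto_atTop_add_const_left _ _ ((tendsto_pow_atTop two_ne_zero).atTop_div_const
        two_pos)).inv_tendsto_atTop.const_mul 2).const_sub 2
    have h2 : ∀ R : ℝ, 2 - 2 * (1 + R ^ 2 / 2)⁻¹ = R ^ 2 / (1 + R ^ 2 / 2) := fun R => by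
      field_simp; ring
    simp only [h2, mul_zero, sub_zero] at h1
    convert (h1.rpow_const (p := ((m + 1 : ℕ) : ℝ) / 2) (Or.inl two_ne_zero)).const_mul (om (m + 1))
      using 2
    rw [Cn, Real.rpow_add_one two_ne_zero]; ring
  filter_upwards [V.ae_dens_kernel hV.hσ (fun s => (1 + s) ^ (-(((m + 1 : ℕ) : ℝ) / 2 + 1)))
    (ContinuousOn.rpow_const (by fun_prop) fun s hs =>
      Or.inl (add_pos_of_pos_of_nonneg one_pos hs).ne')
    (fun s hs t ht hst => Real.rpow_le_rpow_of_nonpos (add_pos_of_pos_of_nonneg one_pos hs)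
      (by linarith) hβ)
    fun s hs => by positivity] with o ho γ hγ
  obtain ⟨R, hR1, hR⟩ := ((hlim.eventually (lt_mem_nhds (show Cn (m + 1) / 2 - γ / 2 < _ by
    linarith))).and (eventually_gt_atTop 0)).exists
  filter_upwards [ho R hR (γ / 2) (by positivity), self_mem_nhdsWithin] with e h (he : 0 < e)
  have e1 : ∀ o', (1 + kap σ (V.p o) (V.p o') / e) ^ (-(((m + 1 : ℕ) : ℝ) / 2 + 1)) =
      e ^ (((m + 1 : ℕ) : ℝ) / 2) * (e * (e + kap σ (V.p o) (V.p o')) ^ (-(((m + 1 : ℕ) : ℝ) / 2 + 1))) :=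
    fun o' => by
      have := kap_nonneg hV.hσ (V.p o) (V.p o')
      rw [show 1 + kap σ (V.p o) (V.p o') / e = (e + kap σ (V.p o) (V.p o')) / e by field_simp,
        Real.div_rpow (by positivity) he.le, Real.rpow_neg he.le, Real.rpow_add_one he.ne']
      field_simp
  simp only [e1, integral_const_mul, Nat.add_sub_cancel] at h
  rw [inv_mul_cancel_left₀ (by positivity), mul_comm _ (om _), mul_assoc, gtepb_int m hR.le] at h
  have h2 := setIntegral_le_integral (s := {o' | kap σ (V.p o) (V.p o') ≤ e * R ^ 2})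
    (V.core0_int ((gtepb_cont hV.hσ he (-(((m + 1 : ℕ) : ℝ) / 2 + 1))).comp (Continuous.prodMk_right (V.p o))))
    (Eventually.of_forall fun o' => Real.rpow_nonneg (add_nonneg he.le (kap_nonneg hV.hσ _ _)) _)
  have h3 := mul_le_mul_of_nonneg_left h2 he.le
  simp only [T, K, one_mul]
  simp only [Function.comp] at h3
  linarith

/-- the kernel of `T` -/
def gtep_k (V : VS σ Λ n X Ω) (e : ℝ) (q : Ω × Ω) : ℝ :=
  e * (e + V.K (V.p q.1) q.2) ^ (-((n : ℝ) / 2 + 1))

theorem gtep_meas (e : ℝ) : Measurable (V.gtep_k e) :=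
  ((measurable_K₂.const_add e).pow_const _).const_mul e

theorem gtep_nonneg (hV : V.Std) {e : ℝ} (he : 0 < e) (q : Ω × Ω) : 0 ≤ V.gtep_k e q :=
  mul_nonneg he.le (Real.rpow_nonneg (add_nonneg he.le (K_nonneg hV.hσ _ _)) _)

theorem gtep_le {e ρ : ℝ} (he : 0 < e) (hρ : 0 < ρ) {q : Ω × Ω} (h : ρ ≤ e + V.K (V.p q.1) q.2) :
    V.gtep_k e q ≤ e * ρ ^ (-((n : ℝ) / 2 + 1)) :=
  mul_le_mul_of_nonneg_left (Real.rpow_le_rpow_of_nonpos hρ h (neg_nonpos.2 (by positivity))) he.le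

theorem gtep_bd (hV : V.Std) {e : ℝ} (he : 0 < e) (q : Ω × Ω) :
    ‖V.gtep_k e q‖ ≤ e * e ^ (-((n : ℝ) / 2 + 1)) := by
  rw [Real.norm_of_nonneg (gtep_nonneg hV he q)]
  exact gtep_le he he (le_add_of_nonneg_right (K_nonneg hV.hσ _ _))

theorem gtep_int (hV : V.Std) {e : ℝ} (he : 0 < e) {f : Ω × Ω → ℝ} (hf : Integrable f (V.ν.prod V.ν)) :
    Integrable (fun q => f q * V.gtep_k e q) (V.ν.prod V.ν) :=
  hf.mul_bdd (gtep_meas e).aestronglyMeasurable (Eventually.of_forall (gtep_bd hV he))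

theorem gtep_T (e : ℝ) (u : Ω → ℝ) (o : Ω) : V.T e u (V.p o) = ∫ o', u o' * V.gtep_k e (o, o') ∂V.ν := by
  rw [T, ← integral_const_mul]
  refine integral_congr_ae (Eventually.of_forall fun o' => ?_)
  simp only [gtep_k]
  ring

theorem gtep_fst (hV : V.Std) {e C : ℝ} (he : 0 < e) (hC : ∀ x, V.T e (fun _ => 1) x ≤ C) {w : Ω → ℝ}
    (hw : Integrable w V.ν) (h0 : ∀ o, 0 ≤ w o) :
    ∫ q, w q.1 * V.gtep_k e q ∂V.ν.prod V.ν ≤ C * ∫ o, w o ∂V.ν := by
  have hi := gtep_int hV he (hw.comp_fst V.ν)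
  rw [integral_prod _ hi, ← integral_const_mul]
  refine integral_mono hi.integral_prod_left (hw.const_mul C) fun o => ?_
  have h1 := hC (V.p o)
  rw [gtep_T] at h1
  simp only [one_mul] at h1
  simp only [integral_const_mul]
  rw [mul_comm]
  exact mul_le_mul_of_nonneg_right h1 (h0 o)

theorem gtep_snd (e : ℝ) (w : Ω → ℝ) :
    ∫ q, w q.2 * V.gtep_k e q ∂V.ν.prod V.ν = ∫ q, w q.1 * V.gtep_k e q ∂V.ν.prod V.ν := by
  rw [← integral_prod_swap]
  refine integral_congr_ae (Eventually.of_forall fun q => ?_)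
  simp only [gtep_k, Prod.fst_swap, Prod.snd_swap, K_symm q.2 q.1]

theorem gtep_le_prod (hV : V.Std) {e : ℝ} (he : 0 < e) {u : Ω → ℝ} (hu : Integrable u V.ν) :
    ∫ o, |V.T e u (V.p o) - u o * V.T e (fun _ => 1) (V.p o)| ∂V.ν ≤
      ∫ q, |u q.2 - u q.1| * V.gtep_k e q ∂V.ν.prod V.ν := by
  have hi : Integrable (fun q : Ω × Ω => |u q.2 - u q.1| * V.gtep_k e q) (V.ν.prod V.ν) :=
    gtep_int hV he ((hu.comp_snd V.ν).sub (hu.comp_fst V.ν)).abs
  rw [integral_prod _ hi]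
  refine integral_mono_of_nonneg (Eventually.of_forall fun o => abs_nonneg _) hi.integral_prod_left
    (Eventually.of_forall fun o => ?_)
  have hm : AEStronglyMeasurable (fun o' => V.gtep_k e (o, o')) V.ν :=
    ((gtep_meas e).comp measurable_prodMk_left).aestronglyMeasurable
  have i1 : Integrable (fun o' => u o' * V.gtep_k e (o, o')) V.ν :=
    hu.mul_bdd hm (Eventually.of_forall fun o' => gtep_bd hV he _)
  have i2 : Integrable (fun o' => u o * (1 * V.gtep_k e (o, o'))) V.ν :=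
    ((integrable_const (1 : ℝ)).mul_bdd hm (Eventually.of_forall fun o' => gtep_bd hV he _)).const_mul _
  simp only [gtep_T]
  rw [← integral_const_mul, ← integral_sub i1 i2]
  refine (abs_integral_le_integral_abs).trans (le_of_eq (integral_congr_ae (Eventually.of_forall fun o' => ?_)))
  simp only []
  rw [one_mul, ← sub_mul, abs_mul, abs_of_nonneg (gtep_nonneg hV he _)]

/-- `T_e u - u T_e 1 → 0` in `L¹`: uniformly for `u = F ∘ p`, `F` continuous (near part: modulus of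
continuity times `exists_T_one_le`; far part `O(e)`), and `‖T_e g‖₁ ≤ C ‖g‖₁` by Tonelli + symmetry. -/
theorem InH.tendsto_T (hV : V.Std) {u : Ω → ℝ} {ζ : Ω → Euc n} (h : V.InH u ζ) :
    Tendsto (fun e => ∫ o, |V.T e u (V.p o) - u o * V.T e (fun _ => 1) (V.p o)| ∂V.ν) (𝓝[>] 0)
      (𝓝 0) := by
  obtain ⟨C, hC⟩ := hV.exists_T_one_le
  have hu : Integrable u V.ν := h.1.integrable one_le_two
  have key : ∀ τ > 0, ∃ D : ℝ, ∀ e > 0,
      ∫ o, |V.T e u (V.p o) - u o * V.T e (fun _ => 1) (V.p o)| ∂V.ν ≤ τ * (|C| * (3 * V.M + 2)) + e * D := by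
    intro τ hτ
    obtain ⟨g, ζ', hg, hη⟩ := h.2.2 (τ ^ 2) (by positivity)
    obtain ⟨F, hF, hFg⟩ := hg.exists_continuous
    obtain ⟨G, hG⟩ := hg.bound
    obtain ⟨δ, hδ, hδF⟩ := Metric.uniformContinuous_iff.1 (CompactSpace.uniformContinuous_of_continuous hF) τ hτ
    have hgi : Integrable g V.ν := hg.inH.1.integrable one_le_two
    have hw : Integrable (fun o => |u o - g o|) V.ν := (hu.sub hgi).abs
    have hw1 : ∫ o, |u o - g o| ∂V.ν ≤ τ * (V.M + 1) := by
      have i1 : Integrable (fun o => (u o - g o) ^ 2 + ‖ζ o - ζ' o‖ ^ 2) V.ν :=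
        (h.1.sub hg.inH.1).integrable_sq.add (h.2.1.sub hg.inH.2.1).norm.integrable_sq
      calc ∫ o, |u o - g o| ∂V.ν ≤ ∫ o, (τ + τ⁻¹ * ((u o - g o) ^ 2 + ‖ζ o - ζ' o‖ ^ 2)) ∂V.ν := by
            refine integral_mono hw ((integrable_const τ).add (i1.const_mul _)) fun o => ?_
            have e1 : τ⁻¹ * (u o - g o) ^ 2 ≤ τ⁻¹ * ((u o - g o) ^ 2 + ‖ζ o - ζ' o‖ ^ 2) :=
              mul_le_mul_of_nonneg_left (le_add_of_nonneg_right (sq_nonneg _)) (by positivity)
            have e2 : |u o - g o| ≤ τ + τ⁻¹ * (u o - g o) ^ 2 := by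
              rw [← sq_abs, ← div_eq_inv_mul, ← sub_le_iff_le_add', le_div_iff₀ hτ]
              nlinarith [sq_nonneg (|u o - g o| - τ), abs_nonneg (u o - g o)]
            exact e2.trans (by linarith)
        _ = τ * V.M + τ⁻¹ * ∫ o, ((u o - g o) ^ 2 + ‖ζ o - ζ' o‖ ^ 2) ∂V.ν := by
            rw [integral_add (integrable_const τ) (i1.const_mul _), integral_const_mul, integral_const,
              smul_eq_mul, mul_comm]
            rfl
        _ ≤ τ * V.M + τ⁻¹ * τ ^ 2 := by gcongr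
        _ = τ * (V.M + 1) := by field_simp
    set D : ℝ := 2 * |G| * (δ ^ 2 / 2) ^ (-((n : ℝ) / 2 + 1)) with hD
    refine ⟨D * V.M ^ 2, fun e he => (gtep_le_prod hV he hu).trans ?_⟩
    have hC' : ∀ x, V.T e (fun _ => 1) x ≤ |C| := fun x => (hC e he x).trans (le_abs_self C)
    have j0 := gtep_int hV he ((integrable_const (μ := V.ν) τ).comp_fst V.ν)
    have j1 := gtep_int hV he (hw.comp_fst V.ν)
    have j2 := gtep_int hV he (hw.comp_snd V.ν)
    have b0 := gtep_fst hV he hC' (integrable_const τ) fun _ => hτ.le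
    have b1 := gtep_fst hV he hC' hw fun _ => abs_nonneg _
    have b2 := gtep_snd (V := V) e fun o => |u o - g o|
    rw [integral_const, smul_eq_mul] at b0
    have b3 : |C| * ∫ o, |u o - g o| ∂V.ν ≤ |C| * (τ * (V.M + 1)) := by gcongr
    have hpt : ∀ q : Ω × Ω, |u q.2 - u q.1| * V.gtep_k e q ≤
        τ * V.gtep_k e q + |u q.1 - g q.1| * V.gtep_k e q + |u q.2 - g q.2| * V.gtep_k e q + e * D := by
      intro q
      have k0 := gtep_nonneg hV he q
      have t1 : |u q.2 - u q.1| ≤ |g q.2 - g q.1| + |u q.1 - g q.1| + |u q.2 - g q.2| := by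
        have a1 := abs_sub_le (u q.2) (g q.2) (u q.1)
        have a2 := abs_sub_le (g q.2) (g q.1) (u q.1)
        rw [abs_sub_comm (g q.1)] at a2
        linarith
      have t2 : |g q.2 - g q.1| * V.gtep_k e q ≤ τ * V.gtep_k e q + e * D := by
        by_cases hd : dist (V.p q.2) (V.p q.1) < δ
        · have := hδF hd
          rw [Real.dist_eq, ← hFg, ← hFg] at this
          exact le_add_of_le_of_nonneg (mul_le_mul_of_nonneg_right this.le k0) (by positivity)
        · rw [not_lt, dist_comm] at hd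
          have a1 : δ ^ 2 / 2 ≤ e + V.K (V.p q.1) q.2 := by
            have a2 := sq_le_md hV.hσ (dist (V.p q.1) (V.p q.2))
            have a3 : δ ^ 2 ≤ dist (V.p q.1) (V.p q.2) ^ 2 := by gcongr
            have a4 : V.K (V.p q.1) q.2 = md σ (dist (V.p q.1) (V.p q.2)) := rfl
            linarith
          have a2 : |g q.2 - g q.1| ≤ 2 * |G| := by
            have := abs_sub (g q.2) (g q.1)
            linarith [(hG q.1).1, (hG q.2).1, le_abs_self G]
          refine le_add_of_nonneg_of_le (by positivity) ?_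
          calc |g q.2 - g q.1| * V.gtep_k e q ≤ 2 * |G| * (e * (δ ^ 2 / 2) ^ (-((n : ℝ) / 2 + 1))) :=
                mul_le_mul a2 (gtep_le he (by positivity) a1) k0 (by positivity)
            _ = e * D := by rw [hD]; ring
      nlinarith [mul_le_mul_of_nonneg_right t1 k0]
    refine (integral_mono (gtep_int hV he ((hu.comp_snd V.ν).sub (hu.comp_fst V.ν)).abs)
      (((j0.add j1).add j2).add (integrable_const (e * D))) hpt).trans ?_
    have hM : (V.ν.prod V.ν).real univ = V.M ^ 2 := by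
      rw [← univ_prod_univ, measureReal_prod_prod, sq]; rfl
    have j01 : Integrable (fun q : Ω × Ω => τ * V.gtep_k e q + |u q.1 - g q.1| * V.gtep_k e q) (V.ν.prod V.ν) :=
      j0.add j1
    have j012 : Integrable (fun q : Ω × Ω => τ * V.gtep_k e q + |u q.1 - g q.1| * V.gtep_k e q +
        |u q.2 - g q.2| * V.gtep_k e q) (V.ν.prod V.ν) := j01.add j2
    simp only [Pi.add_apply]
    rw [integral_add j012 (integrable_const _), integral_add j01 j2, integral_add j0 j1,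
      integral_const, hM, smul_eq_mul]
    have : V.ν.real univ = V.M := rfl
    rw [this] at b0
    nlinarith
  refine tendsto_order.2 ⟨fun a ha => Eventually.of_forall fun e =>
    ha.trans_le (integral_nonneg fun o => abs_nonneg _), fun a ha => ?_⟩
  have hM := hV.hM
  obtain ⟨D, hD⟩ := key (a / 2 / (|C| * (3 * V.M + 2) + 1)) (by positivity)
  have h1 : Tendsto (fun e : ℝ => e * D) (𝓝[>] 0) (𝓝 (0 * D)) :=
    (tendsto_id.mono_left nhdsWithin_le_nhds).mul_const D
  rw [zero_mul] at h1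
  filter_upwards [self_mem_nhdsWithin, h1.eventually (gt_mem_nhds (half_pos ha))] with e he h2
  have h3 : a / 2 / (|C| * (3 * V.M + 2) + 1) * (|C| * (3 * V.M + 2)) ≤ a / 2 := by
    rw [div_mul_eq_mul_div, div_le_iff₀ (by positivity)]
    exact mul_le_mul_of_nonneg_left (by linarith) (by positivity)
  linarith [hD e he]

theorem gtepb_T (hσ : 0 ≤ σ) {e : ℝ} (he : 0 < e) {u : Ω → ℝ} (hu : Integrable u V.ν) :
    Continuous (V.T e u) := by
  have hβ : -((n : ℝ) / 2 + 1) ≤ 0 := neg_nonpos.2 (by positivity)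
  refine continuous_const.mul (continuous_of_dominated
    (F := fun x o => u o * (e + V.K x o) ^ (-((n : ℝ) / 2 + 1)))
    (bound := fun o => ‖u o‖ * e ^ (-((n : ℝ) / 2 + 1))) (fun x => hu.1.mul ?_)
    (fun x => Eventually.of_forall fun o => ?_) (hu.norm.mul_const _)
    (Eventually.of_forall fun o => continuous_const.mul ?_))
  · exact ((measurable_const.add (measurable_K x)).pow_const _).aestronglyMeasurable
  · have := K_nonneg (V := V) hσ x o
    rw [norm_mul, Real.norm_of_nonneg (Real.rpow_nonneg (by positivity) _)]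
    exact mul_le_mul_of_nonneg_left (Real.rpow_le_rpow_of_nonpos he (by linarith) hβ) (norm_nonneg _)
  · simp only [K]
    exact (gtepb_cont hσ he (-((n : ℝ) / 2 + 1))).comp₂ continuous_id continuous_const

/-- a.e. convergent subsequence along `e = 1/(j+1)` -/
theorem InH.ae_le_of_T (hV : V.Std) {u : Ω → ℝ} {ζ : Ω → Euc n} (h : V.InH u ζ)
    (h0 : 0 ≤ᵐ[V.ν] u) {Q : Ω → ℝ≥0∞}
    (hQ : ∀ e > 0, ∀ o, ENNReal.ofReal ((2 - σ * e) * V.T e u (V.p o)) ≤ Q o) :
    ∀ᵐ o ∂V.ν, ENNReal.ofReal (Cn n * u o) ≤ Q o := by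
  have hu : Integrable u V.ν := h.1.integrable one_le_two
  have he : Tendsto (fun j : ℕ => 1 / ((j : ℝ) + 1)) atTop (𝓝[>] 0) :=
    tendsto_nhdsWithin_iff.2 ⟨tendsto_one_div_add_atTop_nhds_zero_nat,
      Eventually.of_forall fun j => mem_Ioi.2 Nat.one_div_pos_of_nat⟩
  have hI : ∀ e > 0, Integrable
      (fun o => V.T e u (V.p o) - u o * V.T e (fun _ => 1) (V.p o)) V.ν := fun e he => by
    have hc := gtepb_T (V := V) hV.hσ he (integrable_const (1 : ℝ))
    obtain ⟨C, hC⟩ := isCompact_univ.exists_bound_of_continuousOn hc.continuousOn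
    exact (V.core0_int (gtepb_T hV.hσ he hu)).sub (hu.mul_bdd (V.core0_int hc).1
      (Eventually.of_forall fun o => hC _ (mem_univ _)))
  have h1 : TendstoInMeasure V.ν (fun (j : ℕ) o => V.T (1 / ((j : ℝ) + 1)) u (V.p o)
      - u o * V.T (1 / ((j : ℝ) + 1)) (fun _ => 1) (V.p o)) atTop 0 := by
    refine tendstoInMeasure_of_tendsto_eLpNorm one_ne_zero
      (fun j => (hI _ Nat.one_div_pos_of_nat).1) aestronglyMeasurable_zero ?_
    have := ENNReal.tendsto_ofReal ((h.tendsto_T hV).comp he)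
    rw [ENNReal.ofReal_zero] at this
    refine this.congr fun j => ?_
    rw [sub_zero, eLpNorm_one_eq_lintegral_enorm,
      ← ofReal_integral_norm_eq_lintegral_enorm (hI _ Nat.one_div_pos_of_nat)]
    rfl
  obtain ⟨φ, hφ, h2⟩ := h1.exists_seq_tendsto_ae
  have he' := he.comp hφ.tendsto_atTop
  have h3 : Tendsto (fun e : ℝ => 2 - σ * e) (𝓝[>] 0) (𝓝 2) :=
    (Continuous.tendsto' (by fun_prop) 0 2 (by simp)).mono_left nhdsWithin_le_nhds
  filter_upwards [h2, h0, hV.ae_T_one] with o h4 (h5 : 0 ≤ u o) h6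
  have h7 : Tendsto (fun γ : ℝ => 2 * (0 + u o * (Cn n / 2 - γ))) (𝓝[>] 0) (𝓝 (Cn n * u o)) :=
    (Continuous.tendsto' (by fun_prop) 0 _ (by ring)).mono_left nhdsWithin_le_nhds
  refine le_of_tendsto (ENNReal.tendsto_ofReal h7) ?_
  filter_upwards [self_mem_nhdsWithin] with γ (hγ : 0 < γ)
  refine le_of_tendsto (ENNReal.tendsto_ofReal ((h3.comp he').mul (h4.add_const _))) ?_
  filter_upwards [he'.eventually (h6 γ hγ), he'.eventually (h3.eventually (lt_mem_nhds two_pos))]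
    with j h8 h9
  refine le_trans (ENNReal.ofReal_le_ofReal ?_) (hQ _ (Nat.one_div_pos_of_nat (n := φ j)) o)
  refine mul_le_mul_of_nonneg_left ?_ h9.le
  have := mul_le_mul_of_nonneg_left h8 h5
  simp only [Function.comp] at this
  linarith

/-- Green's function bound: `green`, `inH_rpow`, `(e+κ)^(-a) ≤ κ^(-a)` a.e. -/
theorem InH.green_bound (hV : V.Std) {u g : Ω → ℝ} {ζ : Ω → Euc n} (h : V.InH u ζ)
    (h0 : 0 ≤ᵐ[V.ν] u) (hg : Integrable g V.ν) (hg0 : 0 ≤ᵐ[V.ν] g)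
    (heq : ∀ v ζ', V.InH v ζ' → V.Bdd v → V.B u ζ v ζ' = cz n * ∫ o, g o * v o ∂V.ν) :
    ∀ᵐ o ∂V.ν, ENNReal.ofReal (Cn n * u o)
      ≤ ∫⁻ o', ENNReal.ofReal (g o') * V.kk (aa n) o o' ∂V.ν := by
  refine h.ae_le_of_T hV h0 fun e he o => ?_
  have ha : -aa n ≤ 0 := neg_nonpos.2 hV.aa_pos.le
  have h1 := h.green hV h0 he (V.p o)
  rw [heq _ _ (inH_rpow hV.hσ he zero_le_one _ _) ⟨e ^ (-aa n), Eventually.of_forall fun o' => by
    have := K_nonneg (V := V) hV.hσ (V.p o) o'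
    rw [Real.norm_of_nonneg (Real.rpow_nonneg (by positivity) _)]
    exact Real.rpow_le_rpow_of_nonpos he (by linarith) ha⟩] at h1
  refine (ENNReal.ofReal_le_ofReal ((le_of_mul_le_mul_left h1 hV.cz_pos).trans (le_abs_self _))).trans ?_
  rw [← Real.enorm_eq_ofReal_abs]
  refine (enorm_integral_le_lintegral_enorm _).trans (lintegral_mono_ae ?_)
  filter_upwards [hg0, hV.ae_K_pos (V.p o)] with o' (h2 : 0 ≤ g o') h3
  rw [Real.enorm_eq_ofReal (mul_nonneg h2 (Real.rpow_nonneg (by positivity) _)), kk,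
    ← ENNReal.ofReal_mul h2]
  exact ENNReal.ofReal_le_ofReal (mul_le_mul_of_nonneg_left
    (Real.rpow_le_rpow_of_nonpos h3 (by linarith) ha) h2)


end VS

end Crest.Agent.R241
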