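import Crest.Agent.R241.G.H3

/-!
# Conformal identities.  `w = ww u`, `W = α + l κ_x`, `t = w W`, `u ∇t = w ρ`.  Prefix `gw_`.
-/

open MeasureTheory Set Filter Topology
open Crest.GeometryTopology.MetricCurrent
open Crest.GeometryTopology.Submanifold (Euc unitBallVol unitSphereArea)
open scoped ENNReal NNReal InnerProductSpace

noncomputable section

namespace Crest.Agent.R241

universe u

set_option linter.unusedSectionVars false

variable {X : Type u} [MetricSpace X] [CompactSpace X] [MeasurableSpace X] [BorelSpace X]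
  {Ω : Type u} [MeasurableSpace Ω] {σ Λ : ℝ} {n : ℕ} {V : VS σ Λ n X Ω}

namespace VS


variable {δ : ℝ} {u : Ω → ℝ} {ζ : Ω → Euc n}

theorem gwb_ww_nonneg (h0 : ∀ o, 0 ≤ u o) (o : Ω) : 0 ≤ V.ww u o := Real.rpow_nonneg (h0 o) _

theorem gwb_tt_nonneg (hV : V.Std) (h0 : ∀ o, 0 ≤ u o) {α l : ℝ} (hα : 0 ≤ α) (hl : 0 ≤ l) (x : X)
    (o : Ω) : 0 ≤ V.tt u α l x o :=
  mul_nonneg (gwb_ww_nonneg h0 o) (add_nonneg hα (mul_nonneg hl (K_nonneg hV.hσ x o)))

theorem gwb_ww_le (hV : V.Std) (h0 : ∀ o, 0 ≤ u o) (hb : ∃ R, ∀ o, u o ≤ R) :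
    ∃ C, 0 ≤ C ∧ ∀ o, u o ≤ C ∧ V.ww u o ≤ C := by
  obtain ⟨R, hR⟩ := hb
  refine ⟨max |R| (|R| ^ (1 / aa n)), le_max_of_le_left (abs_nonneg _), fun o =>
    ⟨le_max_of_le_left ((hR o).trans (le_abs_self _)), le_max_of_le_right ?_⟩⟩
  exact Real.rpow_le_rpow (h0 o) ((hR o).trans (le_abs_self _)) (by have := hV.aa_pos; positivity)

theorem gwb_tt_le (hV : V.Std) (h0 : ∀ o, 0 ≤ u o) (hb : ∃ R, ∀ o, u o ≤ R) {l : ℝ} (hl : 0 ≤ l)
    (x : X) (α₁ : ℝ) : ∃ C, ∀ α, 0 ≤ α → α ≤ α₁ → ∀ o, V.tt u α l x o ≤ C := by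
  obtain ⟨C, hC0, hC⟩ := gwb_ww_le hV h0 hb
  obtain ⟨D, -, hD⟩ := V.exists_K_le
  refine ⟨C * (α₁ + l * D), fun α hα hα₁ o => ?_⟩
  exact mul_le_mul (hC o).2 (add_le_add hα₁ (mul_le_mul_of_nonneg_left (hD x o) hl))
    (add_nonneg hα (mul_nonneg hl (K_nonneg hV.hσ x o))) hC0

theorem gwb_comp_le (hV : V.Std) (h0 : ∀ o, 0 ≤ u o) (hb : ∃ R, ∀ o, u o ≤ R) {l : ℝ} (hl : 0 ≤ l)
    (x : X) (α₁ : ℝ) {Γ : ℝ → ℝ} {e : ℝ} (he : 0 < e) (hΓ : ContinuousOn Γ (Ioi (-e))) :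
    ∃ C, 0 ≤ C ∧ ∀ α, 0 ≤ α → α ≤ α₁ → ∀ o, |Γ (V.tt u α l x o)| ≤ C := by
  obtain ⟨T, hT⟩ := gwb_tt_le hV h0 hb hl x α₁
  obtain ⟨C, hC⟩ := (isCompact_Icc (a := (0 : ℝ)) (b := T)).exists_bound_of_continuousOn
    (hΓ.mono fun s hs => lt_of_lt_of_le (by linarith) hs.1)
  exact ⟨max C 0, le_max_right _ _, fun α hα hα₁ o => le_max_of_le_left
    (hC _ ⟨gwb_tt_nonneg hV h0 hα hl x o, hT α hα hα₁ o⟩)⟩

theorem gwb_bdd (hV : V.Std) (h0 : ∀ o, 0 ≤ u o) (hb : ∃ R, ∀ o, u o ≤ R) {α l : ℝ} (hα : 0 ≤ α)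
    (hl : 0 ≤ l) (x : X) {Γ : ℝ → ℝ} {e : ℝ} (he : 0 < e) (hΓ : ContinuousOn Γ (Ioi (-e))) :
    V.Bdd fun o => u o * Γ (V.tt u α l x o) := by
  obtain ⟨C, hC0, hC⟩ := gwb_comp_le hV h0 hb hl x α he hΓ
  obtain ⟨R, hR0, hR⟩ := gwb_ww_le hV h0 hb
  refine ⟨R * C, ae_of_all _ fun o => ?_⟩
  rw [Real.norm_eq_abs, abs_mul, abs_of_nonneg (h0 o)]
  exact mul_le_mul (hR o).1 (hC α hα le_rfl o) (abs_nonneg _) hR0

theorem gwb_pow_succ (hV : V.Std) (hδ : δ ∈ Icc (0 : ℝ) 1) {s : ℝ} (hs : 0 ≤ s) :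
    s ^ (qq n δ - 1) * s = s ^ qq n δ := by
  have hq := hV.qq_gt (δ := δ) (by linarith [hδ.2])
  rw [← Real.rpow_add_one' hs (by linarith), sub_add_cancel]

theorem gwa_step (hV : V.Std) (h : V.InH u ζ) (h0 : ∀ o, 0 ≤ u o) (hb : ∃ R, ∀ o, u o ≤ R)
    {α l : ℝ} (hα : 0 ≤ α) (hl : 0 ≤ l) (x : X) {Γ Γ' : ℝ → ℝ} {e : ℝ} (he : 0 < e)
    (hΓ : ∀ s ∈ Ioi (-e), HasDerivAt Γ (Γ' s) s) (hΓ' : ContinuousOn Γ' (Ioi (-e))) {η : ℝ}
    (hη : 0 < η) : V.InH (fun o => (u o + η) * Γ (V.tt (fun o => u o + η) α l x o))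
      fun o => Γ (V.tt (fun o => u o + η) α l x o) • ζ o
        + (Γ' (V.tt (fun o => u o + η) α l x o) * V.ww (fun o => u o + η) o)
          • V.rr (fun o => u o + η) ζ α l x o := by
  have ha := hV.aa_pos
  have hΓc : ContinuousOn Γ (Ioi (-e)) := fun s hs => (hΓ s hs).continuousAt.continuousWithinAt
  obtain ⟨R, hR⟩ := hb
  obtain ⟨D, hD1, hD⟩ := V.exists_K_le
  have g0 : ∀ o, 0 ≤ u o + η := fun o => by linarith [h0 o]
  have gb : ∃ R, ∀ o, u o + η ≤ R := ⟨R + η, fun o => by linarith [hR o]⟩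
  obtain ⟨C, hC0, hC⟩ := gwb_ww_le hV g0 gb
  obtain ⟨T, hT⟩ := gwb_tt_le hV g0 gb hl x α
  obtain ⟨C1, hC10, hC1⟩ := gwb_comp_le hV g0 gb hl x α he hΓc
  have h1 : V.InH (fun o => u o + η) ζ :=
    (h.add (inH_const η)).congr (EventuallyEq.refl _ _) (ae_of_all _ fun o => by simp)
  have h2 := h1.compOn (φ := fun s => s ^ (1 / aa n)) (φ' := fun s => 1 / aa n * s ^ (1 / aa n - 1))
    (a := η) (b := R + η) (half_pos hη)
    (fun s hs => Real.hasDerivAt_rpow_const (Or.inl (by linarith [hs.1] : 0 < s).ne'))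
    (continuousOn_const.mul (continuousOn_id.rpow_const fun s hs =>
      Or.inl (by linarith [hs.1] : 0 < s).ne'))
    (ae_of_all _ fun o => ⟨by linarith [h0 o], by linarith [hR o]⟩)
  have h3 := (inH_const (V := V) α).add ((inH_K x).smul l)
  have h4 := h2.mul h3 ⟨C, ae_of_all _ fun o => by
      rw [Real.norm_eq_abs, abs_of_nonneg (Real.rpow_nonneg (g0 o) _)]; exact (hC o).2⟩
    ⟨α + l * D, ae_of_all _ fun o => by
      rw [Real.norm_eq_abs, abs_of_nonneg (add_nonneg hα (mul_nonneg hl (K_nonneg hV.hσ x o)))]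
      gcongr
      exact hD x o⟩
  have h5 := h4.compOn (φ := Γ) (φ' := Γ') (a := 0) (b := T) he
    (fun s hs => hΓ s (by simpa using hs.1)) (hΓ'.mono fun s hs => by simpa using hs.1)
    (ae_of_all _ fun o => ⟨gwb_tt_nonneg hV g0 hα hl x o, hT α hα le_rfl o⟩)
  have h6 := h1.mul h5 ⟨C, ae_of_all _ fun o => by
      rw [Real.norm_eq_abs, abs_of_nonneg (g0 o)]; exact (hC o).1⟩
    ⟨C1, ae_of_all _ fun o => hC1 α hα le_rfl o⟩
  refine h6.congr (EventuallyEq.refl _ _) (ae_of_all _ fun o => ?_)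
  have hp : 0 < u o + η := by linarith [h0 o]
  have e1 : (u o + η) ^ (1 / aa n - 1) = (u o + η) ^ (1 / aa n) / (u o + η) :=
    Real.rpow_sub_one hp.ne' _
  simp only [tt, ww, rr, e1, smul_add, smul_smul, zero_add]
  rw [add_comm]
  congr 1
  rw [add_comm]
  congr 2
  · field_simp
  · ring

/-- replace `u` by `u + η`, `η = 1/(j+1)` (`compOn` for `s ↦ s^(1/a)`, `mul`, `compOn` for `Γ`,
`mul`), then `of_dominated`. -/
theorem InH.pow (hV : V.Std) (h : V.InH u ζ) (h0 : ∀ o, 0 ≤ u o) (hb : ∃ R, ∀ o, u o ≤ R)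
    {α l : ℝ} (hα : 0 ≤ α) (hl : 0 ≤ l) (x : X) {Γ Γ' : ℝ → ℝ} {e : ℝ} (he : 0 < e)
    (hΓ : ∀ s ∈ Ioi (-e), HasDerivAt Γ (Γ' s) s) (hΓ' : ContinuousOn Γ' (Ioi (-e))) :
    V.InH (fun o => u o * Γ (V.tt u α l x o)) fun o =>
      Γ (V.tt u α l x o) • ζ o + (Γ' (V.tt u α l x o) * V.ww u o) • V.rr u ζ α l x o := by
  have ha := hV.aa_pos
  have hΓc : ContinuousOn Γ (Ioi (-e)) := fun s hs => (hΓ s hs).continuousAt.continuousWithinAt
  obtain ⟨R, hR⟩ := hb
  obtain ⟨D, hD1, hD⟩ := V.exists_K_le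
  obtain ⟨D', hD'0, hD'⟩ := V.exists_ξ_le
  have step := fun η (hη : 0 < η) => gwa_step hV h h0 ⟨R, hR⟩ hα hl x he hΓ hΓ' hη
  have g0 : ∀ o, 0 ≤ u o + 1 := fun o => by linarith [h0 o]
  obtain ⟨C, hC0, hC⟩ := gwb_ww_le hV g0 ⟨R + 1, fun o => by linarith [hR o]⟩
  have hη : ∀ j : ℕ, (0 : ℝ) < 1 / (j + 1) ∧ (1 : ℝ) / (j + 1) ≤ 1 := fun j =>
    ⟨Nat.one_div_pos_of_nat, Nat.one_div_le_one_div (Nat.zero_le j) |>.trans (by simp)⟩
  have hw : ∀ η : ℝ, 0 ≤ η → η ≤ 1 → ∀ o, 0 ≤ V.ww (fun o => u o + η) o ∧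
      V.ww (fun o => u o + η) o ≤ C := fun η a b o =>
    ⟨Real.rpow_nonneg (by linarith [h0 o]) _, le_trans
      (Real.rpow_le_rpow (by linarith [h0 o]) (by linarith) (by positivity)) (hC o).2⟩
  have hWn : ∀ o, 0 ≤ α + l * V.K x o := fun o =>
    add_nonneg hα (mul_nonneg hl (K_nonneg hV.hσ x o))
  have hWl : ∀ o, α + l * V.K x o ≤ α + l * D := fun o => by gcongr; exact hD x o
  have ht : ∀ η : ℝ, 0 ≤ η → η ≤ 1 → ∀ o, V.tt (fun o => u o + η) α l x o ∈ Icc 0 (C * (α + l * D)) :=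
    fun η a b o => ⟨mul_nonneg (hw η a b o).1 (hWn o), mul_le_mul (hw η a b o).2 (hWl o) (hWn o) hC0⟩
  have sub : Icc 0 (C * (α + l * D)) ⊆ Ioi (-e) := fun s hs => lt_of_lt_of_le (by linarith) hs.1
  obtain ⟨G, hG⟩ := isCompact_Icc.exists_bound_of_continuousOn (hΓc.mono sub)
  obtain ⟨G', hG'⟩ := isCompact_Icc.exists_bound_of_continuousOn (hΓ'.mono sub)
  have lim : Tendsto (fun j : ℕ => (1 : ℝ) / (j + 1)) atTop (𝓝 0) :=
    tendsto_one_div_add_atTop_nhds_zero_nat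
  have lu : ∀ o, Tendsto (fun j : ℕ => u o + (1 : ℝ) / (j + 1)) atTop (𝓝 (u o)) := fun o => by
    simpa using lim.const_add (u o)
  have lw : ∀ o, Tendsto (fun j : ℕ => V.ww (fun o => u o + (1 : ℝ) / (j + 1)) o) atTop
      (𝓝 (V.ww u o)) := fun o => (lu o).rpow_const (Or.inr (by positivity))
  have lt : ∀ o, Tendsto (fun j : ℕ => V.tt (fun o => u o + (1 : ℝ) / (j + 1)) α l x o) atTop
      (𝓝[Ioi (-e)] (V.tt u α l x o)) := fun o =>
    tendsto_nhdsWithin_iff.2 ⟨(lw o).mul_const _,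
      Eventually.of_forall fun j => sub (ht _ (hη j).1.le (hη j).2 o)⟩
  have mem : ∀ o, V.tt u α l x o ∈ Ioi (-e) := fun o =>
    lt_of_lt_of_le (by linarith) (gwb_tt_nonneg hV h0 hα hl x o)
  have l1 : ∀ o, Tendsto (fun j : ℕ => Γ (V.tt (fun o => u o + (1 : ℝ) / (j + 1)) α l x o)) atTop
      (𝓝 (Γ (V.tt u α l x o))) := fun o => Tendsto.comp (hΓc _ (mem o)) (lt o)
  have l2 : ∀ o, Tendsto (fun j : ℕ => Γ' (V.tt (fun o => u o + (1 : ℝ) / (j + 1)) α l x o)) atTop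
      (𝓝 (Γ' (V.tt u α l x o))) := fun o => Tendsto.comp (hΓ' _ (mem o)) (lt o)
  have l3 : ∀ o, Tendsto (fun j : ℕ => V.rr (fun o => u o + (1 : ℝ) / (j + 1)) ζ α l x o) atTop
      (𝓝 (V.rr u ζ α l x o)) := fun o =>
    tendsto_const_nhds.add (((lu o).mul_const l).smul_const _)
  have hbm : MemLp (fun o => C * |G|
      + (|G| * ‖ζ o‖ + |G'| * C * ((α + l * D) / aa n * ‖ζ o‖ + C * l * D'))) 2 V.ν := by
    have b1 : MemLp (fun o => (α + l * D) / aa n * ‖ζ o‖ + C * l * D') 2 V.ν :=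
      (h.2.1.norm.const_mul _).add (memLp_const _)
    have b2 : MemLp (fun o => |G| * ‖ζ o‖ + |G'| * C * ((α + l * D) / aa n * ‖ζ o‖ + C * l * D'))
      2 V.ν := (h.2.1.norm.const_mul _).add (b1.const_mul _)
    exact (memLp_const (μ := V.ν) (p := 2) (C * |G|)).add b2
  refine InH.of_dominated (fun j : ℕ => step (1 / (j + 1 : ℝ)) (hη j).1) hbm
    (fun j => ae_of_all _ fun o => ?_) (ae_of_all _ fun o => ?_) (ae_of_all _ fun o => ?_)
  rotate_left
  · exact (lu o).mul (l1 o)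
  · beta_reduce
    exact ((l1 o).smul_const _).add (((l2 o).mul (lw o)).smul (l3 o))
  · beta_reduce
    have a1 := (hG _ (ht _ (hη j).1.le (hη j).2 o)).trans (le_abs_self G)
    have a2 := (hG' _ (ht _ (hη j).1.le (hη j).2 o)).trans (le_abs_self G')
    have a3 := hw _ (hη j).1.le (hη j).2 o
    have a4 : 0 ≤ u o + 1 / (j + 1 : ℝ) := by linarith [h0 o, (hη j).1]
    have a5 : u o + 1 / (j + 1 : ℝ) ≤ C := by linarith [(hC o).1, (hη j).2]
    have a6 := hWn o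
    have a7 : 0 ≤ α + l * D := a6.trans (hWl o)
    constructor
    · refine le_add_of_le_of_nonneg ?_ (by positivity)
      rw [abs_mul, abs_of_nonneg a4]
      exact mul_le_mul a5 a1 (abs_nonneg _) hC0
    · refine le_add_of_nonneg_of_le (by positivity) ((norm_add_le _ _).trans (add_le_add ?_ ?_))
      · rw [norm_smul]
        gcongr
      · rw [norm_smul, norm_mul, Real.norm_of_nonneg a3.1]
        refine mul_le_mul (mul_le_mul a2 a3.2 a3.1 (abs_nonneg _)) ?_ (norm_nonneg _) (by positivity)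
        refine (norm_add_le _ _).trans ?_
        rw [norm_smul, norm_smul, Real.norm_of_nonneg (by positivity),
          Real.norm_of_nonneg (by positivity)]
        gcongr
        · exact hD x o
        · exact hD' x o

theorem gwa_memLp_rr (h : V.InH u ζ) (hb : V.Bdd u) (α l : ℝ) (x : X) :
    MemLp (V.rr u ζ α l x) 2 V.ν := by
  obtain ⟨D, hD1, hD⟩ := V.exists_K_le
  obtain ⟨R, hR⟩ := hb
  obtain ⟨E, hE⟩ := (isG_K (V := V) x).bound
  have m1 : AEStronglyMeasurable (fun o => (α + l * V.K x o) / aa n) V.ν :=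
    ((((measurable_K x).const_mul l).const_add α).div_const _).aestronglyMeasurable
  have h1 : MemLp (fun o => ((α + l * V.K x o) / aa n) • ζ o) 2 V.ν :=
    MemLp.of_le_mul (c := (|α| + |l| * E) / |aa n|) h.2.1 (m1.smul h.2.1.1) (ae_of_all _ fun o => by
      rw [norm_smul, Real.norm_eq_abs, abs_div]
      gcongr
      refine (abs_add_le _ _).trans ?_
      rw [abs_mul]
      gcongr
      exact (hE o).1)
  have h2 : MemLp (fun o => (u o * l) • V.ξ o x) 2 V.ν :=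
    MemLp.of_bound ((h.1.1.mul_const l).smul (V.meas_ξ x).aestronglyMeasurable) (R * |l| * E)
      (hR.mono fun o ho => by
        rw [norm_smul, norm_mul, Real.norm_eq_abs l]
        have := (norm_nonneg _).trans ho
        gcongr
        exact (hE o).2)
  exact h1.add h2

theorem Ext.integrable_rr (hV : V.Std) (h : V.Ext δ u ζ) (α l : ℝ) (x : X) :
    Integrable (fun o => V.ww u o ^ 2 * ‖V.rr u ζ α l x o‖ ^ 2) V.ν := by
  obtain ⟨R, hR0, hR⟩ := gwb_ww_le hV h.nonneg h.bdd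
  have hb : V.Bdd u := ⟨R, ae_of_all _ fun o => by
    rw [Real.norm_eq_abs, abs_of_nonneg (h.nonneg o)]; exact (hR o).1⟩
  refine (gwa_memLp_rr h.inH hb α l x).norm.integrable_sq.bdd_mul (c := R ^ 2)
    ((h.meas.pow_const _).pow_const 2).aestronglyMeasurable (ae_of_all _ fun o => ?_)
  have := gwb_ww_nonneg (V := V) h.nonneg o
  rw [Real.norm_eq_abs, abs_of_nonneg (by positivity)]
  gcongr
  exact (hR o).2

/-- ground state substitution: `el` tested with `u G(t)²` -/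
theorem Ext.ground (hV : V.Std) (h : V.Ext δ u ζ) (hδ : δ ∈ Icc (0 : ℝ) 1) {α l : ℝ} (hα : 0 ≤ α)
    (hl : 0 ≤ l) (x : X) {G G' : ℝ → ℝ} {e : ℝ} (he : 0 < e)
    (hG : ∀ s ∈ Ioi (-e), HasDerivAt G (G' s) s) (hG' : ContinuousOn G' (Ioi (-e))) :
    V.B (fun o => u o * G (V.tt u α l x o))
      (fun o => G (V.tt u α l x o) • ζ o + (G' (V.tt u α l x o) * V.ww u o) • V.rr u ζ α l x o)
      (fun o => u o * G (V.tt u α l x o))
      (fun o => G (V.tt u α l x o) • ζ o + (G' (V.tt u α l x o) * V.ww u o) • V.rr u ζ α l x o)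
    = cz n * ∫ o, u o ^ qq n δ * G (V.tt u α l x o) ^ 2 ∂V.ν
      + ∫ o, G' (V.tt u α l x o) ^ 2 * (V.ww u o ^ 2 * ‖V.rr u ζ α l x o‖ ^ 2) ∂V.ν := by
  have hGc : ContinuousOn G (Ioi (-e)) := fun s hs => (hG s hs).continuousAt.continuousWithinAt
  have h1 := h.inH.pow hV h.nonneg h.bdd hα hl x he hG hG'
  have hΓ : ∀ s ∈ Ioi (-e), HasDerivAt (fun s => G s ^ 2) (2 * G s * G' s) s := fun s hs =>
    ((hG s hs).fun_pow 2).congr_deriv (by simp)
  have h2 := h.inH.pow hV h.nonneg h.bdd hα hl x he hΓ ((continuousOn_const.mul hGc).mul hG')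
  have hel := h.el _ _ h2 (gwb_bdd hV h.nonneg h.bdd hα hl x he (hGc.pow 2))
  have i2 := h.inH.integrable_B h2
  have i1 := h1.integrable_B h1
  have j2 := i2.1.add (i2.2.const_mul (cz n * hsq σ Λ n))
  have j1 := i1.1.add (i1.2.const_mul (cz n * hsq σ Λ n))
  have key := integral_sub j1 j2
  simp only [Pi.add_apply] at key
  rw [B] at hel ⊢
  rw [hel] at key
  have e1 : ∫ o, u o ^ (qq n δ - 1) * (u o * G (V.tt u α l x o) ^ 2) ∂V.ν
      = ∫ o, u o ^ qq n δ * G (V.tt u α l x o) ^ 2 ∂V.ν :=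
    integral_congr_ae (ae_of_all _ fun o => by
      simp only
      rw [← mul_assoc, gwb_pow_succ hV hδ (h.nonneg o)])
  rw [e1] at key
  rw [← sub_eq_iff_eq_add', ← key]
  refine integral_congr_ae (ae_of_all _ fun o => ?_)
  simp only [inner_add_left, inner_add_right, real_inner_smul_left, real_inner_smul_right,
    real_inner_self_eq_norm_sq, real_inner_comm (ζ o) (V.rr u ζ α l x o), norm_smul, mul_pow,
    Real.norm_eq_abs, sq_abs]
  ring

theorem gwb_alg {a N σ α l c hs U w W F F' t zz zx xx : ℝ} (ha : 0 < a) (hN : N = 2 * a + 2)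
    (hW : 0 < W) (ht : t = w * W) (hc : c = N / 2 * a) :
    F' * (w ^ 2 * ((W / a) ^ 2 * zz + 2 * (W / a * (U * l)) * zx + (U * l) ^ 2 * xx))
        + N / 2 * F * (w * ((W / a) ^ 2 * zz + 2 * (W / a * (U * l)) * zx + (U * l) ^ 2 * xx) / W)
        + N / 2 * (2 * l * α - σ * α ^ 2) * (U ^ 2 * w * F / W)
      = (l * (U * F * (w * zx + w * (1 / a) * zx)
            + U * w * (F * zx + F' * w * (W / a * zx + U * l * xx)))
          + N / 2 * (U * F * (U * w) * l ^ 2 * xx / W)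
          + N / 2 * (2 * l * α - σ * α ^ 2) * (U * F * (U * w) / W)
          - N / 2 * hs * (U * F * (U * w) * W))
        + 1 / a * ((t * F * zz + (F + t * F') * w * (W / a * zz + U * l * zx))
          + c * hs * (U * (U * (t * F)))) := by
  subst ht hc hN
  field_simp
  ring

/-- (W): `basic` with `f = u² w F(t) = (u F(t)) · (u w)` (`mul`; `u w` is `pow` with `α = 1`, `l = 0`,
`Γ = id`, gradient `(1 + 1/a) w ζ`), plus `1/a` times `el` tested with `u Γ(t)`, `Γ s = s F s`;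
`c₀ / a = n/2 = a + 1`.  Pointwise algebra in the inner products `⟪ζ,ζ⟫, ⟪ζ,ξ⟫, ⟪ξ,ξ⟫`. -/
theorem Ext.W (hV : V.Std) (h : V.Ext δ u ζ) (hδ : δ ∈ Icc (0 : ℝ) 1) {α l : ℝ} (hα : 0 < α)
    (hl : 0 ≤ l) (x : X) {F F' : ℝ → ℝ} {e : ℝ} (he : 0 < e)
    (hF : ∀ s ∈ Ioi (-e), HasDerivAt F (F' s) s) (hF' : ContinuousOn F' (Ioi (-e)))
    (hF0 : ∀ s, 0 ≤ s → 0 ≤ F s) :
    ∫ o, (F' (V.tt u α l x o) * (V.ww u o ^ 2 * ‖V.rr u ζ α l x o‖ ^ 2)
        + n / 2 * F (V.tt u α l x o) * (V.ww u o * ‖V.rr u ζ α l x o‖ ^ 2 / (α + l * V.K x o))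
        + n / 2 * (2 * l * α - σ * α ^ 2)
          * (u o ^ 2 * V.ww u o * F (V.tt u α l x o) / (α + l * V.K x o))) ∂V.ν
      ≤ n / 2 * ∫ o, u o ^ qq n δ * (F (V.tt u α l x o) * V.tt u α l x o) ∂V.ν := by
  have ha := hV.aa_pos
  have hFc : ContinuousOn F (Ioi (-e)) := fun s hs => (hF s hs).continuousAt.continuousWithinAt
  have h1 := h.inH.pow hV h.nonneg h.bdd hα.le hl x he hF hF'
  have h2 := h.inH.pow hV h.nonneg h.bdd zero_le_one le_rfl x he (Γ := fun s => s)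
    (Γ' := fun _ => 1) (fun s _ => hasDerivAt_id s) continuousOn_const
  have b1 := gwb_bdd hV h.nonneg h.bdd hα.le hl x he hFc
  have b2 := gwb_bdd hV h.nonneg h.bdd zero_le_one le_rfl x he (Γ := fun s => s) continuousOn_id
  have h3 := h1.mul h2 b1 b2
  have hΓ : ∀ s ∈ Ioi (-e), HasDerivAt (fun s => s * F s) (F s + s * F' s) s := fun s hs => by
    exact ((hasDerivAt_id' s).fun_mul (hF s hs)).congr_deriv (by ring)
  have h4 := h.inH.pow hV h.nonneg h.bdd hα.le hl x he hΓ (hFc.add (continuousOn_id.mul hF'))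
  have b4 := gwb_bdd hV h.nonneg h.bdd hα.le hl x he (Γ := fun s => s * F s)
    (continuousOn_id.mul hFc)
  have hW : ∀ o, 0 < α + l * V.K x o := fun o =>
    add_pos_of_pos_of_nonneg hα (mul_nonneg hl (K_nonneg hV.hσ x o))
  have hb := h3.basic hV (ae_of_all _ fun o => mul_nonneg
    (mul_nonneg (h.nonneg o) (hF0 _ (gwb_tt_nonneg hV h.nonneg hα.le hl x o)))
    (mul_nonneg (h.nonneg o) (gwb_tt_nonneg hV h.nonneg zero_le_one le_rfl x o))) hα hl x
  have hel := h.el _ _ h4 b4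
  have i4 := h.inH.integrable_B h4
  have i3 := (h3.integrable_B (inH_K x)).1
  have if3 : Integrable (fun o => u o * F (V.tt u α l x o) * (u o * V.tt u 1 0 x o)) V.ν :=
    h3.1.integrable one_le_two
  obtain ⟨D, hD1, hD⟩ := V.exists_K_le
  obtain ⟨D', hD'0, hD'⟩ := V.exists_ξ_le
  have mW : Measurable fun o => α + l * V.K x o := (measurable_K x).const_mul l |>.const_add α
  have j1 : Integrable (fun o => u o * F (V.tt u α l x o) * (u o * V.tt u 1 0 x o) * l ^ 2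
      * ‖V.ξ o x‖ ^ 2 / (α + l * V.K x o)) V.ν := by
    have := if3.mul_bdd (g := fun o => l ^ 2 * ‖V.ξ o x‖ ^ 2 / (α + l * V.K x o))
      (c := l ^ 2 * D' ^ 2 / α)
      ((((V.meas_ξ x).norm.pow_const 2).const_mul _).div mW).aestronglyMeasurable
      (ae_of_all _ fun o => by
        rw [Real.norm_eq_abs, abs_of_nonneg (div_nonneg (by positivity) (hW o).le)]
        have := mul_nonneg hl (K_nonneg (V := V) hV.hσ x o)
        gcongr
        · exact hD' x o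
        · linarith)
    exact this.congr (ae_of_all _ fun o => by simp only; ring)
  have j2 : Integrable (fun o => u o * F (V.tt u α l x o) * (u o * V.tt u 1 0 x o)
      / (α + l * V.K x o)) V.ν := by
    have := if3.mul_bdd (g := fun o => (α + l * V.K x o)⁻¹) (c := α⁻¹) mW.inv.aestronglyMeasurable
      (ae_of_all _ fun o => by
        rw [Real.norm_eq_abs, abs_of_nonneg (inv_nonneg.2 (hW o).le)]
        have := mul_nonneg hl (K_nonneg (V := V) hV.hσ x o)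
        gcongr
        linarith)
    exact this.congr (ae_of_all _ fun o => by simp only; ring)
  have j3 : Integrable (fun o => u o * F (V.tt u α l x o) * (u o * V.tt u 1 0 x o)
      * (α + l * V.K x o)) V.ν :=
    if3.mul_bdd (c := α + l * D) mW.aestronglyMeasurable (ae_of_all _ fun o => by
      rw [Real.norm_eq_abs, abs_of_nonneg (hW o).le]
      gcongr
      exact hD x o)
  have iA := (((i3.const_mul l).add (j1.const_mul (n / 2))).add
    (j2.const_mul (n / 2 * (2 * l * α - σ * α ^ 2)))).sub (j3.const_mul (n / 2 * hsq σ Λ n))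
  have iB := (i4.1.add (i4.2.const_mul (cz n * hsq σ Λ n))).const_mul (1 / aa n)
  have key := integral_add iA iB
  simp only [Pi.add_apply, Pi.sub_apply] at key
  rw [integral_const_mul] at key
  rw [B] at hel
  rw [hel] at key
  have e1 : ∫ o, u o ^ (qq n δ - 1) * (u o * (V.tt u α l x o * F (V.tt u α l x o))) ∂V.ν
      = ∫ o, u o ^ qq n δ * (F (V.tt u α l x o) * V.tt u α l x o) ∂V.ν := by
    refine integral_congr_ae (ae_of_all _ fun o => ?_)
    simp only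
    rw [← mul_assoc, gwb_pow_succ hV hδ (h.nonneg o), mul_comm (V.tt u α l x o)]
  rw [e1, cz_eq] at key
  have e2 : 1 / aa n * (n / 2 * aa n
      * ∫ o, u o ^ qq n δ * (F (V.tt u α l x o) * V.tt u α l x o) ∂V.ν)
      = n / 2 * ∫ o, u o ^ qq n δ * (F (V.tt u α l x o) * V.tt u α l x o) ∂V.ν := by
    field_simp
  rw [e2] at key
  refine le_of_eq_of_le (Eq.trans ?_ key) (by linarith)
  refine integral_congr_ae (ae_of_all _ fun o => ?_)
  have hN : (n : ℝ) = 2 * aa n + 2 := by unfold aa; ring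
  have t1 : V.tt u 1 0 x o = V.ww u o := by simp [tt]
  have := gwb_alg (σ := σ) (α := α) (l := l) (hs := hsq σ Λ n) (U := u o) (w := V.ww u o)
    (F := F (V.tt u α l x o)) (F' := F' (V.tt u α l x o)) (zz := ‖ζ o‖ ^ 2)
    (zx := ⟪ζ o, V.ξ o x⟫_ℝ) (xx := ‖V.ξ o x‖ ^ 2) ha hN (hW o) (t := V.tt u α l x o) rfl rfl
  simp only [t1, rr, inner_add_left, inner_add_right, real_inner_smul_left, real_inner_smul_right,
    real_inner_self_eq_norm_sq, norm_add_sq_real, norm_smul, mul_pow, Real.norm_eq_abs, sq_abs]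
  simp only [mul_pow] at this
  linear_combination this

/-- `W` with `F s = s (τ + s)^(-n)`, drop the (nonnegative for small `α`) last term, `α → 0` -/
theorem Ext.W0 (hV : V.Std) (h : V.Ext δ u ζ) (hδ : δ ∈ Icc (0 : ℝ) 1) {l : ℝ} (hl : 0 < l) (x : X)
    {τ : ℝ} (hτ : 0 < τ) :
    ∫ o, ((n / 2 + 1) * τ - aa n * V.tt u 0 l x o) * (τ + V.tt u 0 l x o) ^ (-(n + 1 : ℝ))
        * (V.ww u o ^ 2 * ‖V.rr u ζ 0 l x o‖ ^ 2) ∂V.ν
      ≤ n / 2 * ∫ o, u o ^ qq n δ * (V.tt u 0 l x o ^ 2 * (τ + V.tt u 0 l x o) ^ (-(n : ℝ))) ∂V.ν := by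
  have ha := hV.aa_pos
  have he : 0 < τ / 2 := half_pos hτ
  have hp : ∀ s ∈ Ioi (-(τ / 2)), 0 < τ + s := fun s hs => by simp only [mem_Ioi] at hs; linarith
  have cpow : ∀ β : ℝ, ContinuousOn (fun s : ℝ => (τ + s) ^ β) (Ioi (-(τ / 2))) := fun β =>
    (continuousOn_const.add continuousOn_id).rpow_const fun s hs => Or.inl (hp s hs).ne'
  set c1 : ℝ → ℝ := fun s => ((n / 2 + 1) * τ - aa n * s) * (τ + s) ^ (-(n + 1 : ℝ)) with hc1
  set c2 : ℝ → ℝ := fun s => s ^ 2 * (τ + s) ^ (-(n : ℝ)) with hc2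
  have cc1 : ContinuousOn c1 (Ioi (-(τ / 2))) :=
    (continuousOn_const.sub (continuousOn_const.mul continuousOn_id)).mul (cpow _)
  have cc2 : ContinuousOn c2 (Ioi (-(τ / 2))) := (continuousOn_id.pow 2).mul (cpow _)
  have mt : ∀ α, Measurable (V.tt u α l x) := fun α =>
    (h.meas.pow_const _).mul (((measurable_K x).const_mul l).const_add α)
  have mw : Measurable (V.ww u) := h.meas.pow_const _
  have m1 : Measurable c1 := by rw [hc1]; fun_prop
  have m2 : Measurable c2 := by rw [hc2]; fun_prop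
  obtain ⟨C1, hC10, hC1⟩ := gwb_comp_le hV h.nonneg h.bdd hl.le x 1 he cc1
  obtain ⟨C2, hC20, hC2⟩ := gwb_comp_le hV h.nonneg h.bdd hl.le x 1 he cc2
  obtain ⟨R, hR0, hR⟩ := gwb_ww_le hV h.nonneg h.bdd
  obtain ⟨D, hD1, hD⟩ := V.exists_K_le
  obtain ⟨D', hD'0, hD'⟩ := V.exists_ξ_le
  have hq := hV.qq_gt (δ := δ) (by linarith [hδ.2])
  have mr : ∀ α, AEStronglyMeasurable (fun o => V.ww u o ^ 2 * ‖V.rr u ζ α l x o‖ ^ 2) V.ν :=
    fun α => (mw.pow_const 2).aestronglyMeasurable.mul (AEStronglyMeasurable.pow (AEStronglyMeasurable.norm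
      (((((measurable_K x).const_mul l).const_add α).div_const _).aestronglyMeasurable.smul
        h.inH.2.1.1 |>.add
        ((h.meas.mul_const l).aestronglyMeasurable.smul (V.meas_ξ x).aestronglyMeasurable))) 2)
  have ib : Integrable (fun o => C1 * (R ^ 2 * ((1 + l * D) / aa n * ‖ζ o‖ + R * l * D') ^ 2))
      V.ν := by
    have : MemLp (fun o => (1 + l * D) / aa n * ‖ζ o‖ + R * l * D') 2 V.ν :=
      (h.inH.2.1.norm.const_mul _).add (memLp_const _)
    exact (this.integrable_sq.const_mul _).const_mul _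
  have hb1 : ∀ α, 0 ≤ α → α ≤ 1 → ∀ o,
      ‖c1 (V.tt u α l x o) * (V.ww u o ^ 2 * ‖V.rr u ζ α l x o‖ ^ 2)‖
        ≤ C1 * (R ^ 2 * ((1 + l * D) / aa n * ‖ζ o‖ + R * l * D') ^ 2) := fun α h0 h1 o => by
    have hK := K_nonneg (V := V) hV.hσ x o
    have hw := gwb_ww_nonneg (V := V) h.nonneg o
    have hu := h.nonneg o
    have : ‖V.rr u ζ α l x o‖ ≤ (1 + l * D) / aa n * ‖ζ o‖ + R * l * D' := by
      refine (norm_add_le _ _).trans ?_
      rw [norm_smul, norm_smul, Real.norm_eq_abs, Real.norm_eq_abs, abs_of_nonneg (by positivity),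
        abs_of_nonneg (by positivity)]
      gcongr
      · exact hD x o
      · exact (hR o).1
      · exact hD' x o
    rw [norm_mul, Real.norm_eq_abs, Real.norm_eq_abs,
      abs_of_nonneg (a := V.ww u o ^ 2 * _) (by positivity)]
    gcongr
    · exact hC1 α h0 h1 o
    · exact (hR o).2
  have i1 : ∀ α, 0 ≤ α → α ≤ 1 → Integrable
      (fun o => c1 (V.tt u α l x o) * (V.ww u o ^ 2 * ‖V.rr u ζ α l x o‖ ^ 2)) V.ν :=
    fun α h0 h1 => ib.mono' ((m1.comp (mt α)).aestronglyMeasurable.mul (mr α))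
      (ae_of_all _ (hb1 α h0 h1))
  have ev : ∀ᶠ α in 𝓝[>] (0 : ℝ), 0 < α ∧ α ≤ 1 ∧ σ * α ≤ 2 * l := by
    have a1 : ∀ᶠ α in 𝓝 (0 : ℝ), α ≤ 1 := eventually_le_nhds one_pos
    have a2 : ∀ᶠ α in 𝓝 (0 : ℝ), σ * α ≤ 2 * l :=
      (show Tendsto (fun α : ℝ => σ * α) (𝓝 0) (𝓝 0) by
        simpa using (show Continuous fun α : ℝ => σ * α by fun_prop).tendsto (0 : ℝ)).eventually
        (eventually_le_nhds (by linarith))
    filter_upwards [self_mem_nhdsWithin, nhdsWithin_le_nhds a1, nhdsWithin_le_nhds a2]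
      with α b0 b1 b2 using ⟨b0, b1, b2⟩
  have ct : ∀ o, Tendsto (fun α => V.tt u α l x o) (𝓝[>] 0) (𝓝[Ioi (-(τ / 2))] (V.tt u 0 l x o)) :=
    fun o => by
    refine tendsto_nhdsWithin_iff.2 ⟨?_, ?_⟩
    · refine Tendsto.mono_left (Continuous.tendsto ?_ 0) nhdsWithin_le_nhds
      unfold tt
      fun_prop
    · filter_upwards [self_mem_nhdsWithin] with α hα
      have := gwb_tt_nonneg hV h.nonneg (le_of_lt hα) hl.le x o
      simp only [mem_Ioi]
      linarith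
  have mem0 : ∀ o, V.tt u 0 l x o ∈ Ioi (-(τ / 2)) := fun o => by
    have := gwb_tt_nonneg hV h.nonneg le_rfl hl.le x o
    simp only [mem_Ioi]
    linarith
  have T1 : Tendsto (fun α => ∫ o, c1 (V.tt u α l x o) * (V.ww u o ^ 2 * ‖V.rr u ζ α l x o‖ ^ 2) ∂V.ν)
      (𝓝[>] 0) (𝓝 (∫ o, c1 (V.tt u 0 l x o) * (V.ww u o ^ 2 * ‖V.rr u ζ 0 l x o‖ ^ 2) ∂V.ν)) := by
    refine tendsto_integral_filter_of_dominated_convergence _
      (Eventually.of_forall fun α => (m1.comp (mt α)).aestronglyMeasurable.mul (mr α))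
      (ev.mono fun α hα => ae_of_all _ (hb1 α hα.1.le hα.2.1)) ib (ae_of_all _ fun o => ?_)
    refine ((cc1 _ (mem0 o)).tendsto.comp (ct o)).mul ?_
    refine Tendsto.mono_left (Continuous.tendsto ?_ 0) nhdsWithin_le_nhds
    unfold rr
    fun_prop
  have T2 : Tendsto (fun α => ∫ o, u o ^ qq n δ * c2 (V.tt u α l x o) ∂V.ν)
      (𝓝[>] 0) (𝓝 (∫ o, u o ^ qq n δ * c2 (V.tt u 0 l x o) ∂V.ν)) := by
    refine tendsto_integral_filter_of_dominated_convergence (fun _ => R ^ qq n δ * C2)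
      (Eventually.of_forall fun α =>
        ((h.meas.pow_const _).mul (m2.comp (mt α))).aestronglyMeasurable)
      (ev.mono fun α hα => ae_of_all _ fun o => ?_) (integrable_const _) (ae_of_all _ fun o => ?_)
    · rw [norm_mul, Real.norm_eq_abs, Real.norm_eq_abs,
        abs_of_nonneg (Real.rpow_nonneg (h.nonneg o) _)]
      exact mul_le_mul (Real.rpow_le_rpow (h.nonneg o) (hR o).1 (by linarith))
        (hC2 α hα.1.le hα.2.1 o) (abs_nonneg _) (by positivity)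
    · exact ((cc2 _ (mem0 o)).tendsto.comp (ct o)).const_mul _
  refine le_of_tendsto_of_tendsto T1 (T2.const_mul (n / 2 : ℝ)) (ev.mono fun α hα => ?_)
  obtain ⟨hα0, hα1, hα2⟩ := hα
  have hF : ∀ s ∈ Ioi (-(τ / 2)), HasDerivAt (fun s => s * (τ + s) ^ (-(n : ℝ)))
      ((τ + s) ^ (-(n : ℝ)) - n * s * (τ + s) ^ (-(n + 1 : ℝ))) s := fun s hs => by
    have := (hasDerivAt_id' s).fun_mul
      (((hasDerivAt_id' s).const_add τ).rpow_const (p := -(n : ℝ)) (Or.inl (hp s hs).ne'))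
    refine this.congr_deriv ?_
    rw [show -(n : ℝ) - 1 = -(n + 1) by ring]
    ring
  have hW := h.W hV hδ hα0 hl.le x he hF ((cpow _).sub ((continuousOn_const.mul continuousOn_id).mul
    (cpow _))) (fun s hs => by positivity)
  have hWp : ∀ o, 0 < α + l * V.K x o := fun o =>
    add_pos_of_pos_of_nonneg hα0 (mul_nonneg hl.le (K_nonneg hV.hσ x o))
  have hq0 : 0 ≤ n / 2 * (2 * l * α - σ * α ^ 2) := by
    have : 0 ≤ α * (2 * l - σ * α) := mul_nonneg hα0.le (by linarith)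
    exact mul_nonneg (by positivity) (by nlinarith)
  obtain ⟨C3, hC30, hC3⟩ := gwb_comp_le hV h.nonneg h.bdd hl.le x 1 he
    (Γ := fun s => s * (τ + s) ^ (-(n : ℝ))) (continuousOn_id.mul (cpow _))
  have hQ0 : ∀ o, 0 ≤ u o ^ 2 * V.ww u o * (V.tt u α l x o * (τ + V.tt u α l x o) ^ (-(n : ℝ)))
      / (α + l * V.K x o) := fun o => by
    have := gwb_tt_nonneg hV h.nonneg hα0.le hl.le x o
    have := gwb_ww_nonneg (V := V) h.nonneg o
    have := hWp o
    positivity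
  have iQ : Integrable (fun o => u o ^ 2 * V.ww u o
      * (V.tt u α l x o * (τ + V.tt u α l x o) ^ (-(n : ℝ))) / (α + l * V.K x o)) V.ν := by
    refine (integrable_const (R ^ 2 * R * C3 / α)).mono' (Measurable.aestronglyMeasurable
      ((((h.meas.pow_const 2).mul mw).mul ((mt α).mul (((mt α).const_add τ).pow_const _))).div
        (((measurable_K x).const_mul l).const_add α))) (ae_of_all _ fun o => ?_)
    rw [Real.norm_eq_abs, abs_of_nonneg (hQ0 o)]
    have := mul_nonneg hl.le (K_nonneg (V := V) hV.hσ x o)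
    have := gwb_tt_nonneg hV h.nonneg hα0.le hl.le x o
    have := gwb_ww_nonneg (V := V) h.nonneg o
    have := h.nonneg o
    gcongr
    · exact (hR o).1
    · exact (hR o).2
    · exact (le_abs_self _).trans (hC3 α hα0.le hα1 o)
    · linarith
  have key := integral_add (i1 α hα0.le hα1) (iQ.const_mul (n / 2 * (2 * l * α - σ * α ^ 2)))
  rw [integral_const_mul] at key
  have pos := mul_nonneg hq0 (integral_nonneg (μ := V.ν) hQ0)
  have e1 : ∫ o, u o ^ qq n δ * (V.tt u α l x o * (τ + V.tt u α l x o) ^ (-(n : ℝ))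
      * V.tt u α l x o) ∂V.ν = ∫ o, u o ^ qq n δ * c2 (V.tt u α l x o) ∂V.ν :=
    integral_congr_ae (ae_of_all _ fun o => by simp only [hc2]; ring)
  rw [e1] at hW
  refine le_trans (le_trans (le_add_of_nonneg_right pos) (le_of_eq (key.symm.trans ?_))) hW
  refine integral_congr_ae (ae_of_all _ fun o => ?_)
  have hp' : 0 < τ + V.tt u α l x o := by
    have := gwb_tt_nonneg hV h.nonneg hα0.le hl.le x o
    linarith
  have e2 : (τ + V.tt u α l x o) ^ (-(n : ℝ))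
      = (τ + V.tt u α l x o) ^ (-(n + 1 : ℝ)) * (τ + V.tt u α l x o) := by
    rw [← Real.rpow_add_one hp'.ne']
    congr 1
    ring
  have e3 : V.tt u α l x o = V.ww u o * (α + l * V.K x o) := rfl
  have := (hWp o).ne'
  simp only [hc1]
  rw [e2]
  generalize (τ + V.tt u α l x o) ^ (-(n + 1 : ℝ)) = P
  rw [e3]
  unfold aa
  field_simp
  ring

end VS

end Crest.Agent.R241
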